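import Mathlib

/-!
P043 in dimension at least 4: common definitions.

Layer 1: Boolean systems on `ℤ × ℤ`.
Layer 2: tiling equations on `((ℤ × ℤ) × TT) × FF`.
Layer 3: one tile in `L × ℤ`.
-/

namespace Vale.Agent.P043.Z4

/-- The family `e` tiles with the translation set `A`: every `x` is `a + e i` for exactly one
`a ∈ A` and one index `i`. -/
def FT {G : Type*} [AddCommGroup G] {ι : Type*} (A : Set G) (e : ι → G) : Prop :=
  ∀ x : G, ∃! i : ι, x - e i ∈ A

/-- `A` is invariant under a subgroup of finite index. -/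
def Per {G : Type*} [AddCommGroup G] (A : Set G) : Prop :=
  ∃ H : AddSubgroup G, H.FiniteIndex ∧ ∀ h ∈ H, ∀ a ∈ A, a + h ∈ A

/-! ### Layer 1 -/

/-- A Boolean system: bits `K`, invariances, a pointwise relation, a special bit. -/
structure BS (K : Type) where
  Inv : Set (K × (ℤ × ℤ))
  R : Set (K → Bool)
  c : K

/-- solutions of a Boolean system -/
structure Sol {K : Type} (S : BS K) (β : ℤ × ℤ → K → Bool) : Prop where
  inv : ∀ k v, (k, v) ∈ S.Inv → ∀ x, β (x + v) k = β x k
  rel : ∀ x, β x ∈ S.R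
  flip : ∀ x, β (x + (2, 0)) S.c = !(β x S.c)
  diag : ∀ x, β (x + (1, -1)) S.c = β x S.c

/-- periodic Boolean functions -/
def PerB {K : Type} (β : ℤ × ℤ → K → Bool) : Prop :=
  ∃ N : ℕ, 0 < N ∧ ∀ x, β (x + ((N : ℤ), 0)) = β x ∧ β (x + (0, (N : ℤ))) = β x

/-! ### Layer 2 -/

section
variable {K : Type} (p : K → ℕ)

/-- the time group -/
abbrev TT : Type := ZMod 4 × (∀ k, ZMod (p k))

/-- the fibre group -/
abbrev FF : Type := ZMod 2 × (∀ k, ZMod (p k))

/-- the base group -/
abbrev ZZ : Type := (ℤ × ℤ) × TT p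

/-- the element `τ` of order two of the base group -/
def tau : ZZ p := ((0, 0), ((2 : ZMod 4), 0))

/-- `0` or `τ` -/
def eps (b : Bool) : ZZ p := if b then tau p else 0

/-- the basic family -/
def E0 : Bool × FF p → ZZ p × FF p := fun i => (eps p i.1, i.2)

/-- a family of graph type -/
def gr (s : FF p → ZZ p) (o : FF p → FF p) : Bool × FF p → ZZ p × FF p :=
  fun i => (s i.2 + eps p i.1, o i.2)

/-- the set with points over `P`, with values `f` -/
def mkA (P : Set (ZZ p)) (f : ZZ p → FF p) : Set (ZZ p × FF p) := {q | q.1 ∈ P ∧ q.2 = f q.1}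

/-- exactly one of `z`, `z - τ` is in `P` -/
def Half (P : Set (ZZ p)) : Prop := ∀ z, z ∈ P ↔ z - tau p ∉ P

open Classical in
/-- the value at the one of `z`, `z - τ` that is in `P` -/
noncomputable def hat (P : Set (ZZ p)) (f : ZZ p → FF p) (z : ZZ p) : FF p :=
  if z ∈ P then f z else f (z - tau p)

/-- the shift `s` for the equality of the `k`-th coordinates at distance `v` -/
noncomputable def sEq (k : K) (v : ZZ p) (u : FF p) : ZZ p :=
  open Classical in if u.2 k = 0 then 0 else v

/-- unit vector of the coordinate `k` in the time group, as an element of the base group -/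
noncomputable def dl (k : K) : ZZ p := open Classical in ((0, 0), (0, Pi.single k 1))

/-- the shift for slopes `0` and `1` -/
noncomputable def sAP (k : K) (u : FF p) : ZZ p :=
  open Classical in if u.2 k = 0 then - dl p k else if u.2 k = 1 then dl p k else 0

/-- (K3) invariance of the presence set and of the `t`-coordinate -/
noncomputable def e3 (w : ZZ p) : Bool × FF p → ZZ p × FF p :=
  fun i => (if i.1 = false then (if i.2.1 = 0 then 0 else w) else w + tau p, i.2)

/-- (K4) invariance of the presence set -/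
noncomputable def e4 (v : ZZ p) : Bool × FF p → ZZ p × FF p :=
  fun i => (if i.1 = false then 0 else v + tau p, i.2)

/-- (K5) invariance of the function `ζ` -/
noncomputable def e5 (v : ZZ p) : Bool × FF p → ZZ p × FF p :=
  fun i => (if i.1 = false then (if i.2.1 = 0 then 0 else v)
    else (if i.2.1 = 0 then v + tau p else tau p), i.2)

open Classical in
/-- the function `ζ` -/
noncomputable def zeta (P : Set (ZZ p)) (f : ZZ p → FF p) (z : ZZ p) : ZMod 2 :=
  if z ∈ P then (f z).1 else (f (z - tau p)).1 + 1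

/-- one step in the first time coordinate -/
def one0 : ZZ p := ((0, 0), ((1 : ZMod 4), 0))

/-- (K6) the shift of the reading gadget -/
noncomputable def sRead (c : K) (u : FF p) : ZZ p :=
  open Classical in
  if u.2 c = 0 ∧ u.1 = 1 then one0 p - dl p c
  else if u.2 c = 1 ∧ u.1 = 0 then one0 p + dl p c else 0

/-- the displacement of the clause gadget; `nx` is a cyclic permutation of the bits -/
noncomputable def al (nx : K → K) (u : ∀ k, ZMod (p k)) (k : K) : ZMod (p k) :=
  open Classical in
  if ∀ j, u j = 0 ∨ u j = 1 then (if u (nx k) = 1 then 1 - 2 * u k else 0) else 0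

/-- (K8) the shift of the clause gadget -/
noncomputable def sCl (nx : K → K) (b : K → Bool) (u : FF p) : ZZ p :=
  ((0, 0), (0, fun k => if b k then - al p nx u.2 k else al p nx u.2 k))

/-- (K8) the offset of the clause gadget -/
noncomputable def oCl (nx : K → K) (b : K → Bool) (u : FF p) : FF p :=
  (u.1, fun k => if b k then u.2 k else u.2 k + al p nx u.2 k)

end

/-! ### Layer 3 -/

section
variable {L : Type*} [AddCommGroup L]

/-- the basic family: two columns, an interval of length `M` -/
def F0 (s0 : L) (M : ℕ) : Bool × Fin M → L × ℤ := fun i => (if i.1 then s0 else 0, ((i.2 : ℕ) : ℤ))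

/-- the set belonging to the residue `(n+1) l + j` -/
def pick (s0 : L) (M n : ℕ) (G : Fin n → Bool × Fin M → L × ℤ) (l j : Fin (n + 1)) :
    Bool × Fin M → L × ℤ :=
  if h : (j : ℕ) = 0 ∨ (l : ℕ) = n ∨ n = 0 then F0 s0 M
  else G ⟨((l : ℕ) + (j : ℕ)) % n, Nat.mod_lt _ (by omega)⟩

/-- the tile -/
def tile (s0 : L) (M n : ℕ) (G : Fin n → Bool × Fin M → L × ℤ) :
    (Fin (n + 1) × Fin (n + 1)) × (Bool × Fin M) → L × ℤ :=
  fun q => ((pick s0 M n G q.1.1 q.1.2 q.2).1,
    ((n : ℤ) + 1) ^ 2 * (pick s0 M n G q.1.1 q.1.2 q.2).2 +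
      (((n : ℤ) + 1) * ((q.1.1 : ℕ) : ℤ) + ((q.1.2 : ℕ) : ℤ)))

end

/-! ### Final statement -/

/-- `A ⊕ F = G`: every `x ∈ G` has a unique expression `x = a + f` with `a ∈ A`, `f ∈ F`. -/
def IsTiling {G : Type*} [AddCommGroup G] (A : Set G) (F : Finset G) : Prop :=
  ∀ x : G, ∃! q : G × G, q.1 ∈ A ∧ q.2 ∈ F ∧ q.1 + q.2 = x

/-- `A + h = A` for all `h` in some subgroup of finite index. -/
def IsPeriodic {G : Type*} [AddCommGroup G] (A : Set G) : Prop :=
  ∃ H : AddSubgroup G, H.FiniteIndex ∧ ∀ h ∈ H, (fun a => a + h) '' A = A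

end Vale.Agent.P043.Z4
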