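import Vale.Agent.P043.Z4.Defs

/-!
P043 in dimension at least 4: definitions for layer 1 (the 2-adic Boolean system).
-/

namespace Vale.Agent.P043.Z4

/-- odd part (with sign) of a nonzero integer -/
def op (n : ℤ) : ℤ := n / 2 ^ (padicValInt 2 n)

/-- the six linear forms -/
def lf : Fin 6 → ℤ × ℤ := ![(1, 0), (0, 1), (1, 1), (1, -1), (1, 2), (2, 1)]

/-- a vector of each kernel -/
def kf : Fin 6 → ℤ × ℤ := ![(0, 1), (1, 0), (1, -1), (1, 1), (2, -1), (1, -2)]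

/-- value of a form -/
def ev (l : Fin 6) (x : ℤ × ℤ) : ℤ := (lf l).1 * x.1 + (lf l).2 * x.2

/-- the hypothesis of the descent -/
structure Hyp (φ : Fin 6 → ℤ → ℤ) : Prop where
  R : ∀ x : ℤ × ℤ, ∃ y : ℤ × ℤ, ∀ l, ev l y ≠ 0 ∧ φ l (ev l x) ≡ op (ev l y) [ZMOD 64]
  C : ∀ l n, Odd n → φ l n ≡ n [ZMOD 4]

/-- the pattern 0011 -/
def gg (n : ZMod 4) : Bool := decide (n = 2 ∨ n = 3)

end Vale.Agent.P043.Z4
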