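import Vale.Agent.P043.Z4.Defs1

/-!
P043 in dimension at least 4: definitions for layer 2 (structure of the solutions, the system).
-/

namespace Vale.Agent.P043.Z4

section
variable {K : Type} (p : K → ℕ)

/-- the consequences of (K1), (K2), (K3) -/
structure Str (P : Set (ZZ p)) (f : ZZ p → FF p) (β : ℤ × ℤ → K → Bool) : Prop where
  half : Half p P
  coord : ∀ (k : K) (z w : ZZ p), w.1 = 0 → w.2.2 k = 0 →
    (hat p P f (z + w)).2 k = (hat p P f z).2 k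
  fst : ∀ (z w : ZZ p), w.1 = 0 → w.2.1 = 0 → (hat p P f (z + w)).1 = (hat p P f z).1
  slope : ∀ (k : K) (z : ZZ p),
    (hat p P f (z + dl p k)).2 k = (hat p P f z).2 k + if β z.1 k then 1 else 0

/-- the system of tiling equations -/
def sys (S : BS K) (nx : K → K) : Set (Bool × FF p → ZZ p × FF p) :=
  {e | ∃ (k : K) (w : TT p), w.2 k = 0 ∧ e = gr p (sEq p k ((0, 0), w)) id} ∪
  {e | ∃ (k : K) (v : ℤ × ℤ), (k, v) ∈ S.Inv ∧ e = gr p (sEq p k (v, 0)) id} ∪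
  {e | ∃ k : K, e = gr p (sAP p k) id} ∪
  {e | ∃ w : TT p, w.1 = 0 ∧ e = e3 p ((0, 0), w)} ∪
  {e | e = e4 p ((1, 0), 0) ∨ e = e4 p ((0, 1), 0)} ∪
  {e | e = e5 p ((2, 0), (1, 0)) ∨ e = e5 p ((1, -1), 0)} ∪
  {e | e = gr p (sRead p S.c) id} ∪
  {e | ∃ b : K → Bool, b ∉ S.R ∧ e = gr p (sCl p nx b) (oCl p nx b)}

end

end Vale.Agent.P043.Z4
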