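import Vale.Agent.P043.Z4.Defs1

/-!
P043, layer 1, number theory core: six functions of one integer variable, tied together by odd
parts of the values of six linear forms at a common point, cannot be periodic.
-/

namespace Vale.Agent.P043.Z4.Core

/-- The six linear forms. -/
def L : Fin 6 → ℤ → ℤ → ℤ :=
  ![fun x _ => x, fun _ y => y, fun x y => x + y, fun x y => x - y, fun x y => x + 2 * y,
    fun x y => 2 * x + y]

@[simp] lemma L0 (x y : ℤ) : L 0 x y = x := rfl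
@[simp] lemma L01 (x y : ℤ) : L 1 x y = y := rfl
@[simp] lemma L2 (x y : ℤ) : L 2 x y = x + y := rfl
@[simp] lemma L3 (x y : ℤ) : L 3 x y = x - y := rfl
@[simp] lemma L4 (x y : ℤ) : L 4 x y = x + 2 * y := rfl
@[simp] lemma L5 (x y : ℤ) : L 5 x y = 2 * x + y := rfl

lemma L_smul (i : Fin 6) (t x y : ℤ) : L i (t * x) (t * y) = t * L i x y := by
  fin_cases i <;> simp [L] <;> ring

lemma L_add (i : Fin 6) (x y z w : ℤ) : L i (x + z) (y + w) = L i x y + L i z w := by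
  fin_cases i <;> simp [L] <;> ring

lemma L_sub (i : Fin 6) (x y z w : ℤ) : L i (x - z) (y - w) = L i x y - L i z w := by
  fin_cases i <;> simp [L] <;> ring

/-- `m` is the odd part of `n` (in particular `n ≠ 0`). -/
def IsOp (n m : ℤ) : Prop := Odd m ∧ ∃ k : ℕ, n = 2 ^ k * m

/-- The values `c i` are, modulo 64, the odd parts of the forms at `(y1, y2)`. -/
def At (c : Fin 6 → ℤ) (y1 y2 : ℤ) : Prop :=
  ∀ i, ∃ m, IsOp (L i y1 y2) m ∧ (64 : ℤ) ∣ c i - m

structure Good (φ : Fin 6 → ℤ → ℤ) : Prop where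
  R : ∀ x1 x2 : ℤ, ∃ y1 y2 : ℤ, At (fun i => φ i (L i x1 x2)) y1 y2
  C : ∀ i n, Odd n → (4 : ℤ) ∣ φ i n - n

lemma IsOp.ne_zero {n m : ℤ} (h : IsOp n m) : n ≠ 0 := by
  obtain ⟨hm, k, rfl⟩ := h
  have : m ≠ 0 := by rintro rfl; simp at hm
  positivity

lemma IsOp.of_odd {n m : ℤ} (h : IsOp n m) (hn : n % 2 = 1) : n = m := by
  obtain ⟨hm, k, hk⟩ := h
  rcases k with _ | k
  · simpa using hk
  · exfalso
    rw [pow_succ] at hk
    have : n = 2 * (2 ^ k * m) := by rw [hk]; ring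
    omega

lemma IsOp.half {n m : ℤ} (h : IsOp (2 * n) m) : IsOp n m := by
  obtain ⟨hm, k, hk⟩ := h
  refine ⟨hm, ?_⟩
  rcases k with _ | k
  · exfalso
    obtain ⟨j, hj⟩ := hm
    simp at hk
    omega
  · refine ⟨k, ?_⟩
    have : 2 * n = 2 * (2 ^ k * m) := by rw [hk, pow_succ]; ring
    linarith

lemma IsOp.of_two {n m : ℤ} (h : IsOp n m) (hn : n % 4 = 2) : n = 2 * m := by
  have h2 : n = 2 * (n / 2) := by omega
  rw [h2] at h
  have h3 := h.half
  have h4 : (n / 2) % 2 = 1 := by omega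
  have := h3.of_odd h4
  omega

/-- One may take `y` not both even. -/
lemma reduce (c : Fin 6 → ℤ) : ∀ (N : ℕ) (y1 y2 : ℤ), y1.natAbs < N → At c y1 y2 →
    ∃ z1 z2, At c z1 z2 ∧ ¬ (z1 % 2 = 0 ∧ z2 % 2 = 0) := by
  intro N
  induction N with
  | zero => intro y1 y2 h; omega
  | succ N ih =>
    intro y1 y2 hN h
    by_cases he : y1 % 2 = 0 ∧ y2 % 2 = 0
    · obtain ⟨m, hm, -⟩ := h 0
      have h0 : y1 ≠ 0 := by simpa using hm.ne_zero
      have e1 : y1 = 2 * (y1 / 2) := by omega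
      have e2 : y2 = 2 * (y2 / 2) := by omega
      refine ih (y1 / 2) (y2 / 2) (by omega) ?_
      intro i
      obtain ⟨m, hm, hd⟩ := h i
      refine ⟨m, ?_, hd⟩
      rw [e1, e2, L_smul] at hm
      exact hm.half
    · exact ⟨y1, y2, h, he⟩

lemma At.odd {c : Fin 6 → ℤ} {y1 y2 : ℤ} (h : At c y1 y2) (i : Fin 6)
    (ho : L i y1 y2 % 2 = 1) : (64 : ℤ) ∣ c i - L i y1 y2 := by
  obtain ⟨m, hm, hd⟩ := h i
  rw [hm.of_odd ho]
  exact hd

/-- Step (2): for `x` not both even there is `y` as in (R) with `y = x mod 4`. -/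
lemma Good.point {φ : Fin 6 → ℤ → ℤ} (h : Good φ) (x1 x2 : ℤ)
    (hx : ¬ (x1 % 2 = 0 ∧ x2 % 2 = 0)) :
    ∃ y1 y2, At (fun i => φ i (L i x1 x2)) y1 y2 ∧ (4 : ℤ) ∣ y1 - x1 ∧ (4 : ℤ) ∣ y2 - x2 := by
  obtain ⟨y1, y2, hy⟩ := h.R x1 x2
  obtain ⟨z1, z2, hz, hne⟩ := reduce _ _ y1 y2 (Nat.lt_succ_self _) hy
  refine ⟨z1, z2, hz, ?_⟩
  have o0 := hz.odd 0
  have o1 := hz.odd 1
  have o2 := hz.odd 2
  have o3 := hz.odd 3
  have o4 := hz.odd 4
  have o5 := hz.odd 5
  have c0 := h.C 0 (L 0 x1 x2)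
  have c1 := h.C 1 (L 1 x1 x2)
  have c2 := h.C 2 (L 2 x1 x2)
  have c3 := h.C 3 (L 3 x1 x2)
  have c4 := h.C 4 (L 4 x1 x2)
  have c5 := h.C 5 (L 5 x1 x2)
  simp only [L0, L01, L2, L3, L4, L5, Int.odd_iff] at o0 o1 o2 o3 o4 o5 c0 c1 c2 c3 c4 c5
  have hp : x1 % 2 = z1 % 2 ∧ x2 % 2 = z2 % 2 := by
    rcases Int.emod_two_eq_zero_or_one x1 with a | a <;>
    rcases Int.emod_two_eq_zero_or_one x2 with b | b <;>
    rcases Int.emod_two_eq_zero_or_one z1 with d | d <;>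
    rcases Int.emod_two_eq_zero_or_one z2 with e | e <;>
    first
      | (exfalso; clear o0 o1 o2 o3 o4 o5 c0 c1 c2 c3 c4 c5; omega)
      | (constructor <;> (clear o0 o1 o2 o3 o4 o5 c0 c1 c2 c3 c4 c5; omega))
      | (exfalso
         have p1 := o2 (by omega)
         have p2 := o3 (by omega)
         have q1 := c2 (by omega)
         have q2 := c3 (by omega)
         omega)
      | (exfalso
         have p1 := o0 (by omega)
         have p2 := o4 (by omega)
         have q1 := c0 (by omega)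
         have q2 := c4 (by omega)
         omega)
      | (exfalso
         have p1 := o1 (by omega)
         have p2 := o5 (by omega)
         have q1 := c1 (by omega)
         have q2 := c5 (by omega)
         omega)
  obtain ⟨hp1, hp2⟩ := hp
  rcases Int.emod_two_eq_zero_or_one x1 with a | a <;>
  rcases Int.emod_two_eq_zero_or_one x2 with b | b
  · exact absurd ⟨a, b⟩ hx
  · have p1 := o1 (by omega)
    have p2 := o2 (by omega)
    have q1 := c1 (by omega)
    have q2 := c2 (by omega)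
    constructor <;> omega
  · have p1 := o0 (by omega)
    have p2 := o2 (by omega)
    have q1 := c0 (by omega)
    have q2 := c2 (by omega)
    constructor <;> omega
  · have p1 := o0 (by omega)
    have p2 := o1 (by omega)
    have q1 := c0 (by omega)
    have q2 := c1 (by omega)
    constructor <;> omega

lemma Good.E4 {φ : Fin 6 → ℤ → ℤ} (h : Good φ) (a b : ℤ) (ha : a % 2 = 1) (hb : b % 2 = 1) :
    (64 : ℤ) ∣ φ 4 (a + 2 * b) - φ 0 a - 2 * φ 1 b := by
  obtain ⟨y1, y2, hy, d1, d2⟩ := h.point a b (by omega)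
  have o0 := hy.odd 0
  have o1 := hy.odd 1
  have o4 := hy.odd 4
  simp only [L0, L01, L4] at o0 o1 o4
  have := o0 (by omega)
  have := o1 (by omega)
  have := o4 (by omega)
  omega

lemma Good.E5 {φ : Fin 6 → ℤ → ℤ} (h : Good φ) (a b : ℤ) (ha : a % 2 = 1) (hb : b % 2 = 1) :
    (64 : ℤ) ∣ φ 5 (2 * a + b) - 2 * φ 0 a - φ 1 b := by
  obtain ⟨y1, y2, hy, d1, d2⟩ := h.point a b (by omega)
  have o0 := hy.odd 0
  have o1 := hy.odd 1
  have o5 := hy.odd 5
  simp only [L0, L01, L5] at o0 o1 o5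
  have := o0 (by omega)
  have := o1 (by omega)
  have := o5 (by omega)
  omega

/-- A function with constant second-step difference modulo 32 is affine on odd numbers. -/
lemma affine_of_step (f : ℤ → ℤ) (al : ℤ) (u : ℤ)
    (hu : (16 : ℤ) ∣ u - 2 * al) (hf : ∀ n, n % 2 = 1 → (32 : ℤ) ∣ f (n + 2) - f n - u) :
    ∀ n, n % 2 = 1 → (16 : ℤ) ∣ f n - al * n - (f 1 - al) := by
  have key : ∀ j : ℤ, (16 : ℤ) ∣ f (2 * j + 1) - al * (2 * j + 1) - (f 1 - al) := by
    intro j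
    induction j using Int.induction_on with
    | zero => simp
    | succ i ih =>
      have h1 := hf (2 * (i : ℤ) + 1) (by omega)
      have e : 2 * ((i : ℤ) + 1) + 1 = 2 * (i : ℤ) + 1 + 2 := by ring
      rw [e]
      have e2 : al * (2 * (i : ℤ) + 1 + 2) = al * (2 * (i : ℤ) + 1) + 2 * al := by ring
      rw [e2]
      generalize al * (2 * (i : ℤ) + 1) = t at *
      omega
    | pred i ih =>
      have h1 := hf (2 * (-(i : ℤ) - 1) + 1) (by omega)
      have e : 2 * (-(i : ℤ)) + 1 = 2 * (-(i : ℤ) - 1) + 1 + 2 := by ring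
      rw [e] at ih
      have e2 : al * (2 * (-(i : ℤ) - 1) + 1 + 2) = al * (2 * (-(i : ℤ) - 1) + 1) + 2 * al := by
        ring
      rw [e2] at ih
      generalize al * (2 * (-(i : ℤ) - 1) + 1) = t at *
      omega
  intro n hn
  have := key (n / 2)
  have e : 2 * (n / 2) + 1 = n := by omega
  rwa [e] at this

/-- Step (3): the functions `φ 0, φ 1, φ 4, φ 5` are affine on odd numbers modulo 16. -/
lemma Good.affine {φ : Fin 6 → ℤ → ℤ} (h : Good φ) :
    ∃ al B1 B2 : ℤ, (al = 1 ∨ al = 5) ∧ (4 : ℤ) ∣ B1 ∧ (4 : ℤ) ∣ B2 ∧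
      (∀ n, n % 2 = 1 → (16 : ℤ) ∣ φ 0 n - al * n - B1) ∧
      (∀ n, n % 2 = 1 → (16 : ℤ) ∣ φ 1 n - al * n - B2) ∧
      (∀ n, n % 2 = 1 → (16 : ℤ) ∣ φ 4 n - al * n - B1 - 2 * B2) ∧
      (∀ n, n % 2 = 1 → (16 : ℤ) ∣ φ 5 n - al * n - 2 * B1 - B2) := by
  set u := φ 0 3 - φ 0 1 with hu
  set v := φ 1 3 - φ 1 1 with hv
  have c01 := h.C 0 1 (by decide)
  have c03 := h.C 0 3 (by decide)
  have c11 := h.C 1 1 (by decide)
  have c13 := h.C 1 3 (by decide)
  have A : ∀ a b : ℤ, a % 2 = 1 → b % 2 = 1 →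
      (64 : ℤ) ∣ φ 0 (a + 4) - φ 0 a - 2 * (φ 1 (b + 2) - φ 1 b) := by
    intro a b ha hb
    have h1 := h.E4 (a + 4) b (by omega) hb
    have h2 := h.E4 a (b + 2) ha (by omega)
    have e : a + 4 + 2 * b = a + 2 * (b + 2) := by ring
    rw [e] at h1
    omega
  have B : ∀ a b : ℤ, a % 2 = 1 → b % 2 = 1 →
      (64 : ℤ) ∣ φ 1 (b + 4) - φ 1 b - 2 * (φ 0 (a + 2) - φ 0 a) := by
    intro a b ha hb
    have h1 := h.E5 a (b + 4) ha (by omega)
    have h2 := h.E5 (a + 2) b (by omega) hb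
    have e : 2 * a + (b + 4) = 2 * (a + 2) + b := by ring
    rw [e] at h1
    omega
  have S0 : ∀ n, n % 2 = 1 → (32 : ℤ) ∣ φ 0 (n + 2) - φ 0 n - u := by
    intro n hn
    have h1 := B n 1 hn (by norm_num)
    have h2 := B 1 1 (by norm_num) (by norm_num)
    norm_num at h1 h2
    omega
  have S1 : ∀ n, n % 2 = 1 → (32 : ℤ) ∣ φ 1 (n + 2) - φ 1 n - v := by
    intro n hn
    have h1 := A 1 n (by norm_num) hn
    have h2 := A 1 1 (by norm_num) (by norm_num)
    norm_num at h1 h2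
    omega
  have huv : (16 : ℤ) ∣ u - v := by
    have h1 := A 1 1 (by norm_num) (by norm_num)
    have h2 := S0 3 (by norm_num)
    norm_num at h1 h2
    omega
  have hu8 : (8 : ℤ) ∣ u - 2 := by
    obtain ⟨y1, y2, hy, d1, d2⟩ := h.point 1 0 (by norm_num)
    have o0 := hy.odd 0
    have o4 := hy.odd 4
    simp only [L0, L4] at o0 o4
    have p0 := o0 (by omega)
    have p4 := o4 (by omega)
    norm_num at p0 p4
    have h3 := h.E4 (-1) 1 (by norm_num) (by norm_num)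
    have h4 := S0 (-1) (by norm_num)
    norm_num at h3 h4
    omega
  obtain ⟨al, hal, hua⟩ : ∃ al : ℤ, (al = 1 ∨ al = 5) ∧ (16 : ℤ) ∣ u - 2 * al := by
    have : u % 16 = 2 ∨ u % 16 = 10 := by omega
    rcases this with h | h
    · exact ⟨1, Or.inl rfl, by omega⟩
    · exact ⟨5, Or.inr rfl, by omega⟩
  have hva : (16 : ℤ) ∣ v - 2 * al := by omega
  have F0 := affine_of_step (φ 0) al u hua S0
  have F1 := affine_of_step (φ 1) al v hva S1
  refine ⟨al, φ 0 1 - al, φ 1 1 - al, hal, by omega, by omega, F0, F1, ?_, ?_⟩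
  · intro n hn
    have h1 := h.E4 (n - 2) 1 (by omega) (by norm_num)
    have e : n - 2 + 2 * 1 = n := by ring
    rw [e] at h1
    have h2 := F0 (n - 2) (by omega)
    rcases hal with rfl | rfl <;> omega
  · intro n hn
    have h1 := h.E5 1 (n - 2) (by norm_num) (by omega)
    have e : 2 * 1 + (n - 2) = n := by ring
    rw [e] at h1
    have h2 := F1 (n - 2) (by omega)
    rcases hal with rfl | rfl <;> omega

/-- End of step (3): for `x` not both even there is `y` as in (R) with `y = al x + B mod 8`. -/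
lemma Good.affine_point {φ : Fin 6 → ℤ → ℤ} (h : Good φ) :
    ∃ al B1 B2 : ℤ, (al = 1 ∨ al = 5) ∧ (4 : ℤ) ∣ B1 ∧ (4 : ℤ) ∣ B2 ∧
      ∀ x1 x2 : ℤ, ¬ (x1 % 2 = 0 ∧ x2 % 2 = 0) → ∃ y1 y2 : ℤ,
        At (fun i => φ i (L i x1 x2)) y1 y2 ∧ (8 : ℤ) ∣ y1 - al * x1 - B1 ∧
          (8 : ℤ) ∣ y2 - al * x2 - B2 := by
  obtain ⟨al, B1, B2, hal, h1, h2, F0, F1, F4, F5⟩ := h.affine
  refine ⟨al, B1, B2, hal, h1, h2, ?_⟩
  intro x1 x2 hx
  obtain ⟨y1, y2, hy, d1, d2⟩ := h.point x1 x2 hx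
  refine ⟨y1, y2, hy, ?_⟩
  have o0 := hy.odd 0
  have o1 := hy.odd 1
  have o4 := hy.odd 4
  have o5 := hy.odd 5
  simp only [L0, L01, L4, L5] at o0 o1 o4 o5
  rcases Int.emod_two_eq_zero_or_one x1 with a | a <;>
  rcases Int.emod_two_eq_zero_or_one x2 with b | b
  · exact absurd ⟨a, b⟩ hx
  · have p1 := o1 (by omega)
    have p5 := o5 (by omega)
    have f1 := F1 x2 b
    have f5 := F5 (2 * x1 + x2) (by omega)
    rcases hal with rfl | rfl <;> constructor <;> omega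
  · have p0 := o0 (by omega)
    have p4 := o4 (by omega)
    have f0 := F0 x1 a
    have f4 := F4 (x1 + 2 * x2) (by omega)
    rcases hal with rfl | rfl <;> constructor <;> omega
  · have p0 := o0 (by omega)
    have p1 := o1 (by omega)
    have f0 := F0 x1 a
    have f1 := F1 x2 b
    rcases hal with rfl | rfl <;> constructor <;> omega

/-- Step (4): doubling and shifting gives another good system. -/
lemma Good.next {φ : Fin 6 → ℤ → ℤ} (h : Good φ) :
    ∃ b1 b2 : ℤ, Good (fun i m => φ i (2 * (m - L i b1 b2))) := by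
  obtain ⟨al, B1, B2, hal, h1, h2, Y⟩ := h.affine_point
  obtain ⟨b1, rfl⟩ : ∃ b1, B1 = 2 * b1 := ⟨B1 / 2, by omega⟩
  obtain ⟨b2, rfl⟩ : ∃ b2, B2 = 2 * b2 := ⟨B2 / 2, by omega⟩
  refine ⟨b1, b2, ?_, ?_⟩
  · intro x1 x2
    obtain ⟨y1, y2, hy⟩ := h.R (2 * (x1 - b1)) (2 * (x2 - b2))
    refine ⟨y1, y2, ?_⟩
    intro i
    have := hy i
    simp only [L_smul, L_sub] at this
    exact this
  · intro i m hm
    rw [Int.odd_iff] at hm
    obtain ⟨x1, x2, hx, hL⟩ : ∃ x1 x2 : ℤ, ¬ (x1 % 2 = 0 ∧ x2 % 2 = 0) ∧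
        L i x1 x2 = 2 * (m - L i b1 b2) := by
      generalize m - L i b1 b2 = n
      fin_cases i
      · exact ⟨2 * n, 1, by omega, by simp⟩
      · exact ⟨1, 2 * n, by omega, by simp⟩
      · exact ⟨2 * n - 1, 1, by omega, by simp⟩
      · exact ⟨2 * n + 1, 1, by omega, by simp⟩
      · exact ⟨2 * n - 2, 1, by omega, by simp⟩
      · exact ⟨1, 2 * n - 2, by omega, by simp⟩
    obtain ⟨y1, y2, hy, d1, d2⟩ := Y x1 x2 hx
    obtain ⟨q, hq, hd⟩ := hy i
    simp only [hL] at hd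
    have key : (8 : ℤ) ∣ L i y1 y2 - al * L i x1 x2 - 2 * L i b1 b2 := by
      fin_cases i <;> simp <;> rcases hal with rfl | rfl <;> omega
    rw [hL] at key
    have h4 : L i y1 y2 % 4 = 2 := by
      generalize L i y1 y2 = t at *
      generalize L i b1 b2 = s at *
      rcases hal with rfl | rfl <;> omega
    have h5 := hq.of_two h4
    generalize L i y1 y2 = t at *
    generalize L i b1 b2 = s at *
    rcases hal with rfl | rfl <;> omega

/-- Step (5): no good system has a `φ 0` which is periodic modulo 4. -/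
theorem Good.not_periodic : ∀ (P : ℕ), 0 < P → ∀ φ : Fin 6 → ℤ → ℤ, Good φ →
    ¬ ∀ n, (4 : ℤ) ∣ φ 0 (n + P) - φ 0 n := by
  intro P
  induction P using Nat.strong_induction_on with
  | _ P ih =>
    intro hP φ h hper
    rcases Nat.even_or_odd' P with ⟨p, hp | hp⟩
    · obtain ⟨b1, b2, hn⟩ := h.next
      refine ih p (by omega) (by omega) _ hn ?_
      intro n
      have e : 2 * (n + (p : ℤ) - L 0 b1 b2) = 2 * (n - L 0 b1 b2) + (P : ℤ) := by
        rw [hp]; push_cast; ring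
      show (4 : ℤ) ∣ φ 0 (2 * (n + (p : ℤ) - L 0 b1 b2)) - φ 0 (2 * (n - L 0 b1 b2))
      rw [e]
      exact hper _
    · have c1 := h.C 0 1 (by decide)
      have c2 := h.C 0 (1 + P + P) (by rw [Int.odd_iff]; omega)
      have e := hper (1 + P)
      have e2 := hper 1
      omega

/-! ### Link with the shared definitions -/

lemma ev_eq (l : Fin 6) (x : ℤ × ℤ) : ev l x = L l x.1 x.2 := by
  fin_cases l <;> simp [ev, lf, L] <;> ring

lemma op_spec' {n : ℤ} (h : n ≠ 0) : Odd (op n) ∧ ∃ v : ℕ, n = 2 ^ v * op n := by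
  have hd : (2 : ℤ) ^ padicValInt 2 n ∣ n := by
    have := padicValInt_dvd (p := 2) n
    exact_mod_cast this
  have hn : n = 2 ^ padicValInt 2 n * op n := by
    rw [op]
    exact (Int.mul_ediv_cancel' hd).symm
  refine ⟨?_, _, hn⟩
  rw [Int.odd_iff]
  by_contra hc
  have he : op n % 2 = 0 := by omega
  have h2 : (2 : ℤ) ∣ op n := Int.dvd_of_emod_eq_zero he
  have h3 : ((2 : ℕ) : ℤ) ^ (padicValInt 2 n + 1) ∣ n := by
    obtain ⟨j, hj⟩ := h2
    refine ⟨j, ?_⟩
    conv_lhs => rw [hn, hj]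
    push_cast
    ring
  rw [padicValInt_dvd_iff] at h3
  rcases h3 with h3 | h3
  · exact h h3
  · omega

lemma IsOp.of_ne_zero {n : ℤ} (h : n ≠ 0) : IsOp n (op n) := op_spec' h

lemma IsOp.unique {n m m' : ℤ} (h : IsOp n m) (h' : IsOp n m') : m = m' := by
  obtain ⟨hm, k, hk⟩ := h
  induction k generalizing n with
  | zero =>
    have : n = m := by simpa using hk
    subst this
    exact h'.of_odd (Int.odd_iff.1 hm)
  | succ k ih =>
    have e : n = 2 * (2 ^ k * m) := by rw [hk, pow_succ]; ring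
    rw [e] at h'
    exact ih h'.half rfl

lemma IsOp.eq_op {n m : ℤ} (h : IsOp n m) : m = op n := h.unique (IsOp.of_ne_zero h.ne_zero)

lemma at_iff (c : Fin 6 → ℤ) (y : ℤ × ℤ) :
    At c y.1 y.2 ↔ ∀ l, ev l y ≠ 0 ∧ c l ≡ op (ev l y) [ZMOD 64] := by
  unfold At
  refine forall_congr' fun l => ?_
  rw [ev_eq]
  constructor
  · rintro ⟨m, hm, hd⟩
    refine ⟨hm.ne_zero, ?_⟩
    rw [← hm.eq_op]
    exact (Int.modEq_iff_dvd.2 hd).symm
  · rintro ⟨h0, hm⟩
    exact ⟨_, IsOp.of_ne_zero h0, Int.modEq_iff_dvd.1 hm.symm⟩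

lemma good_iff (φ : Fin 6 → ℤ → ℤ) : Good φ ↔ Hyp φ := by
  constructor
  · intro h
    refine ⟨?_, ?_⟩
    · intro x
      obtain ⟨y1, y2, hy⟩ := h.R x.1 x.2
      refine ⟨(y1, y2), ?_⟩
      have := (at_iff _ (y1, y2)).1 hy
      intro l
      rw [ev_eq l x]
      exact this l
    · intro l n hn
      exact (Int.modEq_iff_dvd.2 (h.C l n hn)).symm
  · intro h
    refine ⟨?_, ?_⟩
    · intro x1 x2
      obtain ⟨y, hy⟩ := h.R (x1, x2)
      refine ⟨y.1, y.2, (at_iff _ y).2 ?_⟩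
      intro l
      have := hy l
      rw [ev_eq l (x1, x2)] at this
      exact this
    · intro l n hn
      exact Int.modEq_iff_dvd.1 (h.C l n hn).symm

end Vale.Agent.P043.Z4.Core
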