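import Vale.Agent.P043.Z4.Defs1

/-!
P043 in dimension at least 4: facts on the odd part of an integer.
-/

namespace Vale.Agent.P043.Z4

theorem op_spec (n : ℤ) : n = 2 ^ (padicValInt 2 n) * op n := by
  unfold op
  have h : (2 : ℤ) ^ (padicValInt 2 n) ∣ n := by
    have := padicValInt_dvd (p := 2) n
    simpa using this
  exact (Int.mul_ediv_cancel' h).symm

theorem op_odd_self {n : ℤ} (h : Odd n) : op n = n := by
  unfold op
  have h2 : padicValInt 2 n = 0 := by
    apply padicValInt.eq_zero_of_not_dvd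
    intro hd
    have : Even n := (even_iff_two_dvd).2 (by simpa using hd)
    exact (Int.not_even_iff_odd.2 h) this
  rw [h2]; simp

theorem op_two_mul {n : ℤ} (hn : n ≠ 0) : op (2 * n) = op n := by
  unfold op
  have h2 : padicValInt 2 (2 * n) = padicValInt 2 n + 1 := by
    have h := padicValInt.mul (p := 2) (a := 2) (b := n) (by norm_num) hn
    have h3 : padicValInt 2 2 = 1 := by
      have := padicValInt_self (p := 2)
      simpa using this
    rw [h, h3]; ring
  rw [h2, pow_succ, mul_comm ((2 : ℤ) ^ padicValInt 2 n) 2]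
  exact Int.mul_ediv_mul_of_pos _ _ (by norm_num)

theorem op_two_pow_mul {n : ℤ} (hn : n ≠ 0) (k : ℕ) : op (2 ^ k * n) = op n := by
  induction k with
  | zero => simp
  | succ k ih =>
    rw [pow_succ, mul_comm ((2 : ℤ) ^ k) 2, mul_assoc, op_two_mul (mul_ne_zero (by positivity) hn), ih]

theorem op_odd {n : ℤ} (hn : n ≠ 0) : Odd (op n) := by
  rw [← Int.not_even_iff_odd]
  intro h
  obtain ⟨m, hm⟩ := h
  have h1 := op_spec n
  have h2 : (2 : ℤ) ^ (padicValInt 2 n + 1) ∣ n := by
    refine ⟨m, ?_⟩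
    rw [pow_succ]
    calc n = 2 ^ padicValInt 2 n * op n := h1
      _ = _ := by rw [hm]; ring
  have h3 := (padicValInt_dvd_iff (p := 2) (padicValInt 2 n + 1) n).1 (by simpa using h2)
  rcases h3 with h3 | h3
  · exact hn h3
  · omega

theorem two_pow_mul_op {n : ℤ} (hn : n ≠ 0) : ∃ k : ℕ, n = 2 ^ k * op n ∧ Odd (op n) :=
  ⟨_, op_spec n, op_odd hn⟩

/-- characterisation -/
theorem op_eq_of {n m : ℤ} (k : ℕ) (hm : Odd m) (h : n = 2 ^ k * m) : op n = m := by
  have hm0 : m ≠ 0 := by rintro rfl; exact (by decide : ¬ Odd (0 : ℤ)) hm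
  rw [h, op_two_pow_mul hm0, op_odd_self hm]

end Vale.Agent.P043.Z4
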