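import Vale.Agent.P043.Z4.L1Core

/-!
P043, layer 1: odd parts, and the point `y` of (R) congruent to `x` modulo 4.
-/

namespace Vale.Agent.P043.Z4

theorem op_spec {n : ℤ} (h : n ≠ 0) : Odd (op n) ∧ ∃ v : ℕ, n = 2 ^ v * op n := Core.op_spec' h

theorem op_odd {n : ℤ} (h : Odd n) : op n = n :=
  (Core.IsOp.eq_op ⟨h, 0, by simp⟩).symm

theorem op_two_mul {n : ℤ} (h : n ≠ 0) : op (2 * n) = op n := by
  obtain ⟨h1, v, hv⟩ := op_spec h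
  refine (Core.IsOp.eq_op ⟨h1, v + 1, ?_⟩).symm
  conv_lhs => rw [hv]
  rw [pow_succ]
  ring

theorem hyp_prim {φ : Fin 6 → ℤ → ℤ} (h : Hyp φ) (x : ℤ × ℤ) (hx : Odd x.1 ∨ Odd x.2) :
    ∃ y : ℤ × ℤ, y.1 ≡ x.1 [ZMOD 4] ∧ y.2 ≡ x.2 [ZMOD 4] ∧
      ∀ l, ev l y ≠ 0 ∧ φ l (ev l x) ≡ op (ev l y) [ZMOD 64] := by
  rw [Int.odd_iff, Int.odd_iff] at hx
  obtain ⟨y1, y2, hy, d1, d2⟩ := ((Core.good_iff φ).2 h).point x.1 x.2 (by omega)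
  refine ⟨(y1, y2), (Int.modEq_iff_dvd.2 d1).symm, (Int.modEq_iff_dvd.2 d2).symm, ?_⟩
  have := (Core.at_iff _ (y1, y2)).1 hy
  intro l
  rw [Core.ev_eq l x]
  exact this l

end Vale.Agent.P043.Z4
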