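import Vale.Agent.P043.Z4.T01

/-!
P043, layer 1: the point `y` of (R) is affine in `x` modulo 8.
-/

namespace Vale.Agent.P043.Z4

theorem hyp_affine {φ : Fin 6 → ℤ → ℤ} (h : Hyp φ) :
    ∃ α B1 B2 : ℤ, α ≡ 1 [ZMOD 4] ∧ B1 ≡ 0 [ZMOD 4] ∧ B2 ≡ 0 [ZMOD 4] ∧
      ∀ x : ℤ × ℤ, (Odd x.1 ∨ Odd x.2) → ∃ y : ℤ × ℤ,
        y.1 ≡ α * x.1 + B1 [ZMOD 8] ∧ y.2 ≡ α * x.2 + B2 [ZMOD 8] ∧
        ∀ l, ev l y ≠ 0 ∧ φ l (ev l x) ≡ op (ev l y) [ZMOD 64] := by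
  obtain ⟨al, B1, B2, hal, h1, h2, Y⟩ := ((Core.good_iff φ).2 h).affine_point
  refine ⟨al, B1, B2, ?_, (Int.modEq_zero_iff_dvd).2 h1, (Int.modEq_zero_iff_dvd).2 h2, ?_⟩
  · rcases hal with rfl | rfl <;> decide
  intro x hx
  rw [Int.odd_iff, Int.odd_iff] at hx
  obtain ⟨y1, y2, hy, d1, d2⟩ := Y x.1 x.2 (by omega)
  refine ⟨(y1, y2), (Int.modEq_iff_dvd.2 ?_).symm, (Int.modEq_iff_dvd.2 ?_).symm, ?_⟩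
  · rwa [← sub_sub]
  · rwa [← sub_sub]
  have := (Core.at_iff _ (y1, y2)).1 hy
  intro l
  rw [Core.ev_eq l x]
  exact this l

end Vale.Agent.P043.Z4
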