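import Vale.Agent.P043.Z4.T01

/-!
P043, layer 1: renormalisation and descent.
-/

namespace Vale.Agent.P043.Z4

theorem hyp_step {φ : Fin 6 → ℤ → ℤ} (h : Hyp φ) :
    ∃ b : ℤ × ℤ, Hyp (fun l m => φ l (2 * (m - ev l b))) := by
  obtain ⟨b1, b2, hb⟩ := ((Core.good_iff φ).2 h).next
  refine ⟨(b1, b2), ?_⟩
  have := (Core.good_iff _).1 hb
  simpa only [Core.ev_eq] using this

theorem hyp_aperiodic {φ : Fin 6 → ℤ → ℤ} (h : Hyp φ) (P : ℕ) (hP : 0 < P) :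
    ¬ ∀ n, φ 0 (n + P) ≡ φ 0 n [ZMOD 4] := by
  intro hper
  exact Core.Good.not_periodic P hP φ ((Core.good_iff φ).2 h)
    fun n => Int.modEq_iff_dvd.1 (hper n).symm

end Vale.Agent.P043.Z4
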