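import Vale.Agent.P043.Z4.T01

/-!
P043, T4: the clock and the existence of a solution of the 2-adic system.
-/

namespace Vale.Agent.P043.Z4

namespace T04

lemma gg_two : ∀ n : ZMod 4, gg (n + 2) = !(gg n) := by decide

lemma gg_sep : ∀ s s' t : ZMod 4, ∀ u : ZMod 4, (u = 1 ∨ u = 3) →
    gg (t + s) = gg (t + s') → gg (t + u + s) = gg (t + u + s') → s = s' := by decide

/-- a takes values of both parities -/
lemma both (a b : ℤ → ZMod 4) (κ : ℤ → Bool) (hκ : ∀ m, κ (m + 2) = !(κ m))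
    (h : ∀ i j, κ (i + j) = gg (a i + b j)) : ∃ i u, (u = 1 ∨ u = 3) ∧ a i = a 0 + u := by
  by_contra hcon
  push Not at hcon
  -- all values of a are a 0 or a 0 + 2
  have ha : ∀ i, a i = a 0 ∨ a i = a 0 + 2 := by
    intro i
    have h1 := hcon i 1 (Or.inl rfl)
    have h3 := hcon i 3 (Or.inr rfl)
    revert h1 h3
    generalize a i = s
    generalize a 0 = t
    revert s t
    decide
  -- κ (1 + m) = κ m or κ (1 + m) = ! κ m for all m
  have h0 : ∀ m, κ m = gg (a 0 + b m) := fun m => by rw [← h 0 m, zero_add]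
  have h1 : ∀ m, κ (1 + m) = gg (a 1 + b m) := fun m => h 1 m
  have hc : κ (0 + 2) = κ 0 := by
    rcases ha 1 with h2 | h2
    · have e : ∀ m, κ (1 + m) = κ m := fun m => by rw [h1, h0, h2]
      have := e 1
      rw [show (0 : ℤ) + 2 = 1 + 1 by norm_num, this]
      exact e 0
    · have e : ∀ m, κ (1 + m) = !(κ m) := fun m => by
        rw [h1, h0, h2, add_right_comm, gg_two]
      have := e 1
      rw [show (0 : ℤ) + 2 = 1 + 1 by norm_num, this]
      have := e 0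
      rw [add_zero] at this
      rw [this, Bool.not_not]
  rw [hκ] at hc
  exact Bool.not_ne_self _ hc

lemma step2 (a b : ℤ → ZMod 4) (κ : ℤ → Bool) (hκ : ∀ m, κ (m + 2) = !(κ m))
    (h : ∀ i j, κ (i + j) = gg (a i + b j)) (j : ℤ) : b (j + 2) = b j + 2 := by
  obtain ⟨i, u, hu, hi⟩ := both a b κ hκ h
  have key : ∀ k, gg (a k + b (j + 2)) = gg (a k + (b j + 2)) := by
    intro k
    rw [← h, ← add_assoc, ← add_assoc, hκ, gg_two, h]
  refine gg_sep _ _ (a 0) u hu (key 0) ?_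
  rw [← hi]
  exact key i

lemma lin (f : ℤ → ZMod 4) (e : ZMod 4) (he : e = 1 ∨ e = -1) (h2 : ∀ j, f (j + 2) = f j + 2)
    (h1 : f 1 = f 0 + e) : ∀ j, f (j + 1) = f j + e := by
  have h2e : (2 : ZMod 4) - e = e := by rcases he with rfl | rfl <;> decide
  intro j
  induction j using Int.induction_on with
  | zero => simpa using h1
  | succ n ih =>
    have := h2 n
    rw [show ((n : ℤ) + 1 + 1) = n + 2 by ring, this, ih]
    rw [add_assoc, ← two_mul]
    congr 1
    rcases he with rfl | rfl <;> decide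
  | pred n ih =>
    have := h2 (-(n : ℤ) - 1)
    rw [show (-(n : ℤ) - 1 + 2) = -(n : ℤ) + 1 by ring, ih] at this
    rw [show (-(n : ℤ) - 1 + 1) = -(n : ℤ) by ring]
    have h4 : f (-(n : ℤ)) = f (-(n : ℤ) - 1) + 2 - e := by rw [← this]; ring
    rw [h4, add_sub_assoc, h2e]

lemma lin' (f : ℤ → ZMod 4) (e : ℤ) (h : ∀ j, f (j + 1) = f j + (e : ZMod 4)) :
    ∀ j : ℤ, f j = ((e * j + ((f 0).val : ℤ) : ℤ) : ZMod 4) := by
  intro j
  induction j using Int.induction_on with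
  | zero => simp
  | succ n ih => rw [h, ih]; push_cast; ring
  | pred n ih =>
    have := h (-(n : ℤ) - 1)
    rw [show (-(n : ℤ) - 1 + 1) = -(n : ℤ) by ring, ih] at this
    have h5 : f (-(n : ℤ) - 1) = ((e * (-(n : ℤ)) + ((f 0).val : ℤ) : ℤ) : ZMod 4) - (e : ZMod 4) := by
      rw [this]; ring
    rw [h5]; push_cast; ring

/-- `b 1 - b 0` is odd -/
lemma odd1 (a b : ℤ → ZMod 4) (κ : ℤ → Bool) (hκ : ∀ m, κ (m + 2) = !(κ m))
    (h : ∀ i j, κ (i + j) = gg (a i + b j)) (h2 : ∀ i, a (i + 2) = a i + 2) :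
    a 1 = a 0 + 1 ∨ a 1 = a 0 + -1 := by
  by_contra hcon
  push Not at hcon
  obtain ⟨i, u, hu, hi⟩ := both a b κ hκ h
  -- parity class
  have h01 : a 1 = a 0 ∨ a 1 = a 0 + 2 := by
    obtain ⟨h3, h4⟩ := hcon
    revert h3 h4
    generalize a 1 = s
    generalize a 0 = t
    revert s t
    decide
  have hall : ∀ i : ℤ, (a i = a 0 ∨ a i = a 0 + 2) ∧ (a (i + 1) = a 0 ∨ a (i + 1) = a 0 + 2) := by
    intro i
    induction i using Int.induction_on with
    | zero => exact ⟨Or.inl rfl, by simpa using h01⟩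
    | succ n ih =>
      refine ⟨ih.2, ?_⟩
      rw [show ((n : ℤ) + 1 + 1) = n + 2 by ring, h2]
      rcases ih.1 with h5 | h5
      · right; rw [h5]
      · left; rw [h5, add_assoc, show (2 + 2 : ZMod 4) = 0 by decide, add_zero]
    | pred n ih =>
      rw [show (-(n : ℤ) - 1 + 1) = -(n : ℤ) by ring]
      refine ⟨?_, ih.1⟩
      have h6 := h2 (-(n : ℤ) - 1)
      rw [show (-(n : ℤ) - 1 + 2) = -(n : ℤ) + 1 by ring] at h6
      have h7 : a (-(n : ℤ) - 1) = a (-(n : ℤ) + 1) + 2 := by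
        rw [h6, add_assoc, show (2 + 2 : ZMod 4) = 0 by decide, add_zero]
      rw [h7]
      rcases ih.2 with h5 | h5
      · right; rw [h5]
      · left; rw [h5, add_assoc, show (2 + 2 : ZMod 4) = 0 by decide, add_zero]
  have h8 := (hall i).1
  rw [hi] at h8
  revert h8
  generalize a 0 = t
  rcases hu with rfl | rfl <;> (revert t; decide)

end T04

open T04 in
theorem clock (a b : ℤ → ZMod 4) (κ : ℤ → Bool) (hκ : ∀ m, κ (m + 2) = !(κ m))
    (h : ∀ i j, κ (i + j) = gg (a i + b j)) :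
    ∃ e : ℤ, (e = 1 ∨ e = -1) ∧ ∃ d1 d2 : ℤ, (∀ i, a i = ((e * i + d1 : ℤ) : ZMod 4)) ∧
      ∀ j, b j = ((e * j + d2 : ℤ) : ZMod 4) := by
  have h' : ∀ i j, κ (i + j) = gg (b i + a j) := fun i j => by rw [add_comm, h, add_comm]
  have hb2 := step2 a b κ hκ h
  have ha2 := step2 b a κ hκ h'
  have ha1 := odd1 a b κ hκ h ha2
  have hb1 := odd1 b a κ hκ h' hb2
  obtain ⟨e, he, hea⟩ : ∃ e : ℤ, (e = 1 ∨ e = -1) ∧ a 1 = a 0 + (e : ZMod 4) := by
    rcases ha1 with h1 | h1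
    · exact ⟨1, Or.inl rfl, by simpa using h1⟩
    · exact ⟨-1, Or.inr rfl, by simpa using h1⟩
  obtain ⟨e', he', heb⟩ : ∃ e : ℤ, (e = 1 ∨ e = -1) ∧ b 1 = b 0 + (e : ZMod 4) := by
    rcases hb1 with h1 | h1
    · exact ⟨1, Or.inl rfl, by simpa using h1⟩
    · exact ⟨-1, Or.inr rfl, by simpa using h1⟩
  have hc : ((e : ZMod 4) = 1 ∨ (e : ZMod 4) = -1) := by rcases he with rfl | rfl <;> simp
  have hc' : ((e' : ZMod 4) = 1 ∨ (e' : ZMod 4) = -1) := by rcases he' with rfl | rfl <;> simp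
  have hA := lin' a e (lin a e hc ha2 hea)
  have hB := lin' b e' (lin b e' hc' hb2 heb)
  -- e = e'
  have hee : e = e' := by
    have h3 : gg (a 1 + b (-1)) = gg (a 0 + b 0) := by
      rw [← h, ← h]; norm_num
    have h4 : b (-1) = b 0 - (e' : ZMod 4) := by
      have h0 := hB 0
      rw [hB (-1)]
      conv_rhs => rw [h0]
      push_cast; ring
    rw [hea, h4] at h3
    by_contra hne
    have h5 : (e : ZMod 4) - (e' : ZMod 4) = 2 := by
      rcases he with rfl | rfl <;> rcases he' with rfl | rfl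
      · exact absurd rfl hne
      · decide
      · decide
      · exact absurd rfl hne
    have h6 : a 0 + (e : ZMod 4) + (b 0 - (e' : ZMod 4)) = a 0 + b 0 + 2 := by
      rw [← h5]; ring
    rw [h6, gg_two] at h3
    exact Bool.not_ne_self _ h3
  subst hee
  exact ⟨e, he, _, _, hA, hB⟩

namespace T04

lemma op_pow_mul (v : ℕ) {m : ℤ} (hm : Odd m) : op (2 ^ v * m) = m := by
  have hm0 : m ≠ 0 := by rintro rfl; exact absurd hm (by decide)
  induction v with
  | zero => rw [pow_zero, one_mul]; exact op_odd hm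
  | succ v ih =>
    have h0 : (2 : ℤ) ^ v * m ≠ 0 := mul_ne_zero (pow_ne_zero _ two_ne_zero) hm0
    rw [pow_succ', mul_assoc, op_two_mul h0, ih]

/-- adding a large power of two does not change the odd part modulo 64 -/
lemma op_add (v N : ℕ) (c m : ℤ) (hm : Odd m) (hN : v + 7 ≤ N) :
    2 ^ v * m + 2 ^ N * c ≠ 0 ∧ m ≡ op (2 ^ v * m + 2 ^ N * c) [ZMOD 64] := by
  obtain ⟨k, rfl⟩ := Nat.exists_eq_add_of_le hN
  have e : 2 ^ v * m + 2 ^ (v + 7 + k) * c = 2 ^ v * (m + 64 * (2 * (2 ^ k * c))) := by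
    rw [pow_add, pow_add]; ring
  have ho : Odd (m + 64 * (2 * (2 ^ k * c))) := by
    refine hm.add_even ?_
    exact ⟨32 * (2 * (2 ^ k * c)), by ring⟩
  have hne : m + 64 * (2 * (2 ^ k * c)) ≠ 0 := by
    intro h0; rw [h0] at ho; exact absurd ho (by decide)
  refine ⟨?_, ?_⟩
  · rw [e]; exact mul_ne_zero (pow_ne_zero _ two_ne_zero) hne
  · rw [e, op_pow_mul v ho]
    exact (Int.modEq_iff_dvd.2 ⟨2 * (2 ^ k * c), by ring⟩)

end T04

open T04 in
theorem exists_rel (x : ℤ × ℤ) : ∃ y : ℤ × ℤ, ∀ l, ev l y ≠ 0 ∧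
    (if ev l x = 0 then 1 else op (ev l x)) ≡ op (ev l y) [ZMOD 64] := by
  have hv : ∀ l : Fin 6, ∃ v : ℕ, ev l x ≠ 0 → Odd (op (ev l x)) ∧ ev l x = 2 ^ v * op (ev l x) := by
    intro l
    by_cases h0 : ev l x = 0
    · exact ⟨0, fun h => absurd h0 h⟩
    · obtain ⟨h1, v, h2⟩ := op_spec h0
      exact ⟨v, fun _ => ⟨h1, h2⟩⟩
  choose v hv using hv
  set N : ℕ := (∑ l, v l) + 7 with hN
  have hvN : ∀ l, v l + 7 ≤ N := fun l => by
    have := Finset.single_le_sum (f := v) (fun i _ => Nat.zero_le _) (Finset.mem_univ l)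
    omega
  refine ⟨(x.1 + 2 ^ N, x.2 + 2 ^ N * 128), fun l => ?_⟩
  have hev : ev l (x.1 + 2 ^ N, x.2 + 2 ^ N * 128) =
      ev l x + 2 ^ N * ((lf l).1 + 128 * (lf l).2) := by
    unfold ev; ring
  rw [hev]
  by_cases h0 : ev l x = 0
  · rw [if_pos h0, h0, zero_add]
    have hc : ∀ l : Fin 6, ∃ w : ℕ, ∃ m : ℤ, Odd m ∧ (lf l).1 + 128 * (lf l).2 = 2 ^ w * m ∧
        (1 : ℤ) ≡ m [ZMOD 64] := by
      intro l
      fin_cases l
      · exact ⟨0, 1, by decide, by decide, by decide⟩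
      · exact ⟨7, 1, by decide, by decide, by decide⟩
      · exact ⟨0, 129, by decide, by decide, by decide⟩
      · exact ⟨0, -127, by decide, by decide, by decide⟩
      · exact ⟨0, 257, by decide, by decide, by decide⟩
      · exact ⟨1, 65, by decide, by decide, by decide⟩
    obtain ⟨w, m, hm, h1, h2⟩ := hc l
    have hm0 : m ≠ 0 := by rintro rfl; exact absurd hm (by decide)
    rw [h1, ← mul_assoc, ← pow_add]
    exact ⟨mul_ne_zero (pow_ne_zero _ two_ne_zero) hm0, by rw [op_pow_mul _ hm]; exact h2⟩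
  · rw [if_neg h0]
    obtain ⟨h1, h2⟩ := hv l h0
    have := op_add (v l) N ((lf l).1 + 128 * (lf l).2) _ h1 (hvN l)
    rw [← h2] at this
    exact this

end Vale.Agent.P043.Z4
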