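import Vale.Agent.P043.Z4.T01
import Vale.Agent.P043.Z4.T02
import Vale.Agent.P043.Z4.T03
import Vale.Agent.P043.Z4.T04

/-!
P043, layer 1: the Boolean system (one-hot bits), its solution, and the absence of periodic solutions.
-/

namespace Vale.Agent.P043.Z4

namespace T05

/-- the bits -/
abbrev KK : Type := (Fin 6 × ZMod 64) ⊕ (ZMod 4 ⊕ (ZMod 4 ⊕ Unit))

/-- bits of the value of a form -/
def kF (l : Fin 6) (r : ZMod 64) : KK := Sum.inl (l, r)
/-- bits of `a` -/
def kA (s : ZMod 4) : KK := Sum.inr (Sum.inl s)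
/-- bits of `b` -/
def kB (s : ZMod 4) : KK := Sum.inr (Sum.inr (Sum.inl s))
/-- the clock bit -/
def kC : KK := Sum.inr (Sum.inr (Sum.inr ()))

/-- the relation -/
def Rel : Set (KK → Bool) := {β | ∃ (F : Fin 6 → ZMod 64) (a b : ZMod 4),
  (∀ l r, β (kF l r) = decide (F l = r)) ∧ (∀ s, β (kA s) = decide (a = s)) ∧
  (∀ s, β (kB s) = decide (b = s)) ∧ β kC = gg (a + b) ∧
  (∃ y : ℤ × ℤ, ∀ l, ev l y ≠ 0 ∧ F l = ((op (ev l y) : ℤ) : ZMod 64)) ∧
  ∀ (l : Fin 6) (m : ℤ × ℤ), (m.1 : ZMod 4) = a → (m.2 : ZMod 4) = b → Odd (ev l m) →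
    (((F l).val : ℕ) : ℤ) ≡ ev l m [ZMOD 4]}

/-- the system -/
def S : BS KK where
  Inv := Set.range (fun q : Fin 6 × ZMod 64 => (kF q.1 q.2, kf q.1)) ∪
    (Set.range (fun s : ZMod 4 => (kA s, ((0 : ℤ), (1 : ℤ)))) ∪
      Set.range (fun s : ZMod 4 => (kB s, ((1 : ℤ), (0 : ℤ)))))
  R := Rel
  c := kC

theorem S_finite : S.Inv.Finite :=
  (Set.finite_range _).union ((Set.finite_range _).union (Set.finite_range _))

theorem val_modEq (n : ℤ) : ((((n : ZMod 64)).val : ℕ) : ℤ) ≡ n [ZMOD 64] := by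
  have := (ZMod.intCast_eq_intCast_iff ((((n : ZMod 64)).val : ℕ) : ℤ) n 64).1 (by simp)
  exact_mod_cast this

theorem ev_add_kf (l : Fin 6) (x : ℤ × ℤ) : ev l (x + kf l) = ev l x := by
  fin_cases l <;> simp [ev, lf, kf] <;> ring

/-- the value at `x` -/
noncomputable def Fx (x : ℤ × ℤ) (l : Fin 6) : ℤ := if ev l x = 0 then 1 else op (ev l x)

/-- the solution -/
noncomputable def sol (x : ℤ × ℤ) : KK → Bool
  | Sum.inl q => decide (((Fx x q.1 : ℤ) : ZMod 64) = q.2)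
  | Sum.inr (Sum.inl s) => decide ((x.1 : ZMod 4) = s)
  | Sum.inr (Sum.inr (Sum.inl s)) => decide ((x.2 : ZMod 4) = s)
  | Sum.inr (Sum.inr (Sum.inr _)) => gg ((x.1 : ZMod 4) + (x.2 : ZMod 4))

theorem gg_two (n : ZMod 4) : gg (n + 2) = !(gg n) := by
  revert n; decide

theorem ev_modEq (l : Fin 6) (x y : ℤ × ℤ) (N : ℤ) (h1 : x.1 ≡ y.1 [ZMOD N])
    (h2 : x.2 ≡ y.2 [ZMOD N]) : ev l x ≡ ev l y [ZMOD N] := by
  unfold ev
  exact Int.ModEq.add (h1.mul_left _) (h2.mul_left _)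

theorem sol_spec : Sol S sol := by
  constructor
  · rintro k v hkv x
    rcases hkv with ⟨q, hq⟩ | ⟨s, hs⟩ | ⟨s, hs⟩
    · simp only [Prod.mk.injEq] at hq
      obtain ⟨rfl, rfl⟩ := hq
      simp only [sol, kF, Fx, ev_add_kf]
    · simp only [Prod.mk.injEq] at hs
      obtain ⟨rfl, rfl⟩ := hs
      simp [sol, kA]
    · simp only [Prod.mk.injEq] at hs
      obtain ⟨rfl, rfl⟩ := hs
      simp [sol, kB]
  · intro x
    refine ⟨fun l => ((Fx x l : ℤ) : ZMod 64), (x.1 : ZMod 4), (x.2 : ZMod 4), ?_, ?_, ?_, ?_, ?_, ?_⟩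
    · intro l r; rfl
    · intro s; rfl
    · intro s; rfl
    · rfl
    · obtain ⟨y, hy⟩ := exists_rel x
      refine ⟨y, fun l => ⟨(hy l).1, ?_⟩⟩
      rw [ZMod.intCast_eq_intCast_iff]
      exact (hy l).2
    · intro l m h1 h2 hodd
      simp only
      rw [ZMod.intCast_eq_intCast_iff] at h1 h2
      have h3 : ev l m ≡ ev l x [ZMOD 4] := ev_modEq l m x 4 h1 h2
      have hox : Odd (ev l x) := by
        rw [Int.odd_iff] at hodd ⊢
        unfold Int.ModEq at h3
        omega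
      have h4 : Fx x l = ev l x := by
        unfold Fx
        rw [if_neg (by intro h0; rw [h0] at hox; exact (by decide : ¬ Odd (0 : ℤ)) hox), op_odd hox]
      rw [h4]
      have h5 : ((((ev l x : ZMod 64)).val : ℕ) : ℤ) ≡ ev l x [ZMOD 4] :=
        (val_modEq (ev l x)).of_dvd (by norm_num)
      exact h5.trans h3.symm
  · intro x
    show gg _ = !(gg _)
    rw [← gg_two]
    congr 1
    simp only [Prod.fst_add, Prod.snd_add]
    push_cast
    ring
  · intro x
    show gg _ = gg _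
    congr 1
    simp only [Prod.fst_add, Prod.snd_add]
    push_cast
    ring

theorem inv_zsmul {α : Type*} (f : ℤ × ℤ → α) (v : ℤ × ℤ) (h : ∀ x, f (x + v) = f x) (t : ℤ) :
    ∀ x, f (x + t • v) = f x := by
  induction t using Int.induction_on with
  | zero => intro x; simp
  | succ i ih =>
    intro x
    rw [add_smul, one_smul, ← add_assoc, h, ih]
  | pred i ih =>
    intro x
    rw [← h (x + (-(i : ℤ) - 1) • v), sub_smul, one_smul, add_assoc, sub_add_cancel, ih]

/-- section of the form `l` -/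
def sec (l : Fin 6) (n : ℤ) : ℤ × ℤ := (![(n, 0), (0, n), (n, 0), (n, 0), (n, 0), (0, n)] : Fin 6 → ℤ × ℤ) l

theorem ev_sec (l : Fin 6) (n : ℤ) : ev l (sec l n) = n := by
  fin_cases l <;> simp [ev, lf, sec]

theorem sec_spec (l : Fin 6) (x : ℤ × ℤ) : ∃ t : ℤ, x = sec l (ev l x) + t • kf l := by
  fin_cases l
  · exact ⟨x.2, by ext <;> simp [ev, lf, sec, kf]⟩
  · exact ⟨x.1, by ext <;> simp [ev, lf, sec, kf]⟩
  · exact ⟨-x.2, by ext <;> simp [ev, lf, sec, kf]⟩
  · exact ⟨x.2, by ext <;> simp [ev, lf, sec, kf]⟩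
  · exact ⟨-x.2, by ext <;> simp [ev, lf, sec, kf]; ring⟩
  · exact ⟨x.1, by ext <;> simp [ev, lf, sec, kf]; ring⟩

theorem no_per (β : ℤ × ℤ → KK → Bool) (hβ : Sol S β) : ¬ PerB β := by
  rintro ⟨N, hN, hper⟩
  have hrel : ∀ x, β x ∈ Rel := hβ.rel
  choose F a b hF ha hb hc hy hodd using hrel
  -- invariances
  have iF : ∀ l x, F (x + kf l) l = F x l := by
    intro l x
    have := hβ.inv (kF l (F x l)) (kf l) (Or.inl ⟨(l, F x l), rfl⟩) x
    rw [hF, hF] at this
    simpa using this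
  have iA : ∀ x, a (x + (0, 1)) = a x := by
    intro x
    have := hβ.inv (kA (a x)) (0, 1) (Or.inr (Or.inl ⟨a x, rfl⟩)) x
    rw [ha, ha] at this
    simpa using this
  have iB : ∀ x, b (x + (1, 0)) = b x := by
    intro x
    have := hβ.inv (kB (b x)) (1, 0) (Or.inr (Or.inr ⟨b x, rfl⟩)) x
    rw [hb, hb] at this
    simpa using this
  have iA' : ∀ x : ℤ × ℤ, a x = a (x.1, 0) := by
    intro x
    have := inv_zsmul a (0, 1) iA x.2 (x.1, 0)
    rw [← this]
    congr 1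
    ext <;> simp
  have iB' : ∀ x : ℤ × ℤ, b x = b (0, x.2) := by
    intro x
    have := inv_zsmul b (1, 0) iB x.1 (0, x.2)
    rw [← this]
    congr 1
    ext <;> simp
  have iC' : ∀ x : ℤ × ℤ, β x kC = β (x.1 + x.2, 0) kC := by
    intro x
    have := inv_zsmul (fun x => β x kC) (1, -1) hβ.diag (-x.2) (x.1 + x.2, 0)
    rw [← this]
    congr 1
    ext <;> simp
  obtain ⟨e, he, d1, d2, hA, hB⟩ := clock (fun i => a (i, 0)) (fun j => b (0, j))
    (fun m => β (m, 0) kC)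
    (by
      intro m
      have := hβ.flip (m, 0)
      simp only [Prod.mk_add_mk, add_zero] at this
      exact this)
    (by
      intro i j
      have h1 := iC' (i, j)
      have h2 := hc (i, j)
      simp only at h1 ⊢
      rw [← h1, h2, iA' (i, j), iB' (i, j)])
  have hee : e * e = 1 := by rcases he with rfl | rfl <;> norm_num
  -- the change of variables
  set X : ℤ × ℤ → ℤ × ℤ := fun x => (e * (x.1 - d1), e * (x.2 - d2)) with hX
  have hXa : ∀ x, ((x.1 : ℤ) : ZMod 4) = a (X x) := by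
    intro x
    rw [iA', hA]
    congr 1
    simp only [hX]
    rw [← mul_assoc, hee]; ring
  have hXb : ∀ x, ((x.2 : ℤ) : ZMod 4) = b (X x) := by
    intro x
    rw [iB', hB]
    congr 1
    simp only [hX]
    rw [← mul_assoc, hee]; ring
  have hG : ∀ l x, F (X (sec l (ev l x))) l = F (X x) l := by
    intro l x
    obtain ⟨t, ht⟩ := sec_spec l x
    have h1 := inv_zsmul (fun x => F x l) (kf l) (iF l) (e * t) (X (sec l (ev l x)))
    rw [← h1]
    congr 1
    conv_rhs => rw [ht]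
    ext <;> simp [hX] <;> ring
  set φ : Fin 6 → ℤ → ℤ := fun l n => (((F (X (sec l n)) l).val : ℕ) : ℤ) with hφ
  have hyp : Hyp φ := by
    constructor
    · intro x
      obtain ⟨y, hy'⟩ := hy (X x)
      refine ⟨y, fun l => ⟨(hy' l).1, ?_⟩⟩
      simp only [hφ]
      rw [hG, (hy' l).2]
      exact val_modEq _
    · intro l n hn
      simp only [hφ]
      have := hodd (X (sec l n)) l (sec l n) (hXa _) (hXb _) (by rw [ev_sec]; exact hn)
      rw [ev_sec] at this
      exact this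
  refine hyp_aperiodic hyp N hN ?_
  intro n
  have hFper : ∀ x, F (x + ((N : ℤ), 0)) 0 = F x 0 := by
    intro x
    have := (hper x).1
    have h1 := congrFun this (kF 0 (F x 0))
    rw [hF, hF] at h1
    simpa using h1
  have h2 := inv_zsmul (fun x => F x 0) ((N : ℤ), 0) hFper e (X (sec 0 n))
  simp only [hφ]
  rw [← h2]
  have h3 : X (sec 0 (n + N)) = X (sec 0 n) + e • ((N : ℤ), (0 : ℤ)) := by
    ext
    · simp [hX, sec]; ring
    · simp [hX, sec]
  rw [h3]

end T05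

theorem layer1 : ∃ (K : Type) (_ : Fintype K) (_ : DecidableEq K) (_ : Nonempty K) (S : BS K),
    S.Inv.Finite ∧ (∃ β, Sol S β) ∧ ∀ β, Sol S β → ¬ PerB β :=
  ⟨T05.KK, inferInstance, inferInstance, ⟨T05.kC⟩, T05.S, T05.S_finite, ⟨T05.sol, T05.sol_spec⟩,
    T05.no_per⟩

end Vale.Agent.P043.Z4
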