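import Vale.Agent.P043.Z4.Defs2

/-!
P043, layer 2: the basic equation and the criterion for families of graph type.
-/

namespace Vale.Agent.P043.Z4

section
variable {K : Type} (p : K → ℕ)

namespace T06

theorem tau_add_tau : tau p + tau p = 0 := by
  have h4 : (2 : ZMod 4) + 2 = 0 := by decide
  simp [tau, h4]

theorem sub_tau (z : ZZ p) : z - tau p = z + tau p := by
  rw [sub_eq_iff_eq_add, add_assoc, tau_add_tau, add_zero]

theorem sub_sub_tau (z : ZZ p) : z - tau p - tau p = z := by
  rw [sub_sub, tau_add_tau, sub_zero]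

/-- for every `z` there is exactly one `ε` with `z - ε τ ∈ P`, and the value there is `hat z` -/
theorem exists_eps {P : Set (ZZ p)} (hP : Half p P) (f : ZZ p → FF p) (z : ZZ p) :
    ∃ b : Bool, z - eps p b ∈ P ∧ f (z - eps p b) = hat p P f z ∧
      ∀ b', z - eps p b' ∈ P → b' = b := by
  by_cases hz : z ∈ P
  · refine ⟨false, by simpa [eps] using hz, by simp [eps, hat, hz], ?_⟩
    intro b' hb'
    cases b' with
    | false => rfl
    | true => exact absurd (by simpa [eps] using hb') ((hP z).1 hz)
  · have hz' : z - tau p ∈ P := by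
      by_contra h
      exact hz ((hP z).2 h)
    refine ⟨true, by simpa [eps] using hz', by simp [eps, hat, hz], ?_⟩
    intro b' hb'
    cases b' with
    | false => exact absurd (by simpa [eps] using hb') hz
    | true => rfl

end T06

open T06

theorem hat_tau' {P : Set (ZZ p)} (hP : Half p P) (f : ZZ p → FF p) (z : ZZ p) :
    hat p P f (z - tau p) = hat p P f z := by
  by_cases hz : z ∈ P
  · have h1 : z - tau p ∉ P := (hP z).1 hz
    simp only [hat, hz, h1, if_true, if_false, sub_sub_tau]
  · have h1 : z - tau p ∈ P := by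
      by_contra h
      exact hz ((hP z).2 h)
    simp only [hat, hz, h1, if_true, if_false]

theorem hat_tau {P : Set (ZZ p)} (hP : Half p P) (f : ZZ p → FF p) (z : ZZ p) :
    hat p P f (z + tau p) = hat p P f z := by
  rw [← sub_tau, hat_tau' p hP]

theorem ft_gr {P : Set (ZZ p)} (hP : Half p P) (f : ZZ p → FF p) (s : FF p → ZZ p)
    (o : FF p → FF p) : FT (mkA p P f) (gr p s o) ↔
      ∀ z, Function.Bijective (fun u => hat p P f (z - s u) + o u) := by
  have key : ∀ (z : ZZ p) (t : FF p), (∃! i : Bool × FF p, (z, t) - gr p s o i ∈ mkA p P f) ↔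
      ∃! u : FF p, hat p P f (z - s u) + o u = t := by
    intro z t
    have mem : ∀ (b : Bool) (u : FF p), (z, t) - gr p s o (b, u) ∈ mkA p P f ↔
        z - s u - eps p b ∈ P ∧ t - o u = f (z - s u - eps p b) := by
      intro b u
      simp [mkA, gr, sub_sub]
    constructor
    · rintro ⟨⟨b, u⟩, h1, h2⟩
      refine ⟨u, ?_, ?_⟩
      · obtain ⟨h3, h4⟩ := (mem b u).1 h1
        obtain ⟨b1, h5, h6, h7⟩ := exists_eps p hP f (z - s u)
        rw [h7 b h3, h6] at h4
        show hat p P f (z - s u) + o u = t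
        rw [← h4, sub_add_cancel]
      · intro u' hu'
        obtain ⟨b1, h5, h6, h7⟩ := exists_eps p hP f (z - s u')
        have h8 : (z, t) - gr p s o (b1, u') ∈ mkA p P f := by
          refine (mem b1 u').2 ⟨h5, ?_⟩
          rw [h6, ← hu', add_sub_cancel_right]
        exact congrArg Prod.snd (h2 (b1, u') h8)
    · rintro ⟨u, h1, h2⟩
      obtain ⟨b1, h5, h6, h7⟩ := exists_eps p hP f (z - s u)
      refine ⟨(b1, u), ?_, ?_⟩
      · refine (mem b1 u).2 ⟨h5, ?_⟩
        rw [h6, ← h1, add_sub_cancel_right]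
      · rintro ⟨b', u'⟩ h8
        obtain ⟨h9, h10⟩ := (mem b' u').1 h8
        obtain ⟨b2, h11, h12, h13⟩ := exists_eps p hP f (z - s u')
        have hb : b' = b2 := h13 b' h9
        have hu : u' = u := by
          apply h2
          show hat p P f (z - s u') + o u' = t
          rw [← h12, ← hb, ← h10, sub_add_cancel]
        subst hu
        rw [h7 b' h9]
  constructor
  · intro h z
    rw [Function.bijective_iff_existsUnique]
    intro t
    exact (key z t).1 (h (z, t))
  · rintro h ⟨z, t⟩
    exact (key z t).2 ((Function.bijective_iff_existsUnique _).1 (h z) t)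

theorem ft_mkA {P : Set (ZZ p)} (hP : Half p P) (f : ZZ p → FF p) :
    FT (mkA p P f) (E0 p) := by
  have h : FT (mkA p P f) (gr p (fun _ => 0) id) := by
    rw [ft_gr p hP]
    intro z
    have : (fun u : FF p => hat p P f (z - 0) + id u) = fun u => hat p P f (z - 0) + u := rfl
    rw [this]
    exact (Equiv.addLeft (hat p P f (z - 0))).bijective
  have h2 : gr p (fun _ => 0) id = E0 p := by
    funext i
    simp [gr, E0]
  rwa [h2] at h

theorem ft_E0 {A : Set (ZZ p × FF p)} (h : FT A (E0 p)) :
    ∃ P f, Half p P ∧ A = mkA p P f := by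
  have mem : ∀ (z : ZZ p) (t : FF p) (b : Bool) (u : FF p),
      (z, t) - E0 p (b, u) ∈ A ↔ (z - eps p b, t - u) ∈ A := by
    intro z t b u
    simp [E0]
  have huniq : ∀ (z : ZZ p) (b b' : Bool) (t t' : FF p), (z - eps p b, t) ∈ A →
      (z - eps p b', t') ∈ A → b = b' ∧ t = t' := by
    intro z b b' t t' h1 h2
    obtain ⟨i, -, hi⟩ := h (z, 0)
    have e1 := hi (b, -t) ((mem z 0 b (-t)).2 (by simpa using h1))
    have e2 := hi (b', -t') ((mem z 0 b' (-t')).2 (by simpa using h2))
    have e3 := e1.trans e2.symm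
    rw [Prod.mk.injEq, neg_inj] at e3
    exact e3
  have hex : ∀ z : ZZ p, ∃ (b : Bool) (t : FF p), (z - eps p b, t) ∈ A := by
    intro z
    obtain ⟨⟨b, u⟩, hi, -⟩ := h (z, 0)
    exact ⟨b, 0 - u, (mem z 0 b u).1 hi⟩
  classical
  refine ⟨{z | ∃ t, (z, t) ∈ A}, fun z => if hz : ∃ t, (z, t) ∈ A then hz.choose else 0, ?_, ?_⟩
  · intro z
    simp only [Set.mem_ofPred_eq]
    constructor
    · rintro ⟨t, ht⟩ ⟨t', ht'⟩
      have := (huniq z false true t t' (by simpa [eps] using ht) (by simpa [eps] using ht')).1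
      exact Bool.noConfusion this
    · intro h1
      obtain ⟨b, t, hbt⟩ := hex z
      cases b with
      | false => exact ⟨t, by simpa [eps] using hbt⟩
      | true => exact absurd ⟨t, by simpa [eps] using hbt⟩ h1
  · ext ⟨z, t⟩
    simp only [mkA, Set.mem_ofPred_eq]
    constructor
    · intro hz
      have hz' : ∃ t, (z, t) ∈ A := ⟨t, hz⟩
      refine ⟨hz', ?_⟩
      rw [dif_pos hz']
      exact (huniq z false false t _ (by simpa [eps] using hz)
        (by simpa [eps] using hz'.choose_spec)).2
    · rintro ⟨hz', ht⟩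
      rw [dif_pos hz'] at ht
      rw [ht]
      exact hz'.choose_spec

end

end Vale.Agent.P043.Z4
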