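import Vale.Agent.P043.Z4.Defs2
import Vale.Agent.P043.Z4.T06

/-!
P043 in dimension at least 4, T7: the equations (K1), (K7), (K2).
-/

namespace Vale.Agent.P043.Z4

namespace T07

variable {K : Type} {p : K → ℕ}

/-- abstract form of (K1): the map `u ↦ a + u` if `u_k = 0`, `b + u` otherwise -/
theorem bij_eq (k : K) (a b : FF p) (g : FF p → FF p)
    (h0 : ∀ u : FF p, u.2 k = 0 → g u = a + u) (h1 : ∀ u : FF p, u.2 k ≠ 0 → g u = b + u) :
    Function.Bijective g ↔ b.2 k = a.2 k := by
  have e : ∀ x y : FF p, (x + y).2 k = x.2 k + y.2 k := fun _ _ => rfl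
  have e' : ∀ x y : FF p, (x - y).2 k = x.2 k - y.2 k := fun _ _ => rfl
  constructor
  · intro h
    by_contra hne
    have h2 : g 0 = a + 0 := h0 0 rfl
    have h3 : g (a - b) = b + (a - b) := h1 _ (by rw [e']; exact fun h => hne (sub_eq_zero.1 h).symm)
    have h4 : (0 : FF p) = a - b := h.1 (by rw [h2, h3]; abel)
    apply hne
    have h5 := congrArg (fun u : FF p => u.2 k) h4
    simp only [e'] at h5
    exact (sub_eq_zero.1 h5.symm).symm
  · intro hab
    constructor
    · intro u u' huu
      by_cases hu : u.2 k = 0 <;> by_cases hu' : u'.2 k = 0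
      · rw [h0 u hu, h0 u' hu'] at huu
        exact add_left_cancel huu
      · rw [h0 u hu, h1 u' hu'] at huu
        have h5 := congrArg (fun u : FF p => u.2 k) huu
        simp only [e] at h5
        rw [hab, hu] at h5
        exact absurd (add_left_cancel h5).symm hu'
      · rw [h1 u hu, h0 u' hu'] at huu
        have h5 := congrArg (fun u : FF p => u.2 k) huu
        simp only [e] at h5
        rw [hab, hu'] at h5
        exact absurd (add_left_cancel h5) hu
      · rw [h1 u hu, h1 u' hu'] at huu
        exact add_left_cancel huu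
    · intro y
      by_cases hy : (y - a).2 k = 0
      · exact ⟨y - a, by rw [h0 _ hy]; abel⟩
      · refine ⟨y - b, ?_⟩
        rw [h1 _ (by rw [e', hab, ← e']; exact hy)]
        abel

/-- abstract form of (K2) -/
theorem bij_ap (k : K) [Fact (1 < p k)] (a ap am : FF p) (g : FF p → FF p)
    (h0 : ∀ u : FF p, u.2 k = 0 → g u = ap + u) (h1 : ∀ u : FF p, u.2 k = 1 → g u = am + u)
    (h2 : ∀ u : FF p, u.2 k ≠ 0 → u.2 k ≠ 1 → g u = a + u) :
    Function.Bijective g ↔ (ap.2 k = a.2 k ∧ am.2 k = a.2 k) ∨
      (ap.2 k = a.2 k + 1 ∧ am.2 k + 1 = a.2 k) := by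
  classical
  have e : ∀ x y : FF p, (x + y).2 k = x.2 k + y.2 k := fun _ _ => rfl
  have e' : ∀ x y : FF p, (x - y).2 k = x.2 k - y.2 k := fun _ _ => rfl
  have h01 : (0 : ZMod (p k)) ≠ 1 := zero_ne_one
  -- an element with a given coordinate
  obtain ⟨v1, hv1⟩ : ∃ v : FF p, v.2 k = 1 := ⟨(0, Pi.single k 1), by simp⟩
  constructor
  · intro h
    -- `ap` coordinate
    have A : ap.2 k - a.2 k = 0 ∨ ap.2 k - a.2 k = 1 := by
      by_contra hne
      push Not at hne
      have h3 : g 0 = ap + 0 := h0 0 rfl
      have h4 : g (ap - a) = a + (ap - a) := h2 _ (by rw [e']; exact hne.1) (by rw [e']; exact hne.2)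
      have h5 : (0 : FF p) = ap - a := h.1 (by rw [h3, h4]; abel)
      have h6 := congrArg (fun u : FF p => u.2 k) h5
      simp only [e'] at h6
      exact hne.1 h6.symm
    have B : am.2 k + 1 - a.2 k = 0 ∨ am.2 k + 1 - a.2 k = 1 := by
      by_contra hne
      push Not at hne
      have h3 : g v1 = am + v1 := h1 v1 hv1
      have h7 : (am + v1 - a).2 k = am.2 k + 1 - a.2 k := by rw [e', e, hv1]
      have h4 : g (am + v1 - a) = a + (am + v1 - a) :=
        h2 _ (by rw [h7]; exact hne.1) (by rw [h7]; exact hne.2)
      have h5 : v1 = am + v1 - a := h.1 (by rw [h3, h4]; abel)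
      have h6 := congrArg (fun u : FF p => u.2 k) h5
      simp only [h7, hv1] at h6
      exact hne.2 h6.symm
    have C : ap.2 k ≠ am.2 k + 1 := by
      intro hc
      have h3 : g 0 = ap + 0 := h0 0 rfl
      have h7 : (ap - am).2 k = 1 := by rw [e', hc]; ring
      have h4 : g (ap - am) = am + (ap - am) := h1 _ h7
      have h5 : (0 : FF p) = ap - am := h.1 (by rw [h3, h4]; abel)
      have h6 := congrArg (fun u : FF p => u.2 k) h5
      simp only [h7] at h6
      exact h01 h6
    rcases A with A | A <;> rcases B with B | B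
    · exact absurd (by rw [sub_eq_zero.1 A, sub_eq_zero.1 B]) C
    · left
      exact ⟨sub_eq_zero.1 A, by linear_combination B⟩
    · right
      exact ⟨by linear_combination A, by linear_combination B⟩
    · exact absurd (by linear_combination A - B) C
  · intro hab
    have key : ∀ u : FF p, u.2 k = 0 ∨ u.2 k = 1 ∨ (u.2 k ≠ 0 ∧ u.2 k ≠ 1) := by
      intro u
      by_cases hu : u.2 k = 0
      · exact Or.inl hu
      · by_cases hu' : u.2 k = 1
        · exact Or.inr (Or.inl hu')
        · exact Or.inr (Or.inr ⟨hu, hu'⟩)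
    rcases hab with ⟨hap, ham⟩ | ⟨hap, ham⟩
    · -- slope 0
      have hg : ∀ u, (g u).2 k = a.2 k + u.2 k := by
        intro u
        rcases key u with hu | hu | hu
        · rw [h0 u hu, e, hap]
        · rw [h1 u hu, e, ham]
        · rw [h2 u hu.1 hu.2, e]
      constructor
      · intro u u' huu
        have h5 : u.2 k = u'.2 k := by
          have := congrArg (fun u : FF p => u.2 k) huu
          simp only [hg] at this
          exact add_left_cancel this
        rcases key u with hu | hu | hu
        · rw [h0 u hu, h0 u' (by rw [← h5]; exact hu)] at huu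
          exact add_left_cancel huu
        · rw [h1 u hu, h1 u' (by rw [← h5]; exact hu)] at huu
          exact add_left_cancel huu
        · rw [h2 u hu.1 hu.2, h2 u' (by rw [← h5]; exact hu.1) (by rw [← h5]; exact hu.2)] at huu
          exact add_left_cancel huu
      · intro y
        rcases key (y - a) with hy | hy | hy
        · exact ⟨y - ap, by rw [h0 _ (by rw [e', hap, ← e']; exact hy)]; abel⟩
        · exact ⟨y - am, by rw [h1 _ (by rw [e', ham, ← e']; exact hy)]; abel⟩
        · exact ⟨y - a, by rw [h2 _ hy.1 hy.2]; abel⟩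
    · -- slope 1
      constructor
      · intro u u' huu
        have hk := congrArg (fun u : FF p => u.2 k) huu
        rcases key u with hu | hu | hu <;> rcases key u' with hu' | hu' | hu'
        · rw [h0 u hu, h0 u' hu'] at huu
          exact add_left_cancel huu
        · simp only [h0 u hu, h1 u' hu', e, hu, hu', hap, ham] at hk
          exact absurd (by linear_combination -hk) h01
        · simp only [h0 u hu, h2 u' hu'.1 hu'.2, e, hu, hap] at hk
          exact absurd (by linear_combination -hk) hu'.2
        · simp only [h1 u hu, h0 u' hu', e, hu, hu', hap, ham] at hk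
          exact absurd (by linear_combination hk) h01
        · rw [h1 u hu, h1 u' hu'] at huu
          exact add_left_cancel huu
        · simp only [h1 u hu, h2 u' hu'.1 hu'.2, e, hu, ham] at hk
          exact absurd (by linear_combination -hk) hu'.1
        · simp only [h2 u hu.1 hu.2, h0 u' hu', e, hu', hap] at hk
          exact absurd (by linear_combination hk) hu.2
        · simp only [h2 u hu.1 hu.2, h1 u' hu', e, hu', ham] at hk
          exact absurd (by linear_combination hk) hu.1
        · rw [h2 u hu.1 hu.2, h2 u' hu'.1 hu'.2] at huu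
          exact add_left_cancel huu
      · intro y
        rcases key (y - a) with hy | hy | hy
        · refine ⟨y - am, ?_⟩
          rw [h1 _ (by rw [e']; rw [e'] at hy; linear_combination hy - ham)]
          abel
        · refine ⟨y - ap, ?_⟩
          rw [h0 _ (by rw [e']; rw [e'] at hy; linear_combination hy - hap)]
          abel
        · exact ⟨y - a, by rw [h2 _ hy.1 hy.2]; abel⟩

end T07

section
variable {K : Type} (p : K → ℕ)

-- T7
theorem ft_sEq {P : Set (ZZ p)} (hP : Half p P) (f : ZZ p → FF p) (k : K) (v : ZZ p) :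
    FT (mkA p P f) (gr p (sEq p k v) id) ↔
      ∀ z, (hat p P f (z - v)).2 k = (hat p P f z).2 k := by
  rw [ft_gr p hP]
  refine forall_congr' fun z => ?_
  refine T07.bij_eq k (hat p P f z) (hat p P f (z - v)) _ ?_ ?_
  · intro u hu
    simp [sEq, hu]
  · intro u hu
    simp [sEq, hu]

theorem ft_sAP [∀ k, Fact (p k).Prime] {P : Set (ZZ p)} (hP : Half p P) (f : ZZ p → FF p) (k : K) :
    FT (mkA p P f) (gr p (sAP p k) id) ↔
      ∀ z, ((hat p P f (z + dl p k)).2 k = (hat p P f z).2 k ∧
          (hat p P f (z - dl p k)).2 k = (hat p P f z).2 k) ∨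
        ((hat p P f (z + dl p k)).2 k = (hat p P f z).2 k + 1 ∧
          (hat p P f (z - dl p k)).2 k + 1 = (hat p P f z).2 k) := by
  rw [ft_gr p hP]
  refine forall_congr' fun z => ?_
  have : Fact (1 < p k) := ⟨(Fact.out : (p k).Prime).one_lt⟩
  refine T07.bij_ap k (hat p P f z) (hat p P f (z + dl p k)) (hat p P f (z - dl p k)) _ ?_ ?_ ?_
  · intro u hu
    simp [sAP, hu]
  · intro u hu
    simp [sAP, hu]
  · intro u hu hu'
    simp [sAP, hu, hu']

end

end Vale.Agent.P043.Z4
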