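import Vale.Agent.P043.Z4.Defs2
import Vale.Agent.P043.Z4.T06

/-!
P043 in dimension at least 4, T8: the equations (K3), (K4), (K5).
-/

namespace Vale.Agent.P043.Z4

namespace T08

variable {K : Type} (p : K → ℕ)

open T06

theorem eu4 (φ : Bool × ZMod 2 → Prop) : (∃! q, φ q) ↔
    (φ (false, 0) ∧ ¬ φ (false, 1) ∧ ¬ φ (true, 0) ∧ ¬ φ (true, 1)) ∨
    (¬ φ (false, 0) ∧ φ (false, 1) ∧ ¬ φ (true, 0) ∧ ¬ φ (true, 1)) ∨
    (¬ φ (false, 0) ∧ ¬ φ (false, 1) ∧ φ (true, 0) ∧ ¬ φ (true, 1)) ∨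
    (¬ φ (false, 0) ∧ ¬ φ (false, 1) ∧ ¬ φ (true, 0) ∧ φ (true, 1)) := by
  have h01 : ∀ c : ZMod 2, c = 0 ∨ c = 1 := by decide
  have all : ∀ ψ : Bool × ZMod 2 → Prop, (∀ q, ψ q) ↔
      ψ (false, 0) ∧ ψ (false, 1) ∧ ψ (true, 0) ∧ ψ (true, 1) := by
    intro ψ
    constructor
    · intro h
      exact ⟨h _, h _, h _, h _⟩
    · rintro ⟨h1, h2, h3, h4⟩ ⟨b, c⟩
      rcases h01 c with rfl | rfl <;> cases b <;> assumption
  have ne1 : ((false, 0) : Bool × ZMod 2) ≠ (false, 1) := by decide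
  have ne2 : ((false, 0) : Bool × ZMod 2) ≠ (true, 0) := by decide
  have ne3 : ((false, 0) : Bool × ZMod 2) ≠ (true, 1) := by decide
  have ne4 : ((false, 1) : Bool × ZMod 2) ≠ (true, 0) := by decide
  have ne5 : ((false, 1) : Bool × ZMod 2) ≠ (true, 1) := by decide
  have ne6 : ((true, 0) : Bool × ZMod 2) ≠ (true, 1) := by decide
  constructor
  · rintro ⟨⟨b, c⟩, h1, h2⟩
    rw [all] at h2
    obtain ⟨a1, a2, a3, a4⟩ := h2
    rcases h01 c with rfl | rfl <;> cases b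
    · exact Or.inl ⟨h1, fun h => ne1 (a2 h).symm, fun h => ne2 (a3 h).symm,
        fun h => ne3 (a4 h).symm⟩
    · exact Or.inr (Or.inr (Or.inl ⟨fun h => ne2 (a1 h), fun h => ne4 (a2 h), h1,
        fun h => ne6 (a4 h).symm⟩))
    · exact Or.inr (Or.inl ⟨fun h => ne1 (a1 h), h1, fun h => ne4 (a3 h).symm,
        fun h => ne5 (a4 h).symm⟩)
    · exact Or.inr (Or.inr (Or.inr ⟨fun h => ne3 (a1 h), fun h => ne5 (a2 h),
        fun h => ne6 (a3 h), h1⟩))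
  · rintro (⟨h1, h2, h3, h4⟩ | ⟨h1, h2, h3, h4⟩ | ⟨h1, h2, h3, h4⟩ | ⟨h1, h2, h3, h4⟩)
    · exact ⟨_, h1, (all _).2 ⟨fun _ => rfl, fun h => absurd h h2, fun h => absurd h h3,
        fun h => absurd h h4⟩⟩
    · exact ⟨_, h2, (all _).2 ⟨fun h => absurd h h1, fun _ => rfl, fun h => absurd h h3,
        fun h => absurd h h4⟩⟩
    · exact ⟨_, h3, (all _).2 ⟨fun h => absurd h h1, fun h => absurd h h2, fun _ => rfl,
        fun h => absurd h h4⟩⟩
    · exact ⟨_, h4, (all _).2 ⟨fun h => absurd h h1, fun h => absurd h h2, fun h => absurd h h3,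
        fun _ => rfl⟩⟩

theorem h01 : ∀ c : ZMod 2, c = 0 ∨ c = 1 := by decide

theorem fa (φ : ZMod 2 → Prop) : (∀ a, φ a) ↔ φ 0 ∧ φ 1 := by
  constructor
  · intro h
    exact ⟨h _, h _⟩
  · rintro ⟨h1, h2⟩ c
    rcases h01 c with rfl | rfl <;> assumption

theorem m2 : (1 : ZMod 2) + 1 = 0 := by decide

/-- the covering condition at `(z, t)` for a family of special type -/
theorem key {P : Set (ZZ p)} (f : ZZ p → FF p) (s : Bool → ZMod 2 → ZZ p) (z : ZZ p)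
    (t : FF p) :
    (∃! i : Bool × FF p, (z, t) - ((s i.1 i.2.1, i.2) : ZZ p × FF p) ∈ mkA p P f) ↔
      ∃! q : Bool × ZMod 2, z - s q.1 q.2 ∈ P ∧ t.1 - q.2 = (f (z - s q.1 q.2)).1 := by
  have mem : ∀ (b : Bool) (u : FF p), (z, t) - ((s b u.1, u) : ZZ p × FF p) ∈ mkA p P f ↔
      z - s b u.1 ∈ P ∧ t - u = f (z - s b u.1) := by
    intro b u
    simp [mkA]
  constructor
  · rintro ⟨⟨b, u⟩, h1, h2⟩
    obtain ⟨h3, h4⟩ := (mem b u).1 h1
    refine ⟨(b, u.1), ⟨h3, ?_⟩, ?_⟩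
    · show t.1 - u.1 = _
      rw [← h4]; rfl
    · rintro ⟨b', c⟩ ⟨h5, h6⟩
      have h7 : (z, t) - ((s b' (t - f (z - s b' c)).1, t - f (z - s b' c)) : ZZ p × FF p)
          ∈ mkA p P f := by
        have hc : (t - f (z - s b' c)).1 = c := by
          have : (t - f (z - s b' c)).1 = t.1 - (f (z - s b' c)).1 := rfl
          rw [this, ← h6]
          exact sub_sub_cancel _ _
        rw [mem, hc]
        exact ⟨h5, sub_sub_cancel _ _⟩
      have h8 := h2 (b', t - f (z - s b' c)) h7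
      have hc : (t - f (z - s b' c)).1 = c := by
        have : (t - f (z - s b' c)).1 = t.1 - (f (z - s b' c)).1 := rfl
        rw [this, ← h6]
        exact sub_sub_cancel _ _
      rw [Prod.mk.injEq] at h8
      obtain ⟨rfl, h9⟩ := h8
      rw [← h9, hc]
  · rintro ⟨⟨b, c⟩, ⟨h1, h2⟩, h3⟩
    have hc : (t - f (z - s b c)).1 = c := by
      have : (t - f (z - s b c)).1 = t.1 - (f (z - s b c)).1 := rfl
      rw [this]
      simp only at h2
      rw [← h2]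
      exact sub_sub_cancel _ _
    refine ⟨(b, t - f (z - s b c)), ?_, ?_⟩
    · show (z, t) - ((s b (t - f (z - s b c)).1, t - f (z - s b c)) : ZZ p × FF p) ∈ mkA p P f
      rw [mem, hc]
      exact ⟨h1, sub_sub_cancel _ _⟩
    · rintro ⟨b', u⟩ h4
      obtain ⟨h5, h6⟩ := (mem b' u).1 h4
      have h7 := h3 (b', u.1) ⟨h5, by
        show t.1 - u.1 = _
        rw [← h6]; rfl⟩
      rw [Prod.mk.injEq] at h7
      obtain ⟨rfl, h8⟩ := h7
      rw [Prod.mk.injEq]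
      refine ⟨rfl, ?_⟩
      rw [← h8, ← h6]
      exact (sub_sub_cancel _ _).symm

theorem ft_iff {P : Set (ZZ p)} (f : ZZ p → FF p) (s : Bool → ZMod 2 → ZZ p)
    (e : Bool × FF p → ZZ p × FF p) (he : ∀ i, e i = (s i.1 i.2.1, i.2)) :
    FT (mkA p P f) e ↔ ∀ (z : ZZ p) (a : ZMod 2),
      ∃! q : Bool × ZMod 2, z - s q.1 q.2 ∈ P ∧ a - q.2 = (f (z - s q.1 q.2)).1 := by
  have he' : e = fun i => (s i.1 i.2.1, i.2) := funext he
  constructor
  · intro h z a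
    have h1 := h (z, ((a, 0) : FF p))
    rw [he'] at h1
    exact (key p f s z (a, 0)).1 h1
  · rintro h ⟨z, t⟩
    rw [he']
    exact (key p f s z t).2 (h z t.1)

end T08

section

variable {K : Type} (p : K → ℕ)

open T06 T08

theorem ft_e3 {P : Set (ZZ p)} (hP : Half p P) (f : ZZ p → FF p) (w : ZZ p) :
    FT (mkA p P f) (e3 p w) ↔
      ∀ z, (z ∈ P ↔ z - w ∈ P) ∧ (z ∈ P → (f z).1 = (f (z - w)).1) := by
  rw [ft_iff p f (fun b c => if b = false then (if c = 0 then 0 else w) else w + tau p)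
    (e3 p w) (fun i => rfl)]
  refine forall_congr' fun z => ?_
  have h1 : z - (w + tau p) ∈ P ↔ ¬ (z - w ∈ P) := by
    rw [← sub_sub, hP (z - w), not_not]
  simp only [eu4, if_true, sub_zero, if_false, one_ne_zero, reduceCtorEq, h1]
  have hd : ∀ (A B : Prop) (x y w : ZMod 2),
      (∀ a : ZMod 2, ((A ∧ a = x) ∧ ¬ (B ∧ a - 1 = y) ∧ ¬ (¬ B ∧ a = w) ∧ ¬ (¬ B ∧ a - 1 = w)) ∨
        (¬ (A ∧ a = x) ∧ (B ∧ a - 1 = y) ∧ ¬ (¬ B ∧ a = w) ∧ ¬ (¬ B ∧ a - 1 = w)) ∨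
        (¬ (A ∧ a = x) ∧ ¬ (B ∧ a - 1 = y) ∧ (¬ B ∧ a = w) ∧ ¬ (¬ B ∧ a - 1 = w)) ∨
        (¬ (A ∧ a = x) ∧ ¬ (B ∧ a - 1 = y) ∧ ¬ (¬ B ∧ a = w) ∧ (¬ B ∧ a - 1 = w))) ↔
      ((A ↔ B) ∧ (A → x = y)) := by
    intro A B x y w
    rw [fa]
    by_cases hA : A <;> by_cases hB : B <;> rcases h01 x with rfl | rfl <;>
      rcases h01 y with rfl | rfl <;> rcases h01 w with rfl | rfl <;> simp [hA, hB]
  exact hd _ _ _ _ _

theorem ft_e4 {P : Set (ZZ p)} (hP : Half p P) (f : ZZ p → FF p) (v : ZZ p) :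
    FT (mkA p P f) (e4 p v) ↔ ∀ z, (z ∈ P ↔ z - v ∈ P) := by
  rw [ft_iff p f (fun b c => if b = false then 0 else v + tau p)
    (e4 p v) (fun i => rfl)]
  refine forall_congr' fun z => ?_
  have h1 : z - (v + tau p) ∈ P ↔ ¬ (z - v ∈ P) := by
    rw [← sub_sub, hP (z - v), not_not]
  simp only [eu4, if_true, sub_zero, if_false, one_ne_zero, reduceCtorEq, h1]
  have hd : ∀ (A B : Prop) (x w : ZMod 2),
      (∀ a : ZMod 2, ((A ∧ a = x) ∧ ¬ (A ∧ a - 1 = x) ∧ ¬ (¬ B ∧ a = w) ∧ ¬ (¬ B ∧ a - 1 = w)) ∨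
        (¬ (A ∧ a = x) ∧ (A ∧ a - 1 = x) ∧ ¬ (¬ B ∧ a = w) ∧ ¬ (¬ B ∧ a - 1 = w)) ∨
        (¬ (A ∧ a = x) ∧ ¬ (A ∧ a - 1 = x) ∧ (¬ B ∧ a = w) ∧ ¬ (¬ B ∧ a - 1 = w)) ∨
        (¬ (A ∧ a = x) ∧ ¬ (A ∧ a - 1 = x) ∧ ¬ (¬ B ∧ a = w) ∧ (¬ B ∧ a - 1 = w))) ↔
      (A ↔ B) := by
    intro A B x w
    rw [fa]
    by_cases hA : A <;> by_cases hB : B <;> rcases h01 x with rfl | rfl <;>
      rcases h01 w with rfl | rfl <;> simp [hA, hB]
  exact hd _ _ _ _

theorem zeta_tau {P : Set (ZZ p)} (hP : Half p P) (f : ZZ p → FF p) (z : ZZ p) :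
    zeta p P f (z - tau p) = zeta p P f z + 1 := by
  have h11 : ∀ x : ZMod 2, x = x + 1 + 1 := by decide
  by_cases hz : z ∈ P
  · have h1 : z - tau p ∉ P := (hP z).1 hz
    simp only [zeta, hz, h1, if_true, if_false, sub_sub_tau]
  · have h1 : z - tau p ∈ P := by
      by_contra h
      exact hz ((hP z).2 h)
    simp only [zeta, hz, h1, if_true, if_false]
    exact h11 _

theorem hat_fst {P : Set (ZZ p)} (_hP : Half p P) (f : ZZ p → FF p) (z : ZZ p) :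
    open Classical in (hat p P f z).1 = zeta p P f z + (if z ∈ P then 0 else 1) := by
  have h11 : ∀ x : ZMod 2, x = x + 1 + 1 := by decide
  by_cases hz : z ∈ P
  · simp only [hat, zeta, hz, if_true, add_zero]
  · simp only [hat, zeta, hz, if_false]
    exact h11 _

theorem ft_e5 {P : Set (ZZ p)} (hP : Half p P) (f : ZZ p → FF p) (v : ZZ p) :
    FT (mkA p P f) (e5 p v) ↔ ∀ z, zeta p P f z = zeta p P f (z - v) := by
  rw [ft_iff p f (fun b c => if b = false then (if c = 0 then 0 else v)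
    else (if c = 0 then v + tau p else tau p)) (e5 p v) (fun i => rfl)]
  refine forall_congr' fun z => ?_
  have h1 : z - (v + tau p) ∈ P ↔ ¬ (z - v ∈ P) := by
    rw [← sub_sub, hP (z - v), not_not]
  have h2 : z - tau p ∈ P ↔ ¬ (z ∈ P) := by
    rw [hP z, not_not]
  have h3 : z - (v + tau p) = z - v - tau p := (sub_sub _ _ _).symm
  simp only [eu4, if_true, sub_zero, if_false, one_ne_zero, reduceCtorEq, h1, h2]
  simp only [h3, zeta]
  generalize (f z).1 = x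
  generalize (f (z - tau p)).1 = x'
  generalize (f (z - v)).1 = y
  generalize (f (z - v - tau p)).1 = y'
  rw [fa]
  by_cases hA : z ∈ P <;> by_cases hB : z - v ∈ P <;> rcases h01 x with rfl | rfl <;>
    rcases h01 x' with rfl | rfl <;> rcases h01 y with rfl | rfl <;>
    rcases h01 y' with rfl | rfl <;> simp [hA, hB, m2]

end

end Vale.Agent.P043.Z4
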