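import Vale.Agent.P043.Z4.Defs2
import Vale.Agent.P043.Z4.T06

/-!
P043, layer 2: slopes and the reading gadget.
-/

namespace Vale.Agent.P043.Z4

section
variable {K : Type} (p : K → ℕ)

namespace T09

variable {p}

theorem e1 (x y : ZZ p) : (x + y).1 = x.1 + y.1 := rfl
theorem e2 (x y : ZZ p) (k : K) : (x + y).2.2 k = x.2.2 k + y.2.2 k := rfl
theorem dl1 (k : K) : (dl p k).1 = 0 := rfl
theorem dl0 (k : K) : (dl p k).2.1 = 0 := rfl
theorem dlk (k : K) : (dl p k).2.2 k = 1 := by simp [dl]
theorem dlj {k j : K} (h : j ≠ k) : (dl p k).2.2 j = 0 := by simp [dl, h]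
theorem o1 : (one0 p).1 = 0 := rfl
theorem ok (k : K) : (one0 p).2.2 k = 0 := rfl

theorem slope_int {P : Set (ZZ p)} {f : ZZ p → FF p} {β : ℤ × ℤ → K → Bool} (h : Str p P f β)
    (k : K) (n : ℤ) : ∀ z : ZZ p, (hat p P f (z + n • dl p k)).2 k =
      (hat p P f z).2 k + if β z.1 k then (n : ZMod (p k)) else 0 := by
  have z1 : ∀ (m : ℤ) (z : ZZ p), (z + m • dl p k).1 = z.1 := by
    intro m z
    show z.1 + m • (dl p k).1 = z.1
    rw [dl1, smul_zero, add_zero]
  induction n using Int.induction_on with
  | zero => intro z; simp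
  | succ i ih =>
    intro z
    have h1 := h.slope k (z + (i : ℤ) • dl p k)
    rw [z1, ih z] at h1
    have h2 : z + (i : ℤ) • dl p k + dl p k = z + ((i : ℤ) + 1) • dl p k := by
      rw [add_smul, one_smul, add_assoc]
    rw [h2] at h1
    rw [h1]
    split_ifs <;> push_cast <;> ring
  | pred i ih =>
    intro z
    have h1 := h.slope k (z + (-(i : ℤ) - 1) • dl p k)
    have h2 : z + (-(i : ℤ) - 1) • dl p k + dl p k = z + (-(i : ℤ)) • dl p k := by
      rw [sub_smul, one_smul]; abel
    rw [h2, z1, ih z] at h1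
    have h3 : (hat p P f (z + (-(i : ℤ) - 1) • dl p k)).2 k =
        (hat p P f z).2 k + (if β z.1 k then ((-(i : ℤ) : ℤ) : ZMod (p k)) else 0)
          - (if β z.1 k then 1 else 0) := by
      rw [h1]; ring
    rw [h3]
    split_ifs <;> push_cast <;> ring

/-- abstract form of (K6) -/
theorem bij_read (c : K) [Fact (1 < p c)] (a a' : FF p) (b : Bool) (g : FF p → FF p)
    (ap am : FF p)
    (h0 : ∀ u : FF p, u.2 c = 0 ∧ u.1 = 1 → g u = ap + u)
    (h1 : ∀ u : FF p, u.2 c = 1 ∧ u.1 = 0 → g u = am + u)
    (h2 : ∀ u : FF p, ¬ (u.2 c = 0 ∧ u.1 = 1) → ¬ (u.2 c = 1 ∧ u.1 = 0) → g u = a + u)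
    (hp1 : ap.1 = a'.1) (hm1 : am.1 = a'.1)
    (hpc : ap.2 c = a.2 c + if b then 1 else 0) (hmc : am.2 c = a.2 c - if b then 1 else 0) :
    Function.Bijective g ↔ a.1 + a'.1 = if b then 1 else 0 := by
  classical
  have e : ∀ x y : FF p, (x + y).2 c = x.2 c + y.2 c := fun _ _ => rfl
  have e' : ∀ x y : FF p, (x - y).2 c = x.2 c - y.2 c := fun _ _ => rfl
  have f1 : ∀ x y : FF p, (x + y).1 = x.1 + y.1 := fun _ _ => rfl
  have f1' : ∀ x y : FF p, (x - y).1 = x.1 - y.1 := fun _ _ => rfl
  have h01 : (0 : ZMod (p c)) ≠ 1 := zero_ne_one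
  have key : ∀ u : FF p, (u.2 c = 0 ∧ u.1 = 1) ∨ (u.2 c = 1 ∧ u.1 = 0) ∨
      (¬ (u.2 c = 0 ∧ u.1 = 1) ∧ ¬ (u.2 c = 1 ∧ u.1 = 0)) := by
    intro u; tauto
  constructor
  · intro hg
    obtain ⟨v, hv⟩ : ∃ v : FF p, v.2 c = 0 ∧ v.1 = 1 := ⟨(1, 0), rfl, rfl⟩
    obtain ⟨u, hu⟩ := hg.2 (a + v)
    rcases key u with h | h | h
    · rw [h0 u h] at hu
      have hc := congrArg (fun u : FF p => u.2 c) hu
      have ht := congrArg (fun u : FF p => u.1) hu
      simp only [e, f1, h.1, h.2, hv.1, hv.2, hpc, hp1, add_zero] at hc ht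
      have ht' : a'.1 = a.1 := add_right_cancel ht
      cases b with
      | false =>
        rw [ht']
        exact CharTwo.add_self_eq_zero _
      | true =>
        exfalso
        simp at hc
    · rw [h1 u h] at hu
      have hc := congrArg (fun u : FF p => u.2 c) hu
      have ht := congrArg (fun u : FF p => u.1) hu
      simp only [e, f1, h.1, h.2, hv.1, hv.2, hmc, hm1, add_zero] at hc ht
      cases b with
      | false =>
        exfalso
        simp at hc
      | true =>
        rw [ht, if_pos rfl, ← add_assoc, CharTwo.add_self_eq_zero, zero_add]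
    · rw [h2 u h.1 h.2] at hu
      have := add_left_cancel hu
      exact absurd (this ▸ hv) h.1
  · intro hk
    cases b with
    | false =>
      have ha : a'.1 = a.1 := by
        have h3 : a.1 + a'.1 = 0 := by simpa using hk
        revert h3
        generalize a.1 = x
        generalize a'.1 = y
        revert x y
        decide
      simp only [Bool.false_eq_true, if_false, add_zero, sub_zero] at hpc hmc
      have gc : ∀ u, (g u).2 c = a.2 c + u.2 c := by
        intro u
        rcases key u with h | h | h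
        · rw [h0 u h, e, hpc]
        · rw [h1 u h, e, hmc]
        · rw [h2 u h.1 h.2, e]
      have gt : ∀ u, (g u).1 = a.1 + u.1 := by
        intro u
        rcases key u with h | h | h
        · rw [h0 u h, f1, hp1, ha]
        · rw [h1 u h, f1, hm1, ha]
        · rw [h2 u h.1 h.2, f1]
      constructor
      · intro u u' huu
        have h5 : u.2 c = u'.2 c := by
          have := congrArg (fun u : FF p => u.2 c) huu
          simp only [gc] at this
          exact add_left_cancel this
        have h6 : u.1 = u'.1 := by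
          have := congrArg (fun u : FF p => u.1) huu
          simp only [gt] at this
          exact add_left_cancel this
        rcases key u with h | h | h
        · rw [h0 u h, h0 u' (by rw [← h5, ← h6]; exact h)] at huu
          exact add_left_cancel huu
        · rw [h1 u h, h1 u' (by rw [← h5, ← h6]; exact h)] at huu
          exact add_left_cancel huu
        · rw [h2 u h.1 h.2, h2 u' (by rw [← h5, ← h6]; exact h.1)
            (by rw [← h5, ← h6]; exact h.2)] at huu
          exact add_left_cancel huu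
      · intro y
        rcases key (y - a) with h | h | h
        · exact ⟨y - ap, by
            rw [h0 _ (by rw [e', f1', hpc, hp1, ha, ← e', ← f1']; exact h)]; abel⟩
        · exact ⟨y - am, by
            rw [h1 _ (by rw [e', f1', hmc, hm1, ha, ← e', ← f1']; exact h)]; abel⟩
        · exact ⟨y - a, by rw [h2 _ h.1 h.2]; abel⟩
    | true =>
      have ha : a'.1 = a.1 + 1 := by
        have h3 : a.1 + a'.1 = 1 := by simpa using hk
        revert h3
        generalize a.1 = x
        generalize a'.1 = y
        revert x y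
        decide
      simp only [if_true] at hpc hmc
      have g0 : ∀ u : FF p, (u.2 c = 0 ∧ u.1 = 1) → (g u).2 c = a.2 c + 1 ∧ (g u).1 = a.1 := by
        intro u h
        rw [h0 u h, e, f1, hpc, hp1, ha, h.1, h.2, add_zero, add_assoc,
          CharTwo.add_self_eq_zero, add_zero]
        exact ⟨rfl, rfl⟩
      have g1 : ∀ u : FF p, (u.2 c = 1 ∧ u.1 = 0) → (g u).2 c = a.2 c ∧ (g u).1 = a.1 + 1 := by
        intro u h
        rw [h1 u h, e, f1, hmc, hm1, ha, h.1, h.2, add_zero, sub_add_cancel]
        exact ⟨rfl, rfl⟩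
      have g2 : ∀ u : FF p, ¬ (u.2 c = 0 ∧ u.1 = 1) → ¬ (u.2 c = 1 ∧ u.1 = 0) →
          (g u).2 c = a.2 c + u.2 c ∧ (g u).1 = a.1 + u.1 := by
        intro u h h'
        rw [h2 u h h', e, f1]
        exact ⟨rfl, rfl⟩
      constructor
      · intro u u' huu
        have hc := congrArg (fun u : FF p => u.2 c) huu
        have ht := congrArg (fun u : FF p => u.1) huu
        beta_reduce at hc ht
        rcases key u with h | h | h <;> rcases key u' with h' | h' | h'
        · rw [h0 u h, h0 u' h'] at huu
          exact add_left_cancel huu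
        · rw [(g0 u h).1, (g1 u' h').1] at hc
          exfalso
          simp at hc
        · rw [(g0 u h).1, (g2 u' h'.1 h'.2).1] at hc
          rw [(g0 u h).2, (g2 u' h'.1 h'.2).2] at ht
          exact absurd ⟨(add_left_cancel hc).symm, by simpa using ht⟩ h'.2
        · rw [(g1 u h).1, (g0 u' h').1] at hc
          exfalso
          simp at hc
        · rw [h1 u h, h1 u' h'] at huu
          exact add_left_cancel huu
        · rw [(g1 u h).1, (g2 u' h'.1 h'.2).1] at hc
          rw [(g1 u h).2, (g2 u' h'.1 h'.2).2] at ht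
          exact absurd ⟨by simpa using hc, (add_left_cancel ht).symm⟩ h'.1
        · rw [(g2 u h.1 h.2).1, (g0 u' h').1] at hc
          rw [(g2 u h.1 h.2).2, (g0 u' h').2] at ht
          exact absurd ⟨add_left_cancel hc, by simpa using ht⟩ h.2
        · rw [(g2 u h.1 h.2).1, (g1 u' h').1] at hc
          rw [(g2 u h.1 h.2).2, (g1 u' h').2] at ht
          exact absurd ⟨by simpa using hc, add_left_cancel ht⟩ h.1
        · rw [h2 u h.1 h.2, h2 u' h'.1 h'.2] at huu
          exact add_left_cancel huu
      · intro y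
        rcases key (y - a) with h | h | h
        · refine ⟨y - am, ?_⟩
          rw [h1 _ ⟨?_, ?_⟩]
          · abel
          · have h3 := h.1
            rw [e'] at h3 ⊢
            rw [hmc]
            linear_combination h3
          · have h3 := h.2
            rw [f1'] at h3 ⊢
            rw [hm1, ha]
            linear_combination h3
        · refine ⟨y - ap, ?_⟩
          rw [h0 _ ⟨?_, ?_⟩]
          · abel
          · have h3 := h.1
            rw [e'] at h3 ⊢
            rw [hpc]
            linear_combination h3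
          · have h3 := h.2
            rw [f1'] at h3 ⊢
            rw [hp1, ha]
            have h4 : (-1 : ZMod 2) = 1 := by decide
            linear_combination h3 + h4
        · exact ⟨y - a, by rw [h2 _ h.1 h.2]; abel⟩

end T09

open T09

theorem slope_mul {P : Set (ZZ p)} {f : ZZ p → FF p} {β : ℤ × ℤ → K → Bool} (h : Str p P f β)
    (k : K) (z w : ZZ p) (hw : w.1 = 0) :
    (hat p P f (z + w)).2 k = (hat p P f z).2 k + if β z.1 k then w.2.2 k else 0 := by
  obtain ⟨n, hn⟩ := ZMod.intCast_surjective (w.2.2 k)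
  have h1 : z + w = (z + n • dl p k) + (w - n • dl p k) := by abel
  rw [h1, h.coord k _ _ ?_ ?_, slope_int h, hn]
  · show w.1 - n • (dl p k).1 = 0
    rw [hw, dl1, smul_zero, sub_zero]
  · show w.2.2 k - n • (dl p k).2.2 k = 0
    rw [dlk, ← hn]
    simp

theorem ft_read [∀ k, Fact (p k).Prime] {P : Set (ZZ p)} {f : ZZ p → FF p}
    {β : ℤ × ℤ → K → Bool} (h : Str p P f β) (c : K) :
    FT (mkA p P f) (gr p (sRead p c) id) ↔
      ∀ z, (hat p P f z).1 + (hat p P f (z - one0 p)).1 = if β z.1 c then 1 else 0 := by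
  classical
  rw [ft_gr p h.half]
  refine forall_congr' fun z => ?_
  have : Fact (1 < p c) := ⟨(Fact.out : (p c).Prime).one_lt⟩
  refine T09.bij_read c (hat p P f z) (hat p P f (z - one0 p)) (β z.1 c) _
    (hat p P f (z - (one0 p - dl p c))) (hat p P f (z - (one0 p + dl p c))) ?_ ?_ ?_ ?_ ?_ ?_ ?_
  · intro u hu
    simp [sRead, hu]
  · intro u hu
    simp [sRead, hu]
  · intro u hu hu'
    simp [sRead, hu, hu']
  · have e : z - (one0 p - dl p c) = (z - one0 p) + dl p c := by abel
    rw [e, h.fst _ _ (dl1 c) (dl0 c)]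
  · have e : z - (one0 p + dl p c) = (z - one0 p) + (- dl p c) := by abel
    rw [e, h.fst _ _ (by show -(dl p c).1 = 0; rw [dl1, neg_zero])
      (by show -(dl p c).2.1 = 0; rw [dl0, neg_zero])]
  · have e : z - (one0 p - dl p c) = z + (dl p c - one0 p) := by abel
    rw [e, slope_mul p h c z _ (by show (dl p c).1 - (one0 p).1 = 0; rw [dl1, o1, sub_zero])]
    have e' : (dl p c - one0 p).2.2 c = 1 := by
      show (dl p c).2.2 c - (one0 p).2.2 c = 1
      rw [dlk, ok, sub_zero]
    rw [e']
  · have e : z - (one0 p + dl p c) = z + (-(one0 p + dl p c)) := by abel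
    rw [e, slope_mul p h c z _ (by show -((one0 p).1 + (dl p c).1) = 0; rw [dl1, o1]; simp)]
    have e' : (-(one0 p + dl p c)).2.2 c = -1 := by
      show -((one0 p).2.2 c + (dl p c).2.2 c) = -1
      rw [dlk, ok, zero_add]
    rw [e']
    split_ifs <;> ring

end

end Vale.Agent.P043.Z4
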