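import Vale.Agent.P043.Z4.Defs2
import Vale.Agent.P043.Z4.T06

/-!
P043 in dimension at least 4, T10: the clause gadget (K8).
-/

namespace Vale.Agent.P043.Z4

namespace T10

variable {K : Type} (p : K → ℕ)

/-- a transitive map lives on a finite set -/
theorem finite_of_transitive [Nonempty K] (nx : K → K) (hnx : ∀ j k, ∃ n : ℕ, nx^[n] j = k) :
    Finite K := by
  obtain ⟨j⟩ := ‹Nonempty K›
  obtain ⟨m, hm⟩ := hnx (nx j) j
  have hper : nx^[m + 1] j = j := by rw [Function.iterate_succ_apply, hm]
  have h : Function.Surjective (fun i : Fin (m + 1) => nx^[(i : ℕ)] j) := by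
    intro k
    obtain ⟨n, hn⟩ := hnx j k
    refine ⟨⟨n % (m + 1), Nat.mod_lt _ (Nat.succ_pos m)⟩, ?_⟩
    show nx^[n % (m + 1)] j = k
    rw [← hn]
    have hp : Function.IsPeriodicPt nx (m + 1) j := hper
    exact hp.iterate_mod_apply n
  exact Finite.of_surjective _ h

/-- the cube -/
def Cube (u : ∀ k, ZMod (p k)) : Prop := ∀ j, u j = 0 ∨ u j = 1

variable {p}

/-- the map of the clause gadget -/
noncomputable def Phi (nx : K → K) (b β : K → Bool) (u : ∀ k, ZMod (p k)) (k : K) : ZMod (p k) :=
  u k + if β k = b k then al p nx u k else 0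

theorem Phi_off {nx : K → K} {b β : K → Bool} {u : ∀ k, ZMod (p k)} (hu : ¬ Cube p u) :
    Phi nx b β u = u := by
  funext k
  have h : al p nx u k = 0 := by
    unfold al
    exact if_neg hu
  simp [Phi, h]

theorem al_on {nx : K → K} {u : ∀ k, ZMod (p k)} (hu : Cube p u) (k : K) :
    open Classical in al p nx u k = if u (nx k) = 1 then 1 - 2 * u k else 0 := by
  unfold al
  exact if_pos hu

theorem Phi_on {nx : K → K} {b β : K → Bool} {u : ∀ k, ZMod (p k)} (hu : Cube p u) :
    Cube p (Phi nx b β u) := by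
  intro k
  unfold Phi
  rw [al_on hu]
  rcases hu k with h | h <;> rw [h] <;> split_ifs <;> norm_num

theorem inj [∀ k, Fact (p k).Prime] (nx : K → K) (hnx : ∀ j k, ∃ n : ℕ, nx^[n] j = k)
    (b β : K → Bool) (hb : β ≠ b) : Function.Injective (Phi (p := p) nx b β) := by
  classical
  obtain ⟨j0, hj0⟩ : ∃ j, β j ≠ b j := by
    by_contra h
    push Not at h
    exact hb (funext h)
  intro u u' h
  by_cases hu : Cube p u <;> by_cases hu' : Cube p u'
  · have step : ∀ (n : ℕ) (k : K), nx^[n] k = j0 → u k = u' k := by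
      intro n
      induction n with
      | zero =>
        intro k hk
        have hk' : k = j0 := hk
        subst hk'
        have h1 := congrFun h k
        simpa [Phi, hj0] using h1
      | succ n ih =>
        intro k hk
        have h2 : u (nx k) = u' (nx k) := ih (nx k) (by rwa [Function.iterate_succ_apply] at hk)
        have h1 := congrFun h k
        unfold Phi at h1
        rw [al_on hu, al_on hu', ← h2] at h1
        split_ifs at h1
        · linear_combination -h1
        · simpa using h1
        · simpa using h1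
    funext k
    obtain ⟨n, hn⟩ := hnx k j0
    exact step n k hn
  · rw [Phi_off hu'] at h
    exact absurd (h ▸ Phi_on hu) hu'
  · rw [Phi_off hu] at h
    exact absurd (h ▸ Phi_on hu') hu
  · rwa [Phi_off hu, Phi_off hu'] at h

theorem slope_nat {P : Set (ZZ p)} {f : ZZ p → FF p} {β : ℤ × ℤ → K → Bool} (h : Str p P f β)
    (k : K) (n : ℕ) (z : ZZ p) :
    (hat p P f (z + n • dl p k)).2 k = (hat p P f z).2 k + if β z.1 k then (n : ZMod (p k)) else 0 := by
  induction n with
  | zero => simp
  | succ n ih =>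
    have h1 : (z + n • dl p k).1 = z.1 := by simp [dl]
    rw [succ_nsmul, ← add_assoc, h.slope k (z + n • dl p k), ih, h1]
    split_ifs
    · push_cast
      ring
    · simp

theorem slope_prime [∀ k, Fact (p k).Prime] {P : Set (ZZ p)} {f : ZZ p → FF p}
    {β : ℤ × ℤ → K → Bool} (h : Str p P f β) (k : K) (z w : ZZ p) (hw : w.1 = 0) :
    (hat p P f (z + w)).2 k = (hat p P f z).2 k + if β z.1 k then w.2.2 k else 0 := by
  have : NeZero (p k) := ⟨(Fact.out : (p k).Prime).ne_zero⟩
  have h1 : z + w = (z + (w - (w.2.2 k).val • dl p k)) + (w.2.2 k).val • dl p k := by abel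
  have h2 : (w - (w.2.2 k).val • dl p k).1 = 0 := by
    rw [Prod.fst_sub, hw]
    simp [dl]
  have h3 : (w - (w.2.2 k).val • dl p k).2.2 k = 0 := by
    show w.2.2 k - (w.2.2 k).val • (dl p k).2.2 k = 0
    have h5 : (dl p k).2.2 k = 1 := by simp [dl]
    rw [h5, nsmul_eq_mul, mul_one, ZMod.natCast_zmod_val, sub_self]
  have h4 : (z + (w - (w.2.2 k).val • dl p k)).1 = z.1 := by
    rw [Prod.fst_add, h2, add_zero]
  rw [h1, slope_nat h, h.coord k z _ h2 h3, h4, ZMod.natCast_zmod_val]

end T10

open T10

section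
variable {K : Type} (p : K → ℕ)

-- T10
theorem cl_bij [∀ k, Fact (p k).Prime] [Nonempty K] (nx : K → K)
    (hnx : ∀ j k, ∃ n : ℕ, nx^[n] j = k) (b β : K → Bool) :
    Function.Bijective (fun (u : ∀ k, ZMod (p k)) (k : K) =>
      u k + if β k = b k then al p nx u k else 0) ↔ β ≠ b := by
  classical
  have : Finite K := finite_of_transitive nx hnx
  have : ∀ k, NeZero (p k) := fun k => ⟨(Fact.out : (p k).Prime).ne_zero⟩
  change Function.Bijective (Phi (p := p) nx b β) ↔ β ≠ b
  constructor
  · rintro ⟨h, -⟩ rfl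
    obtain ⟨j⟩ := ‹Nonempty K›
    have h0 : Cube p (0 : ∀ k, ZMod (p k)) := fun _ => Or.inl rfl
    have h1 : Cube p (1 : ∀ k, ZMod (p k)) := fun _ => Or.inr rfl
    have e : Phi nx β β (0 : ∀ k, ZMod (p k)) = Phi nx β β (1 : ∀ k, ZMod (p k)) := by
      funext k
      unfold Phi
      rw [al_on h0, al_on h1]
      have : Fact (1 < p (nx k)) := ⟨(Fact.out : (p (nx k)).Prime).one_lt⟩
      have h01 : (0 : ZMod (p (nx k))) ≠ 1 := zero_ne_one
      simp only [Pi.zero_apply, Pi.one_apply, if_true, h01, if_false]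
      ring
    have h2 := congrFun (h e) j
    have : Fact (1 < p j) := ⟨(Fact.out : (p j).Prime).one_lt⟩
    exact zero_ne_one h2
  · intro hb
    exact Finite.injective_iff_bijective.1 (inj nx hnx b β hb)

theorem ft_cl [∀ k, Fact (p k).Prime] [Nonempty K] {P : Set (ZZ p)} {f : ZZ p → FF p}
    {β : ℤ × ℤ → K → Bool} (h : Str p P f β) (nx : K → K)
    (hnx : ∀ j k, ∃ n : ℕ, nx^[n] j = k) (b : K → Bool) :
    FT (mkA p P f) (gr p (sCl p nx b) (oCl p nx b)) ↔ ∀ x, β x ≠ b := by
  rw [ft_gr p h.half]
  have key : ∀ z : ZZ p, Function.Bijective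
      (fun u => hat p P f (z - sCl p nx b u) + oCl p nx b u) ↔ β z.1 ≠ b := by
    intro z
    have e : (fun u => hat p P f (z - sCl p nx b u) + oCl p nx b u) =
        (fun u => hat p P f z + u) ∘ (Prod.map id (Phi nx b (β z.1))) := by
      funext u
      refine Prod.ext ?_ ?_
      · have h1 := h.fst z (- sCl p nx b u) (by simp [sCl]) (by simp [sCl])
        rw [← sub_eq_add_neg] at h1
        show (hat p P f (z - sCl p nx b u)).1 + u.1 = (hat p P f z).1 + u.1
        rw [h1]
      · funext k
        have h1 := slope_prime h k z (- sCl p nx b u) (by simp [sCl])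
        rw [← sub_eq_add_neg] at h1
        show (hat p P f (z - sCl p nx b u)).2 k + (oCl p nx b u).2 k =
          (hat p P f z).2 k + (u.2 k + if β z.1 k = b k then al p nx u.2 k else 0)
        rw [h1]
        have h2 : (- sCl p nx b u).2.2 k = if b k then al p nx u.2 k else - al p nx u.2 k := by
          simp only [sCl, Prod.snd_neg, Pi.neg_apply]
          split_ifs <;> simp
        have h3 : (oCl p nx b u).2 k = if b k then u.2 k else u.2 k + al p nx u.2 k := rfl
        rw [h2, h3]
        cases β z.1 k <;> cases b k <;> simp <;> ring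
    rw [e]
    have h5 : Function.Bijective (fun u : FF p => hat p P f z + u) :=
      (Equiv.addLeft (hat p P f z)).bijective
    rw [Function.Bijective.of_comp_iff' h5]
    have h6 := cl_bij p nx hnx b (β z.1)
    have h7 : (fun (u : ∀ k, ZMod (p k)) (k : K) =>
      u k + if β z.1 k = b k then al p nx u k else 0) = Phi nx b (β z.1) := rfl
    rw [h7] at h6
    rw [← h6]
    constructor
    · intro h8
      refine ⟨fun u u' huu => ?_, fun y => ?_⟩
      · have := @h8.1 (0, u) (0, u') (by simp [huu])
        exact congrArg Prod.snd this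
      · obtain ⟨u, hu⟩ := h8.2 (0, y)
        exact ⟨u.2, congrArg Prod.snd hu⟩
    · intro h8
      exact Function.Bijective.prodMap Function.bijective_id h8
  constructor
  · intro h1 x
    exact (key (x, 0)).1 (h1 (x, 0))
  · intro h1 z
    exact (key z).2 (h1 z.1)

end

end Vale.Agent.P043.Z4
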