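import Vale.Agent.P043.Z4.Defs2

/-!
P043 in dimension at least 4, T11a: the system of layer 2 is finite.
-/

namespace Vale.Agent.P043.Z4

section
variable {K : Type} (p : K → ℕ)

theorem sys_finite [Fintype K] [∀ k, Fact (p k).Prime] (S : BS K) (hS : S.Inv.Finite)
    (nx : K → K) : (sys p S nx).Finite := by
  classical
  have : ∀ k, NeZero (p k) := fun k => ⟨(Fact.out : (p k).Prime).ne_zero⟩
  unfold sys
  refine Set.Finite.union (Set.Finite.union (Set.Finite.union (Set.Finite.union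
    (Set.Finite.union (Set.Finite.union (Set.Finite.union ?_ ?_) ?_) ?_) ?_) ?_) ?_) ?_
  · refine (Set.finite_range (fun q : K × TT p => gr p (sEq p q.1 ((0, 0), q.2)) id)).subset ?_
    rintro e ⟨k, w, -, rfl⟩
    exact ⟨(k, w), rfl⟩
  · refine (hS.image (fun q : K × (ℤ × ℤ) => gr p (sEq p q.1 (q.2, 0)) id)).subset ?_
    rintro e ⟨k, v, h, rfl⟩
    exact ⟨(k, v), h, rfl⟩
  · refine (Set.finite_range (fun k : K => gr p (sAP p k) id)).subset ?_
    rintro e ⟨k, rfl⟩
    exact ⟨k, rfl⟩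
  · refine (Set.finite_range (fun w : TT p => e3 p ((0, 0), w))).subset ?_
    rintro e ⟨w, -, rfl⟩
    exact ⟨w, rfl⟩
  · exact (Set.toFinite {e4 p ((1, 0), 0), e4 p ((0, 1), 0)}).subset (fun e h => h)
  · exact (Set.toFinite {e5 p ((2, 0), (1, 0)), e5 p ((1, -1), 0)}).subset (fun e h => h)
  · exact (Set.toFinite {gr p (sRead p S.c) id}).subset (fun e h => h)
  · refine (Set.finite_range (fun b : K → Bool => gr p (sCl p nx b) (oCl p nx b))).subset ?_
    rintro e ⟨b, -, rfl⟩
    exact ⟨b, rfl⟩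

end

end Vale.Agent.P043.Z4
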