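import Vale.Agent.P043.Z4.T06
import Vale.Agent.P043.Z4.T07
import Vale.Agent.P043.Z4.T08
import Vale.Agent.P043.Z4.T09
import Vale.Agent.P043.Z4.T10

/-!
P043 in dimension at least 4, T11b: a solution of the tiling equations gives a solution of the
Boolean system.
-/

namespace Vale.Agent.P043.Z4

namespace T11

variable {K : Type} {p : K → ℕ}

/-- invariance of the presence set and of the first coordinate gives invariance of `hat` -/
theorem hat_fst_inv {P : Set (ZZ p)} (_hP : Half p P) {f : ZZ p → FF p} {w : ZZ p}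
    (h : ∀ z, (z ∈ P ↔ z - w ∈ P) ∧ (z ∈ P → (f z).1 = (f (z - w)).1)) (z : ZZ p) :
    (hat p P f z).1 = (hat p P f (z - w)).1 := by
  by_cases hz : z ∈ P
  · have h1 : z - w ∈ P := (h z).1.1 hz
    simp only [hat, hz, h1, if_true]
    exact (h z).2 hz
  · have h1 : z - w ∉ P := fun hh => hz ((h z).1.2 hh)
    simp only [hat, hz, h1, if_false]
    have h2 : z - tau p ∈ P := by
      by_contra h3
      exact hz ((_hP z).2 h3)
    have h3 := (h (z - tau p)).2 h2
    rw [h3, sub_right_comm]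

/-- the slope is constant over a point of the plane -/
theorem slope_const {P : Set (ZZ p)} {f : ZZ p → FF p} (k : K)
    (hc : ∀ (z w : ZZ p), w.1 = 0 → w.2.2 k = 0 →
      (hat p P f (z + w)).2 k = (hat p P f z).2 k)
    (hs : ∀ z, ((hat p P f (z + dl p k)).2 k = (hat p P f z).2 k ∧
          (hat p P f (z - dl p k)).2 k = (hat p P f z).2 k) ∨
        ((hat p P f (z + dl p k)).2 k = (hat p P f z).2 k + 1 ∧
          (hat p P f (z - dl p k)).2 k + 1 = (hat p P f z).2 k))
    [Fact (p k).Prime] (z w : ZZ p) (hw : w.1 = 0) :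
    (hat p P f (z + w + dl p k)).2 k - (hat p P f (z + w)).2 k =
      (hat p P f (z + dl p k)).2 k - (hat p P f z).2 k := by
  have hp : NeZero (p k) := ⟨(Fact.out : (p k).Prime).ne_zero⟩
  have hp1 : Fact (1 < p k) := ⟨(Fact.out : (p k).Prime).one_lt⟩
  have h01 : (0 : ZMod (p k)) ≠ 1 := zero_ne_one
  -- along the direction `dl k`
  have h1 : ∀ (n : ℕ) (z : ZZ p), (hat p P f (z + n • dl p k + dl p k)).2 k -
      (hat p P f (z + n • dl p k)).2 k = (hat p P f (z + dl p k)).2 k - (hat p P f z).2 k := by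
    intro n
    induction n with
    | zero => intro z; simp
    | succ n ih =>
      intro z
      rw [← ih z, succ_nsmul, ← add_assoc]
      have h2 := hs (z + n • dl p k + dl p k)
      rw [add_sub_cancel_right] at h2
      have h3 := hs (z + n • dl p k)
      rcases h2 with ⟨h2, h4⟩ | ⟨h2, h4⟩ <;> rcases h3 with ⟨h3, h5⟩ | ⟨h3, h5⟩
      · linear_combination h2 - h3
      · exact absurd (by linear_combination h4 + h3) h01
      · exact absurd (by linear_combination -h4 - h3) h01
      · linear_combination h2 - h3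
  have e1 : z + w = (z + (w - (w.2.2 k).val • dl p k)) + (w.2.2 k).val • dl p k := by abel
  have e2 : (w - (w.2.2 k).val • dl p k).1 = 0 := by
    rw [Prod.fst_sub, hw]
    simp [dl]
  have e3 : (w - (w.2.2 k).val • dl p k).2.2 k = 0 := by
    show w.2.2 k - (w.2.2 k).val • (dl p k).2.2 k = 0
    have h5 : (dl p k).2.2 k = 1 := by simp [dl]
    rw [h5, nsmul_eq_mul, mul_one, ZMod.natCast_zmod_val, sub_self]
  rw [e1, h1, add_right_comm z _ (dl p k), hc _ _ e2 e3, hc _ _ e2 e3]

end T11

open T06 T11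

section
variable {K : Type} (p : K → ℕ)

theorem sys_fwd [∀ k, Fact (p k).Prime] [Nonempty K] (S : BS K) (nx : K → K)
    (hnx : ∀ j k, ∃ n : ℕ, nx^[n] j = k) {A : Set (ZZ p × FF p)} (h0 : FT A (E0 p))
    (h : ∀ e ∈ sys p S nx, FT A e) : ∃ β, Sol S β ∧ (Per A → PerB β) := by
  classical
  obtain ⟨P, f, hP, rfl⟩ := ft_E0 p h0
  -- the equations
  have K1 : ∀ (k : K) (w : TT p), w.2 k = 0 → ∀ z : ZZ p,
      (hat p P f (z - ((0, 0), w))).2 k = (hat p P f z).2 k := fun k w hw =>
    (ft_sEq p hP f k _).1 (h _ (by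
      unfold sys
      simp only [Set.mem_union]
      exact Or.inl (Or.inl (Or.inl (Or.inl (Or.inl (Or.inl (Or.inl ⟨k, w, hw, rfl⟩))))))))
  have K7 : ∀ (k : K) (v : ℤ × ℤ), (k, v) ∈ S.Inv → ∀ z : ZZ p,
      (hat p P f (z - (v, 0))).2 k = (hat p P f z).2 k := fun k v hv =>
    (ft_sEq p hP f k _).1 (h _ (by
      unfold sys
      simp only [Set.mem_union]
      exact Or.inl (Or.inl (Or.inl (Or.inl (Or.inl (Or.inl (Or.inr ⟨k, v, hv, rfl⟩))))))))
  have K2 := fun k : K => (ft_sAP p hP f k).1 (h _ (by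
      unfold sys
      simp only [Set.mem_union]
      exact Or.inl (Or.inl (Or.inl (Or.inl (Or.inl (Or.inr ⟨k, rfl⟩)))))))
  have K3 := fun (w : TT p) (hw : w.1 = 0) => (ft_e3 p hP f ((0, 0), w)).1 (h _ (by
      unfold sys
      simp only [Set.mem_union]
      exact Or.inl (Or.inl (Or.inl (Or.inl (Or.inr ⟨w, hw, rfl⟩))))))
  have K4a := (ft_e4 p hP f ((1, 0), 0)).1 (h _ (by
      unfold sys
      simp only [Set.mem_union]
      exact Or.inl (Or.inl (Or.inl (Or.inr (Or.inl rfl))))))
  have K4b := (ft_e4 p hP f ((0, 1), 0)).1 (h _ (by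
      unfold sys
      simp only [Set.mem_union]
      exact Or.inl (Or.inl (Or.inl (Or.inr (Or.inr rfl))))))
  have K5a := (ft_e5 p hP f ((2, 0), (1, 0))).1 (h _ (by
      unfold sys
      simp only [Set.mem_union]
      exact Or.inl (Or.inl (Or.inr (Or.inl rfl)))))
  have K5b := (ft_e5 p hP f ((1, -1), 0)).1 (h _ (by
      unfold sys
      simp only [Set.mem_union]
      exact Or.inl (Or.inl (Or.inr (Or.inr rfl)))))
  -- structure
  have hcoord : ∀ (k : K) (z w : ZZ p), w.1 = 0 → w.2.2 k = 0 →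
      (hat p P f (z + w)).2 k = (hat p P f z).2 k := by
    intro k z w hw hk
    have h1 := K1 k (-w.2) (by simp [hk]) z
    have h2 : z - ((0, 0), -w.2) = z + w := by
      refine Prod.ext ?_ ?_
      · simp [hw]
      · simp
    rw [h2] at h1
    exact h1
  let β : ℤ × ℤ → K → Bool := fun x k =>
    decide ((hat p P f ((x, 0) + dl p k)).2 k ≠ (hat p P f (x, 0)).2 k)
  have hslope0 : ∀ (k : K) (x : ℤ × ℤ), (hat p P f ((x, 0) + dl p k)).2 k -
      (hat p P f (x, 0)).2 k = if β x k then 1 else 0 := by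
    intro k x
    rcases K2 k (x, 0) with ⟨h1, -⟩ | ⟨h1, -⟩
    · simp [β, h1]
    · have hp1 : Fact (1 < p k) := ⟨(Fact.out : (p k).Prime).one_lt⟩
      simp [β, h1]
  have hslope : ∀ (k : K) (z : ZZ p), (hat p P f (z + dl p k)).2 k =
      (hat p P f z).2 k + if β z.1 k then 1 else 0 := by
    intro k z
    have h1 := slope_const k (hcoord k) (K2 k) (z.1, 0) ((0, 0), z.2) rfl
    have h2 : ((z.1, 0) : ZZ p) + ((0, 0), z.2) = z := by
      refine Prod.ext ?_ ?_
      · simp
      · simp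
    rw [h2, hslope0] at h1
    linear_combination h1
  have hfst : ∀ (z w : ZZ p), w.1 = 0 → w.2.1 = 0 →
      (hat p P f (z + w)).1 = (hat p P f z).1 := by
    intro z w hw hw2
    have h1 := hat_fst_inv hP (K3 (-w.2) (by simp [hw2])) z
    have h2 : z - ((0, 0), -w.2) = z + w := by
      refine Prod.ext ?_ ?_
      · simp [hw]
      · simp
    rw [h2] at h1
    exact h1.symm
  have hStr : Str p P f β := ⟨hP, hcoord, hfst, hslope⟩
  have K6 := (ft_read p hStr S.c).1 (h _ (by
      unfold sys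
      simp only [Set.mem_union]
      exact Or.inl (Or.inr rfl)))
  have K8 := fun (b : K → Bool) (hb : b ∉ S.R) => (ft_cl p hStr nx hnx b).1 (h _ (by
      unfold sys
      simp only [Set.mem_union]
      exact Or.inr ⟨b, hb, rfl⟩))
  -- `β` from `hat`
  have hβ : ∀ (x y : ℤ × ℤ) (k : K), (hat p P f ((x, 0) + dl p k)).2 k -
      (hat p P f (x, 0)).2 k = (hat p P f ((y, 0) + dl p k)).2 k -
      (hat p P f (y, 0)).2 k → β x k = β y k := by
    intro x y k hxy
    rw [hslope0, hslope0] at hxy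
    have hp1 : Fact (1 < p k) := ⟨(Fact.out : (p k).Prime).one_lt⟩
    cases h1 : β x k <;> cases h2 : β y k <;> simp [h1, h2] at hxy ⊢
  have hread : ∀ (x y : ℤ × ℤ) (a : ZMod 2), (hat p P f (y, 0)).1 + (hat p P f ((y, 0) - one0 p)).1 =
      (hat p P f (x, 0)).1 + (hat p P f ((x, 0) - one0 p)).1 + a →
      ((a = 0 → β y S.c = β x S.c) ∧ (a = 1 → β y S.c = !(β x S.c))) := by
    intro x y a hxy
    rw [K6 (y, 0), K6 (x, 0)] at hxy
    simp only at hxy
    constructor
    · rintro rfl
      cases h1 : β x S.c <;> cases h2 : β y S.c <;> simp [h1, h2] at hxy ⊢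
    · rintro rfl
      cases h1 : β x S.c <;> cases h2 : β y S.c <;> simp [h1, h2] at hxy ⊢
  -- the chi part
  have hP1 : ∀ z : ZZ p, z + ((1, 0), 0) ∈ P ↔ z ∈ P := by
    intro z
    rw [K4a (z + ((1, 0), 0)), add_sub_cancel_right]
  have hP2 : ∀ z : ZZ p, z + ((0, 1), 0) ∈ P ↔ z ∈ P := by
    intro z
    rw [K4b (z + ((0, 1), 0)), add_sub_cancel_right]
  have hP20 : ∀ z : ZZ p, z + ((2, 0), 0) ∈ P ↔ z ∈ P := by
    intro z
    rw [← hP1 z, ← hP1 (z + ((1, 0), 0))]
    have e : (((1, 0), 0) : ZZ p) + ((1, 0), 0) = ((2, 0), 0) := by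
      refine Prod.ext ?_ (add_zero _)
      show ((1 : ℤ), (0 : ℤ)) + (1, 0) = (2, 0)
      norm_num
    rw [add_assoc, e]
  have hP11 : ∀ z : ZZ p, z + ((1, -1), 0) ∈ P ↔ z ∈ P := by
    intro z
    rw [← hP2 (z + ((1, -1), 0)), ← hP1 z]
    have e : (((1, -1), 0) : ZZ p) + ((0, 1), 0) = ((1, 0), 0) := by
      refine Prod.ext ?_ (add_zero _)
      show ((1 : ℤ), (-1 : ℤ)) + (0, 1) = (1, 0)
      norm_num
    rw [add_assoc, e]
  have h2 : ∀ x : ZMod 2, x + x = 0 := by decide
  refine ⟨β, ⟨?_, ?_, ?_, ?_⟩, ?_⟩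
  · -- invariances
    intro k v hv x
    apply hβ
    have h1 := K7 k v hv ((x + v, 0) + dl p k)
    have h3 := K7 k v hv (x + v, 0)
    have e1 : ((x + v, 0) + dl p k : ZZ p) - (v, 0) = (x, 0) + dl p k := by
      refine Prod.ext ?_ ?_
      · show x + v + (0, 0) - v = x + (0, 0)
        abel
      · simp
    have e2 : ((x + v, 0) : ZZ p) - (v, 0) = (x, 0) := by
      refine Prod.ext ?_ ?_
      · simp
      · simp
    rw [e1] at h1
    rw [e2] at h3
    rw [h1, h3]
  · -- relation
    intro x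
    by_contra hx
    exact K8 (β x) hx x rfl
  · -- flip
    intro x
    refine (hread x (x + (2, 0)) 1 ?_).2 rfl
    have e0 : ((x + (2, 0), 0) : ZZ p) = (x, 0) + ((2, 0), 0) := by
      refine Prod.ext ?_ ?_ <;> simp
    have hh : ∀ z : ZZ p, (hat p P f (z + ((2, 0), 0))).1 =
        zeta p P f (z - one0 p) + (if z ∈ P then 0 else 1) := by
      intro z
      rw [hat_fst p hP, K5a (z + ((2, 0), 0))]
      have e1 : z + ((2, 0), 0) - ((2, 0), ((1 : ZMod 4), 0)) = z - one0 p := by
        have : (((2, 0), 0) : ZZ p) - ((2, 0), ((1 : ZMod 4), 0)) = - one0 p := by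
          refine Prod.ext ?_ ?_
          · simp [one0]
            rfl
          · simp [one0]
        rw [add_sub_assoc, this, sub_eq_add_neg]
      rw [e1]
      simp only [hP20]
    have e3 : ((x + (2, 0), 0) : ZZ p) - one0 p = ((x, 0) - one0 p) + ((2, 0), 0) := by
      rw [e0, add_sub_right_comm]
    rw [e3, e0, hh, hh, hat_fst p hP, hat_fst p hP f ((x, 0) - one0 p)]
    have e4 : ((x, 0) : ZZ p) - one0 p - one0 p = (x, 0) - tau p := by
      rw [sub_sub]
      have : one0 p + one0 p = tau p := by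
        have h4 : (1 : ZMod 4) + 1 = 2 := by decide
        simp [one0, tau, h4]
      rw [this]
    rw [e4, zeta_tau p hP]
    ring
  · -- diag
    intro x
    refine (hread x (x + (1, -1)) 0 ?_).1 rfl
    have e0 : ((x + (1, -1), 0) : ZZ p) = (x, 0) + ((1, -1), 0) := by
      refine Prod.ext ?_ ?_ <;> simp
    have hh : ∀ z : ZZ p, (hat p P f (z + ((1, -1), 0))).1 = (hat p P f z).1 := by
      intro z
      rw [hat_fst p hP, hat_fst p hP, K5b (z + ((1, -1), 0)), add_sub_cancel_right]
      simp only [hP11]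
    have e3 : ((x + (1, -1), 0) : ZZ p) - one0 p = ((x, 0) - one0 p) + ((1, -1), 0) := by
      rw [e0, add_sub_right_comm]
    rw [e3, e0, hh, hh, add_zero]
  · -- periodicity
    rintro ⟨H, hfin, hH⟩
    have hinv : ∀ v : ℤ × ℤ, (((v, 0), 0) : ZZ p × FF p) ∈ H → ∀ z : ZZ p,
        hat p P f (z + (v, 0)) = hat p P f z := by
      intro v hv z
      have h1 : ∀ z : ZZ p, z ∈ P → z + (v, 0) ∈ P ∧ f (z + (v, 0)) = f z := by
        intro z hz
        have h3 := hH _ hv (z, f z) ⟨hz, rfl⟩
        have h4 : ((z, f z) : ZZ p × FF p) + ((v, 0), 0) = (z + (v, 0), f z) := by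
          refine Prod.ext ?_ ?_ <;> simp
        rw [h4] at h3
        exact ⟨h3.1, h3.2.symm⟩
      have h5 : ∀ z : ZZ p, z - (v, 0) ∈ P → z ∈ P := by
        intro z hz
        have := (h1 _ hz).1
        rwa [sub_add_cancel] at this
      have h6 : ∀ z : ZZ p, z + (v, 0) ∈ P → z ∈ P := by
        intro z hz
        have h3 := hH _ (H.neg_mem hv) (z + (v, 0), f (z + (v, 0))) ⟨hz, rfl⟩
        have h4 : ((z + (v, 0), f (z + (v, 0))) : ZZ p × FF p) + -((v, 0), 0) =
            (z, f (z + (v, 0))) := by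
          refine Prod.ext ?_ ?_
          · exact add_neg_cancel_right z (v, 0)
          · simp
        rw [h4] at h3
        exact h3.1
      by_cases hz : z ∈ P
      · have h7 := h1 z hz
        simp only [hat, hz, h7.1, if_true]
        exact h7.2
      · have h7 : z + (v, 0) ∉ P := fun hh => hz (h6 z hh)
        have h8 : z - tau p ∈ P := by
          by_contra h3
          exact hz ((hP z).2 h3)
        have h9 := h1 _ h8
        simp only [hat, hz, h7, if_false]
        rw [← h9.2, add_sub_right_comm]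
    refine ⟨H.index, Nat.pos_of_ne_zero hfin.index_ne_zero, fun x => ⟨?_, ?_⟩⟩
    · funext k
      apply hβ
      have hm : ((((H.index : ℤ), 0), 0), 0) ∈ H := by
        have h3 := H.nsmul_index_mem ((((1, 0), 0), 0) : ZZ p × FF p)
        have h4 : H.index • ((((1, 0), 0), 0) : ZZ p × FF p) = ((((H.index : ℤ), 0), 0), 0) := by
          refine Prod.ext (Prod.ext (Prod.ext ?_ ?_) ?_) ?_ <;> simp
        rwa [h4] at h3
      have h3 := hinv _ hm
      have e1 : ((x + ((H.index : ℤ), 0), 0) + dl p k : ZZ p) =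
          ((x, 0) + dl p k) + (((H.index : ℤ), 0), 0) := by
        refine Prod.ext ?_ ?_
        · exact add_right_comm _ _ _
        · simp
      have e2 : ((x + ((H.index : ℤ), 0), 0) : ZZ p) = (x, 0) + (((H.index : ℤ), 0), 0) := by
        refine Prod.ext ?_ ?_ <;> simp
      rw [e1, e2, h3, h3]
    · funext k
      apply hβ
      have hm : (((0, (H.index : ℤ)), 0), 0) ∈ H := by
        have h3 := H.nsmul_index_mem ((((0, 1), 0), 0) : ZZ p × FF p)
        have h4 : H.index • ((((0, 1), 0), 0) : ZZ p × FF p) = (((0, (H.index : ℤ)), 0), 0) := by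
          refine Prod.ext (Prod.ext (Prod.ext ?_ ?_) ?_) ?_ <;> simp
        rwa [h4] at h3
      have h3 := hinv _ hm
      have e1 : ((x + (0, (H.index : ℤ)), 0) + dl p k : ZZ p) =
          ((x, 0) + dl p k) + ((0, (H.index : ℤ)), 0) := by
        refine Prod.ext ?_ ?_
        · exact add_right_comm _ _ _
        · simp
      have e2 : ((x + (0, (H.index : ℤ)), 0) : ZZ p) = (x, 0) + ((0, (H.index : ℤ)), 0) := by
        refine Prod.ext ?_ ?_ <;> simp
      rw [e1, e2, h3, h3]

end

end Vale.Agent.P043.Z4
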