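import Vale.Agent.P043.Z4.T06
import Vale.Agent.P043.Z4.T07
import Vale.Agent.P043.Z4.T08
import Vale.Agent.P043.Z4.T09
import Vale.Agent.P043.Z4.T10

/-!
P043, layer 2: a solution of the Boolean system gives a solution of the system of tiling equations.
-/

namespace Vale.Agent.P043.Z4

section
variable {K : Type} (p : K → ℕ)

namespace T12

/-- the indicator of `{2, 3}`, with values in `ZMod 2` -/
def ch (w : ZMod 4) : ZMod 2 := if w = 0 ∨ w = 1 then 0 else 1

/-- parity in `ZMod 4` -/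
def par (z : ZMod 4) : Bool := decide (z = 1 ∨ z = 3)

/-- the first coordinate of the function `f` -/
def ft (w z : ZMod 4) : ZMod 2 := ch (w - z) + ch w

theorem ft_sub_two (w z : ZMod 4) : ft (w - 2) z = ft w z := by
  revert w z; decide

theorem ft_add_ch (w z : ZMod 4) : (if w = 0 ∨ w = 1 then ft w z else ft w z + 1) = ch (w - z) := by
  revert w z; decide

theorem ft_rd (w z : ZMod 4) : ft w z + ft (w - 1) z = if par z then 1 else 0 := by
  revert w z; decide

theorem par_add_one (z : ZMod 4) : par (z + 1) = !(par z) := by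
  revert z; decide

theorem half_aux (w : ZMod 4) : (w = 0 ∨ w = 1) ↔ ¬ (w - 2 = 0 ∨ w - 2 = 1) := by
  revert w; decide

/-- the position of the zeros of the pattern on the `m`-th diagonal -/
def zm (κ : ℤ → Bool) (m : ℤ) : ZMod 4 := ((m / 2 : ℤ) : ZMod 4) + (if κ (m % 2) then 1 else 0)

theorem zm_add_two (κ : ℤ → Bool) (m : ℤ) : zm κ (m + 2) = zm κ m + 1 := by
  unfold zm
  have h1 : (m + 2) / 2 = m / 2 + 1 := by omega
  have h2 : (m + 2) % 2 = m % 2 := by omega
  rw [h1, h2]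
  push_cast
  ring

theorem zm_sub_two (κ : ℤ → Bool) (m : ℤ) : zm κ (m - 2) = zm κ m - 1 := by
  have h := zm_add_two κ (m - 2)
  rw [sub_add_cancel] at h
  rw [h, add_sub_cancel_right]

theorem par_zm (κ : ℤ → Bool) (hκ : ∀ m, κ (m + 2) = !(κ m)) (m : ℤ) : par (zm κ m) = κ m := by
  have base : ∀ r : ℤ, r = 0 ∨ r = 1 → par (zm κ r) = κ r := by
    intro r hr
    have h1 : r / 2 = 0 := by omega
    have h2 : r % 2 = r := by omega
    unfold zm
    rw [h1, h2]
    cases κ r <;> decide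
  have up : ∀ n : ℤ, (par (zm κ n) = κ n ↔ par (zm κ (n + 2)) = κ (n + 2)) := by
    intro n
    rw [zm_add_two, par_add_one, hκ, Bool.not_inj_iff]
  have all : ∀ (j : ℤ) (r : ℤ), r = 0 ∨ r = 1 → par (zm κ (r + 2 * j)) = κ (r + 2 * j) := by
    intro j r hr
    induction j using Int.induction_on with
    | zero => simpa using base r hr
    | succ i ih =>
      have h := (up (r + 2 * i)).1 ih
      have e : r + 2 * (i : ℤ) + 2 = r + 2 * ((i : ℤ) + 1) := by ring
      rwa [e] at h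
    | pred i ih =>
      have h := (up (r + 2 * (-(i : ℤ) - 1))).2
      have e : r + 2 * (-(i : ℤ) - 1) + 2 = r + 2 * (-(i : ℤ)) := by ring
      rw [e] at h
      exact h ih
  have e : m = m % 2 + 2 * (m / 2) := by omega
  rw [e]
  exact all (m / 2) (m % 2) (by omega)

/-- the presence set -/
def PP : Set (ZZ p) := {z | z.2.1 = 0 ∨ z.2.1 = 1}

theorem mem_PP (z : ZZ p) : z ∈ PP p ↔ (z.2.1 = 0 ∨ z.2.1 = 1) := Iff.rfl

/-- the values -/
def fv (zz : ℤ → ZMod 4) (β : ℤ × ℤ → K → Bool) (z : ZZ p) : FF p :=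
  (ft z.2.1 (zz (z.1.1 + z.1.2)), fun k => if β z.1 k then z.2.2 k else 0)

theorem half_PP : Half p (PP p) := by
  intro z
  rw [mem_PP, mem_PP]
  exact half_aux z.2.1

theorem fv_sub_tau (zz : ℤ → ZMod 4) (β : ℤ × ℤ → K → Bool) (z : ZZ p) :
    fv p zz β (z - tau p) = fv p zz β z := by
  have h1 : (z - tau p).1 = z.1 := by simp [tau]
  have h2 : (z - tau p).2.1 = z.2.1 - 2 := rfl
  have h3 : (z - tau p).2.2 = z.2.2 := by simp [tau]
  unfold fv
  rw [h1, h2, h3, ft_sub_two]

theorem hat_fv (zz : ℤ → ZMod 4) (β : ℤ × ℤ → K → Bool) (z : ZZ p) :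
    hat p (PP p) (fv p zz β) z = fv p zz β z := by
  unfold hat
  split_ifs
  · rfl
  · exact fv_sub_tau p zz β z

theorem zeta_fv (zz : ℤ → ZMod 4) (β : ℤ × ℤ → K → Bool) (z : ZZ p) :
    zeta p (PP p) (fv p zz β) z = ch (z.2.1 - zz (z.1.1 + z.1.2)) := by
  unfold zeta
  rw [fv_sub_tau, ← ft_add_ch]
  simp only [mem_PP]
  rfl

theorem str_fv (zz : ℤ → ZMod 4) (β : ℤ × ℤ → K → Bool) : Str p (PP p) (fv p zz β) β where
  half := half_PP p
  coord := by
    intro k z w hw hk
    simp only [hat_fv, fv, Prod.fst_add, Prod.snd_add, hw, add_zero, Pi.add_apply, hk]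
  fst := by
    intro z w hw hk
    simp only [hat_fv, fv, Prod.fst_add, Prod.snd_add, hw, add_zero, hk]
  slope := by
    intro k z
    simp only [hat_fv, fv, Prod.fst_add, Prod.snd_add, dl, Pi.add_apply, Pi.single_eq_same]
    have h0 : z.1 + ((0 : ℤ), (0 : ℤ)) = z.1 := by
      ext <;> simp
    rw [h0]
    split_ifs <;> simp

end T12

open T12

theorem sys_bwd [∀ k, Fact (p k).Prime] [Nonempty K] (S : BS K) (nx : K → K)
    (hnx : ∀ j k, ∃ n : ℕ, nx^[n] j = k) {β : ℤ × ℤ → K → Bool} (hβ : Sol S β) :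
    ∃ A, FT A (E0 p) ∧ ∀ e ∈ sys p S nx, FT A e := by
  classical
  -- the clock
  have hdiag : ∀ (j : ℤ) (x : ℤ × ℤ), β (x + (j, -j)) S.c = β x S.c := by
    intro j
    induction j using Int.induction_on with
    | zero =>
      intro x
      have h : x + ((0 : ℤ), -(0 : ℤ)) = x := by ext <;> simp
      rw [h]
    | succ i ih =>
      intro x
      have h := hβ.diag (x + ((i : ℤ), -(i : ℤ)))
      rw [ih x] at h
      rw [← h]
      congr 1
      ext <;> simp <;> ring
    | pred i ih =>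
      intro x
      have h := hβ.diag (x + (-(i : ℤ) - 1, -(-(i : ℤ) - 1)))
      rw [← h, ← ih x]
      congr 1
      ext <;> simp <;> ring
  obtain ⟨κ, hκ⟩ : ∃ κ : ℤ → Bool, κ = fun m => β (m, 0) S.c := ⟨_, rfl⟩
  have hκ2 : ∀ m, κ (m + 2) = !(κ m) := by
    intro m
    rw [hκ]
    have h := hβ.flip (m, 0)
    simpa using h
  have hκβ : ∀ x : ℤ × ℤ, β x S.c = κ (x.1 + x.2) := by
    intro x
    rw [hκ]
    have h := hdiag x.2 x
    rw [← h]
    congr 1
    ext <;> simp
  have hβz : ∀ x : ℤ × ℤ, par (zm κ (x.1 + x.2)) = β x S.c := by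
    intro x
    rw [par_zm κ hκ2, hκβ]
  have hstr := str_fv p (zm κ) β
  have hhalf := half_PP p
  refine ⟨mkA p (PP p) (fv p (zm κ) β), ft_mkA p hhalf _, ?_⟩
  intro e he
  simp only [sys, Set.mem_union, Set.mem_ofPred_eq] at he
  rcases he with ((((((he | he) | he) | he) | he) | he) | he) | he
  · obtain ⟨k, w, hw, rfl⟩ := he
    rw [ft_sEq p hhalf]
    intro z
    rw [sub_eq_add_neg]
    refine hstr.coord k z _ ?_ ?_
    · simp
    · simp [hw]
  · obtain ⟨k, v, hv, rfl⟩ := he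
    rw [ft_sEq p hhalf]
    intro z
    simp only [hat_fv, fv, Prod.fst_sub, Prod.snd_sub, sub_zero]
    have h := hβ.inv k v hv (z.1 - v)
    rw [sub_add_cancel] at h
    rw [h]
  · obtain ⟨k, rfl⟩ := he
    rw [ft_sAP p hhalf]
    intro z
    have h1 := hstr.slope k z
    have h2 := hstr.slope k (z - dl p k)
    rw [sub_add_cancel] at h2
    have h3 : (z - dl p k).1 = z.1 := by simp [dl]
    rw [h3] at h2
    cases hb : β z.1 k with
    | false =>
      left
      simp only [hb, Bool.false_eq_true, if_false, add_zero] at h1 h2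
      exact ⟨h1, h2.symm⟩
    | true =>
      right
      simp only [hb, if_true] at h1 h2
      exact ⟨h1, h2.symm⟩
  · obtain ⟨w, hw, rfl⟩ := he
    rw [ft_e3 p hhalf]
    intro z
    have h1 : (z - (((0, 0), w) : ZZ p)).2.1 = z.2.1 := by simp [hw]
    have h2 : (z - (((0, 0), w) : ZZ p)).1 = z.1 := by simp
    refine ⟨?_, ?_⟩
    · rw [mem_PP, mem_PP, h1]
    · intro _
      simp only [fv]
      rw [h1, h2]
  · rcases he with rfl | rfl
    · rw [ft_e4 p hhalf]
      intro z
      rw [mem_PP, mem_PP]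
      simp
    · rw [ft_e4 p hhalf]
      intro z
      rw [mem_PP, mem_PP]
      simp
  · rcases he with rfl | rfl
    · rw [ft_e5 p hhalf]
      intro z
      rw [zeta_fv, zeta_fv]
      have h1 : (z - (((2, 0), (1, 0)) : ZZ p)).2.1 = z.2.1 - 1 := rfl
      have h2 : (z - (((2, 0), (1, 0)) : ZZ p)).1.1 + (z - (((2, 0), (1, 0)) : ZZ p)).1.2
          = z.1.1 + z.1.2 - 2 := by
        show (z.1.1 - 2) + (z.1.2 - 0) = _
        ring
      rw [h1, h2, zm_sub_two]
      congr 1
      ring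
    · rw [ft_e5 p hhalf]
      intro z
      rw [zeta_fv, zeta_fv]
      have h1 : (z - (((1, -1), 0) : ZZ p)).2.1 = z.2.1 := by
        show z.2.1 - 0 = _
        rw [sub_zero]
      have h2 : (z - (((1, -1), 0) : ZZ p)).1.1 + (z - (((1, -1), 0) : ZZ p)).1.2
          = z.1.1 + z.1.2 := by
        show (z.1.1 - 1) + (z.1.2 - (-1)) = _
        ring
      rw [h1, h2]
  · subst he
    rw [ft_read p hstr]
    intro z
    rw [hat_fv, hat_fv]
    have h1 : (z - one0 p).2.1 = z.2.1 - 1 := rfl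
    have h2 : (z - one0 p).1 = z.1 := by simp [one0]
    simp only [fv]
    rw [h1, h2, ft_rd, hβz]
  · obtain ⟨b, hb, rfl⟩ := he
    rw [ft_cl p hstr nx hnx]
    intro x hx
    exact hb (hx ▸ hβ.rel x)

end

end Vale.Agent.P043.Z4
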