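import Vale.Agent.P043.Tile
import Vale.Agent.P043.Z4.Defs

/-!
P043 in dimension at least 4, layer 3: the system of tiling equations becomes one tile
(existential form; the work is in `Tile.lean`).
-/

namespace Vale.Agent.P043.Z4
open Finset

namespace T17

/-- a tiling family is injective -/
theorem ft_injective {G : Type*} [AddCommGroup G] {ι : Type*} {A : Set G} {e : ι → G}
    (h : FT A e) : Function.Injective e := by
  intro i j hij
  obtain ⟨k, hk, -⟩ := h 0
  obtain ⟨m, -, hm⟩ := h (0 - e k + e i)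
  have h1 : i = m := hm i (by
    change 0 - e k + e i - e i ∈ A
    rw [add_sub_cancel_right]
    exact hk)
  have h2 : j = m := hm j (by
    change 0 - e k + e i - e j ∈ A
    rw [← hij, add_sub_cancel_right]
    exact hk)
  rw [h1, h2]

/-- families and finite sets -/
theorem ft_iff_tiles {G : Type*} [AddCommGroup G] [DecidableEq G] {ι : Type*} [Fintype ι]
    {A : Set G} {e : ι → G} (he : Function.Injective e) :
    FT A e ↔ OneTile.Tiles A ((univ.image e : Finset G) : Set G) := by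
  constructor
  · intro h g
    obtain ⟨i, hi, hu⟩ := h g
    refine ⟨e i, ⟨by simp, hi⟩, ?_⟩
    rintro x ⟨hx, hxA⟩
    rw [Finset.mem_coe, Finset.mem_image] at hx
    obtain ⟨j, -, rfl⟩ := hx
    rw [hu j hxA]
  · intro h g
    obtain ⟨x, ⟨hx, hxA⟩, hu⟩ := h g
    rw [Finset.mem_coe, Finset.mem_image] at hx
    obtain ⟨i, -, rfl⟩ := hx
    refine ⟨i, hxA, fun j hj => he (hu (e j) ⟨by simp, hj⟩)⟩

/-- a finite set as a family -/
theorem ft_val_iff {G : Type*} [AddCommGroup G] {A : Set G} (F : Finset G) :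
    FT A (fun x : F => (x : G)) ↔ OneTile.Tiles A (F : Set G) := by
  constructor
  · intro h g
    obtain ⟨i, hi, hu⟩ := h g
    exact ⟨i, ⟨i.2, hi⟩, fun x hx => congrArg Subtype.val (hu ⟨x, hx.1⟩ hx.2)⟩
  · intro h g
    obtain ⟨x, ⟨hx, hxA⟩, hu⟩ := h g
    exact ⟨⟨x, hx⟩, hxA, fun j hj => Subtype.ext (hu j ⟨j.2, hj⟩)⟩

/-- the basic set -/
theorem image_F0 {L : Type*} [AddCommGroup L] [DecidableEq L] (s0 : L) (M : ℕ) :
    (univ.image (F0 s0 M) : Finset (L × ℤ)) = OneTile.F0 s0 M := by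
  ext ⟨k, v⟩
  rw [OneTile.mem_F0, Finset.mem_image]
  constructor
  · rintro ⟨⟨b, t⟩, -, h⟩
    unfold F0 at h
    obtain ⟨h1, h2⟩ := Prod.mk.inj h
    refine ⟨?_, ?_, ?_⟩
    · cases b
      · left
        simpa using h1.symm
      · right
        simpa using h1.symm
    · simp only
      rw [← h2]
      positivity
    · simp only
      rw [← h2]
      exact_mod_cast t.2
  · rintro ⟨h1, h2, h3⟩
    simp only at h1 h2 h3
    obtain ⟨t, rfl⟩ := Int.eq_ofNat_of_zero_le h2
    have h4 : t < M := by exact_mod_cast h3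
    rcases h1 with rfl | rfl
    · exact ⟨(false, ⟨t, h4⟩), Finset.mem_univ _, rfl⟩
    · exact ⟨(true, ⟨t, h4⟩), Finset.mem_univ _, rfl⟩

end T17

open T17 in
/-- **layer 3** -/
theorem layer3' {L : Type} [AddCommGroup L] {s0 : L} (hs : s0 ≠ 0) {M n : ℕ} (hM : 0 < M)
    {G : Fin n → Bool × Fin M → L × ℤ} (gens : List L) (hne : gens ≠ [])
    (hB : AddSubgroup.closure {b | b ∈ gens} = ⊤)
    (hex : ∃ A, FT A (F0 s0 M) ∧ ∀ t, FT A (G t))
    (hno : ∀ A, FT A (F0 s0 M) → (∀ t, FT A (G t)) → ¬ Per A) :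
    ∃ (ι : Type) (_ : Fintype ι) (e : ι → L × ℤ),
      (∃ A, FT A e) ∧ ¬ ∃ A, FT A e ∧ Per A := by
  classical
  obtain ⟨A0, hA0, hAG⟩ := hex
  have hinj0 : Function.Injective (F0 s0 M) := ft_injective hA0
  have hinj : ∀ t, Function.Injective (G t) := fun t => ft_injective (hAG t)
  obtain ⟨F, hF1, hF2⟩ := OneTile.one_tile gens hne hB hs hM
    ((List.finRange n).map fun t => univ.image (G t)) (by
      intro E hE
      obtain ⟨t, -, rfl⟩ := List.mem_map.mp hE
      refine Finset.card_image_le.trans ?_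
      rw [Finset.card_univ, Fintype.card_prod, Fintype.card_bool, Fintype.card_fin])
  refine ⟨F, inferInstance, fun x => (x : L × ℤ), ?_, ?_⟩
  · obtain ⟨A, hA⟩ := hF1 ⟨A0, by rw [← image_F0]; exact (ft_iff_tiles hinj0).mp hA0, by
      intro E hE
      obtain ⟨t, -, rfl⟩ := List.mem_map.mp hE
      exact (ft_iff_tiles (hinj t)).mp (hAG t)⟩
    exact ⟨A, (ft_val_iff F).mpr hA⟩
  · rintro ⟨A, hA, hper⟩
    obtain ⟨A1, hper1, h0, h1⟩ := hF2 A ((ft_val_iff F).mp hA) hper
    refine hno A1 ?_ ?_ hper1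
    · rw [← image_F0] at h0
      exact (ft_iff_tiles hinj0).mpr h0
    · intro t
      exact (ft_iff_tiles (hinj t)).mpr (h1 _ (List.mem_map.mpr ⟨t, List.mem_finRange t, rfl⟩))

end Vale.Agent.P043.Z4
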