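import Vale.Agent.P043.Z4.T17
import Vale.Agent.P043.Z4.Defs2

/-!
P043 in dimension at least 4: a system of tiling equations on `((ℤ × ℤ) × T) × F` with `T` and `F`
cyclic lifts to a system on `(ℤ × ℤ × ℤ) × ℤ`, hence gives one tile there.
-/

namespace Vale.Agent.P043.Z4

namespace T18

/-- pulling back a tiling family along a surjective homomorphism -/
theorem ft_pull {G G' : Type*} [AddCommGroup G] [AddCommGroup G'] (π : G →+ G')
    (hπ : Function.Surjective π) {ι ι' : Type*} (σ : ι ≃ ι') {A : Set G'} {e : ι → G}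
    {e' : ι' → G'} (h : ∀ i, π (e i) = e' (σ i)) : FT (π ⁻¹' A) e ↔ FT A e' := by
  constructor
  · intro H x
    obtain ⟨y, rfl⟩ := hπ x
    obtain ⟨i, hi, hu⟩ := H y
    refine ⟨σ i, ?_, ?_⟩
    · have h1 : π (y - e i) ∈ A := hi
      rwa [map_sub, h] at h1
    · intro j hj
      have h1 := hu (σ.symm j) (by
        change π (y - e (σ.symm j)) ∈ A
        rw [map_sub, h, Equiv.apply_symm_apply]
        exact hj)
      rw [← h1, Equiv.apply_symm_apply]
  · intro H x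
    obtain ⟨i, hi, hu⟩ := H (π x)
    refine ⟨σ.symm i, ?_, ?_⟩
    · change π (x - e (σ.symm i)) ∈ A
      rw [map_sub, h, Equiv.apply_symm_apply]
      exact hi
    · intro j hj
      have h1 : π (x - e j) ∈ A := hj
      rw [map_sub, h] at h1
      rw [← hu _ h1, Equiv.symm_apply_apply]

/-- a tiling by a family and by the family with one element moved by `g` is `g`-invariant -/
theorem inv_of_update {G : Type*} [AddCommGroup G] {ι : Type*} [DecidableEq ι] {A : Set G}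
    {e : ι → G} (i0 : ι) (g : G) (h0 : FT A e)
    (h1 : FT A (Function.update e i0 (e i0 + g))) (x : G) : x ∈ A ↔ x + g ∈ A := by
  have e1 : x + e i0 + g - e i0 = x + g := by abel
  have e2 : x + e i0 + g - Function.update e i0 (e i0 + g) i0 = x := by
    rw [Function.update_self]; abel
  constructor
  · intro hx
    obtain ⟨i, hi, -⟩ := h0 (x + e i0 + g)
    obtain ⟨j, -, hj⟩ := h1 (x + e i0 + g)
    by_cases hii : i = i0
    · subst hii
      rwa [e1] at hi
    · exfalso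
      apply hii
      have h2 : i = j := hj i (by
        change x + e i0 + g - Function.update e i0 (e i0 + g) i ∈ A
        rw [Function.update_of_ne hii]
        exact hi)
      have h3 : i0 = j := hj i0 (by
        change x + e i0 + g - Function.update e i0 (e i0 + g) i0 ∈ A
        rw [e2]
        exact hx)
      rw [h2, h3]
  · intro hx
    obtain ⟨i, hi, -⟩ := h1 (x + e i0 + g)
    obtain ⟨j, -, hj⟩ := h0 (x + e i0 + g)
    by_cases hii : i = i0
    · subst hii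
      simpa only [e2] using hi
    · exfalso
      apply hii
      have h2 : i = j := hj i (by
        change x + e i0 + g - e i ∈ A
        have h3 : x + e i0 + g - Function.update e i0 (e i0 + g) i ∈ A := hi
        rwa [Function.update_of_ne hii] at h3)
      have h3 : i0 = j := hj i0 (by
        change x + e i0 + g - e i0 ∈ A
        rw [e1]
        exact hx)
      rw [h2, h3]

/-- the converse -/
theorem update_of_inv {G : Type*} [AddCommGroup G] {ι : Type*} [DecidableEq ι] {A : Set G}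
    {e : ι → G} (i0 : ι) (g : G) (h0 : FT A e) (h : ∀ x, x ∈ A ↔ x + g ∈ A) :
    FT A (Function.update e i0 (e i0 + g)) := by
  have key : ∀ x i, x - Function.update e i0 (e i0 + g) i ∈ A ↔ x - e i ∈ A := by
    intro x i
    by_cases hii : i = i0
    · subst hii
      rw [Function.update_self, h (x - (e i + g))]
      have : x - (e i + g) + g = x - e i := by abel
      rw [this]
    · rw [Function.update_of_ne hii]
  intro x
  obtain ⟨i, hi, hu⟩ := h0 x
  exact ⟨i, (key x i).mpr hi, fun j hj => hu j ((key x j).mp hj)⟩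

/-- the finite cyclic group as an interval -/
theorem exists_equiv {F : Type} [AddCommGroup F] (φ : ℤ →+ F) (hφ : Function.Surjective φ)
    (M : ℕ) (hM : 0 < M) (kφ : ∀ n : ℤ, φ n = 0 ↔ (M : ℤ) ∣ n) :
    ∃ σ : Fin M ≃ F, ∀ j : Fin M, σ j = φ ((j : ℕ) : ℤ) := by
  have hM' : (0 : ℤ) < M := by exact_mod_cast hM
  refine ⟨Equiv.ofBijective (fun j : Fin M => φ ((j : ℕ) : ℤ)) ⟨?_, ?_⟩, fun j => rfl⟩
  · intro i j hij
    have h1 : φ (((i : ℕ) : ℤ) - ((j : ℕ) : ℤ)) = 0 := by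
      rw [map_sub]
      exact sub_eq_zero.mpr hij
    rw [kφ] at h1
    have h2 : ((i : ℕ) : ℤ) < M := by exact_mod_cast i.2
    have h3 : ((j : ℕ) : ℤ) < M := by exact_mod_cast j.2
    have h4 : |((i : ℕ) : ℤ) - ((j : ℕ) : ℤ)| < M := by
      rw [abs_lt]
      constructor <;> omega
    have h5 := Int.eq_zero_of_abs_lt_dvd h1 h4
    apply Fin.ext
    omega
  · intro u
    obtain ⟨n, rfl⟩ := hφ u
    have h1 : 0 ≤ n % M := Int.emod_nonneg _ hM'.ne'
    have h2 : n % M < M := Int.emod_lt_of_pos _ hM'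
    refine ⟨⟨(n % M).toNat, by omega⟩, ?_⟩
    change φ (((n % M).toNat : ℕ) : ℤ) = φ n
    rw [Int.toNat_of_nonneg h1]
    have h3 : φ (n % M - n) = 0 := by
      rw [kφ]
      exact ⟨-(n / M), by
        have := Int.emod_add_mul_ediv n M
        linarith [this]⟩
    rw [map_sub, sub_eq_zero] at h3
    exact h3

end T18

open T18 in
/-- **from the system to one tile of `(ℤ × ℤ × ℤ) × ℤ`** -/
theorem lift {T F : Type} [AddCommGroup T] [AddCommGroup F] (θ : ℤ →+ T) (φ : ℤ →+ F)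
    (hθ : Function.Surjective θ) (hφ : Function.Surjective φ) (t0 M : ℕ) (ht0 : 0 < t0)
    (hM : 0 < M) (kθ : ∀ n : ℤ, θ n = 0 ↔ ((2 * t0 : ℕ) : ℤ) ∣ n)
    (kφ : ∀ n : ℤ, φ n = 0 ↔ (M : ℤ) ∣ n)
    (sy : Set (Bool × F → ((ℤ × ℤ) × T) × F)) (hfin : sy.Finite)
    (hex : ∃ A, FT A (fun i : Bool × F => ((((0 : ℤ × ℤ), if i.1 then θ t0 else 0), i.2) :
      ((ℤ × ℤ) × T) × F)) ∧ ∀ e ∈ sy, FT A e)
    (hno : ∀ A, FT A (fun i : Bool × F => ((((0 : ℤ × ℤ), if i.1 then θ t0 else 0), i.2) :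
      ((ℤ × ℤ) × T) × F)) → (∀ e ∈ sy, FT A e) → ¬ Per A) :
    ∃ (ι : Type) (_ : Fintype ι) (e : ι → (ℤ × ℤ × ℤ) × ℤ),
      (∃ A, FT A e) ∧ ¬ ∃ A, FT A e ∧ Per A := by
  classical
  obtain ⟨σ, hσ⟩ := exists_equiv φ hφ M hM kφ
  -- the projection
  let π : ((ℤ × ℤ × ℤ) × ℤ) →+ (((ℤ × ℤ) × T) × F) :=
    { toFun := fun x => (((x.1.1, x.1.2.1), θ x.1.2.2), φ x.2)
      map_zero' := by simp
      map_add' := by intro x y; simp }
  have hπv : ∀ x : (ℤ × ℤ × ℤ) × ℤ, π x = (((x.1.1, x.1.2.1), θ x.1.2.2), φ x.2) := fun x => rfl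
  have hπ : Function.Surjective π := by
    rintro ⟨⟨⟨a, b⟩, t⟩, u⟩
    obtain ⟨c, rfl⟩ := hθ t
    obtain ⟨d, rfl⟩ := hφ u
    exact ⟨((a, b, c), d), rfl⟩
  -- the index bijection
  let ρ : Bool × Fin M ≃ Bool × F := Equiv.prodCongr (Equiv.refl Bool) σ
  -- a section of the projection
  choose sec hsec using hπ
  let up : (Bool × F → ((ℤ × ℤ) × T) × F) → (Bool × Fin M → (ℤ × ℤ × ℤ) × ℤ) :=
    fun e i => sec (e (ρ i))
  have hup : ∀ e i, π (up e i) = e (ρ i) := fun e i => hsec _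
  let s0 : ℤ × ℤ × ℤ := (0, 0, (t0 : ℤ))
  have hs0 : s0 ≠ 0 := by
    intro h
    have h1 : (t0 : ℤ) = 0 := congrArg (fun x : ℤ × ℤ × ℤ => x.2.2) h
    omega
  have hF0 : ∀ i, π (F0 s0 M i) = (fun i : Bool × F => ((((0 : ℤ × ℤ),
      if i.1 then θ t0 else 0), i.2) : ((ℤ × ℤ) × T) × F)) (ρ i) := by
    rintro ⟨b, j⟩
    rw [hπv]
    cases b
    · simp [F0, ρ, hσ]
    · simp [F0, ρ, hσ, s0]
  let i0 : Bool × Fin M := (false, ⟨0, hM⟩)
  let g1 : (ℤ × ℤ × ℤ) × ℤ := ((0, 0, ((2 * t0 : ℕ) : ℤ)), 0)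
  let g2 : (ℤ × ℤ × ℤ) × ℤ := (0, (M : ℤ))
  have hg1 : π g1 = 0 := by
    rw [hπv]
    have : θ ((2 * t0 : ℕ) : ℤ) = 0 := (kθ _).mpr dvd_rfl
    simp only [g1, this, map_zero]
    rfl
  have hg2 : π g2 = 0 := by
    rw [hπv]
    have : φ (M : ℤ) = 0 := (kφ _).mpr dvd_rfl
    simp only [g2, this]
    simp
  let U : (ℤ × ℤ × ℤ) × ℤ → (Bool × Fin M → (ℤ × ℤ × ℤ) × ℤ) :=
    fun g => Function.update (F0 s0 M) i0 (F0 s0 M i0 + g)
  let pool : Set (Bool × Fin M → (ℤ × ℤ × ℤ) × ℤ) := (up '' sy) ∪ {U g1, U g2}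
  have hpool : pool.Finite := (hfin.image up).union (Set.toFinite _)
  obtain ⟨n, G, hG⟩ := hpool.fin_embedding
  have hGm : ∀ (Q : (Bool × Fin M → (ℤ × ℤ × ℤ) × ℤ) → Prop), (∀ t, Q (G t)) ↔ ∀ e ∈ pool, Q e := by
    intro Q
    rw [← hG]
    constructor
    · rintro h e ⟨t, rfl⟩
      exact h t
    · intro h t
      exact h _ ⟨t, rfl⟩
  have hgens : AddSubgroup.closure {b : ℤ × ℤ × ℤ | b ∈ [((1, 0, 0) : ℤ × ℤ × ℤ), (0, 1, 0),
      (0, 0, 1)]} = ⊤ := by
    rw [eq_top_iff]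
    rintro ⟨a, b, c⟩ -
    have h : ((a, b, c) : ℤ × ℤ × ℤ) = a • ((1, 0, 0) : ℤ × ℤ × ℤ) +
        b • ((0, 1, 0) : ℤ × ℤ × ℤ) + c • ((0, 0, 1) : ℤ × ℤ × ℤ) := by
      simp
    rw [h]
    refine add_mem (add_mem (zsmul_mem (AddSubgroup.subset_closure ?_) _)
      (zsmul_mem (AddSubgroup.subset_closure ?_) _)) (zsmul_mem (AddSubgroup.subset_closure ?_) _)
    all_goals simp
  refine layer3' (s0 := s0) hs0 (M := M) (n := n) hM (G := G)
    [((1, 0, 0) : ℤ × ℤ × ℤ), (0, 1, 0), (0, 0, 1)] (by simp) hgens ?_ ?_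
  · obtain ⟨A, hA0, hA1⟩ := hex
    have h0 : FT (π ⁻¹' A) (F0 s0 M) := (ft_pull π (fun x => ⟨sec x, hsec x⟩) ρ hF0).mpr hA0
    refine ⟨π ⁻¹' A, h0, ?_⟩
    rw [hGm]
    rintro e (⟨e', he', rfl⟩ | h)
    · exact (ft_pull π (fun x => ⟨sec x, hsec x⟩) ρ (hup e')).mpr (hA1 e' he')
    · have hinv : ∀ g, π g = 0 → ∀ x, x ∈ π ⁻¹' A ↔ x + g ∈ π ⁻¹' A := by
        intro g hg x
        rw [Set.mem_preimage, Set.mem_preimage, map_add, hg, add_zero]
      rcases h with rfl | h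
      · exact update_of_inv i0 g1 h0 (hinv g1 hg1)
      · rw [Set.mem_singleton_iff] at h
        subst h
        exact update_of_inv i0 g2 h0 (hinv g2 hg2)
  · intro A hA0 hA1 hper
    rw [hGm] at hA1
    have i1 := inv_of_update i0 g1 hA0 (hA1 _ (Or.inr (Or.inl rfl)))
    have i2 := inv_of_update i0 g2 hA0 (hA1 _ (Or.inr (Or.inr rfl)))
    -- invariance under the kernel
    let S : AddSubgroup ((ℤ × ℤ × ℤ) × ℤ) :=
      { carrier := {g | ∀ x, x ∈ A ↔ x + g ∈ A}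
        zero_mem' := by intro x; rw [add_zero]
        add_mem' := by
          intro a b ha hb x
          rw [ha x, hb (x + a), add_assoc]
        neg_mem' := by
          intro a ha x
          rw [ha (x + -a), neg_add_cancel_right] }
    have hker : ∀ g, π g = 0 → g ∈ S := by
      rintro ⟨⟨a, b, c⟩, d⟩ hg
      rw [hπv] at hg
      simp only [Prod.mk_eq_zero] at hg
      obtain ⟨⟨⟨rfl, rfl⟩, hc⟩, hd⟩ := hg
      obtain ⟨c', rfl⟩ := (kθ c).mp hc
      obtain ⟨d', rfl⟩ := (kφ d).mp hd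
      have h : (((0, 0, ((2 * t0 : ℕ) : ℤ) * c'), (M : ℤ) * d') : (ℤ × ℤ × ℤ) × ℤ) =
          c' • g1 + d' • g2 := by
        simp [g1, g2, mul_comm]
      rw [h]
      exact add_mem (zsmul_mem (show g1 ∈ S from i1) _) (zsmul_mem (show g2 ∈ S from i2) _)
    have hAA : π ⁻¹' (π '' A) = A := by
      apply Set.Subset.antisymm
      · rintro x ⟨y, hy, hxy⟩
        have h1 : x - y ∈ S := hker _ (by rw [map_sub, hxy, sub_self])
        have h2 := (h1 y).mp hy
        rwa [add_sub_cancel] at h2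
      · exact Set.subset_preimage_image π A
    refine hno (π '' A) ?_ ?_ ?_
    · refine (ft_pull π (fun x => ⟨sec x, hsec x⟩) ρ hF0).mp ?_
      rw [hAA]
      exact hA0
    · intro e he
      refine (ft_pull π (fun x => ⟨sec x, hsec x⟩) ρ (hup e)).mp ?_
      rw [hAA]
      exact hA1 _ (Or.inl ⟨e, he, rfl⟩)
    · obtain ⟨H, hH, hHA⟩ := hper
      refine ⟨H.map π, ?_, ?_⟩
      · refine ⟨?_⟩
        intro h0
        have h1 := AddSubgroup.index_map_dvd H (f := π) (fun x => ⟨sec x, hsec x⟩)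
        rw [h0] at h1
        exact hH.index_ne_zero (Nat.eq_zero_of_zero_dvd h1)
      · rintro h ⟨g, hg, rfl⟩ a ⟨b, hb, rfl⟩
        exact ⟨b + g, hHA g hg b hb, map_add π b g⟩

end Vale.Agent.P043.Z4
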