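import Vale.Agent.P043.Z4.Defs2

/-!
P043, T19: the time group and the fibre group are cyclic; a cyclic permutation of the bits;
distinct odd primes.
-/

namespace Vale.Agent.P043.Z4

namespace T19

variable {K : Type} [Fintype K] (a : ℕ) (p : K → ℕ)

/-- the canonical map -/
def can : ℤ →+ ZMod a × (∀ k, ZMod (p k)) := Int.castAddHom _

omit [Fintype K] in
theorem can_apply (n : ℤ) : can a p n = ((n : ZMod a), fun k => (n : ZMod (p k))) := rfl

theorem can_eq_zero (hinj : Function.Injective p) (hp : ∀ k, (p k).Prime)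
    (ha : ∀ k, Nat.Coprime a (p k)) (n : ℤ) :
    can a p n = 0 ↔ ((a * ∏ k, p k : ℕ) : ℤ) ∣ n := by
  rw [can_apply]
  constructor
  · intro h
    have h1 : ((n : ZMod a)) = 0 := congrArg Prod.fst h
    have h2 : ∀ k, ((n : ZMod (p k))) = 0 := fun k => congrFun (congrArg Prod.snd h) k
    have h1' : (a : ℤ) ∣ n := (ZMod.intCast_zmod_eq_zero_iff_dvd n a).1 h1
    have h2' : ∀ k, ((p k : ℕ) : ℤ) ∣ n := fun k =>
      (ZMod.intCast_zmod_eq_zero_iff_dvd n (p k)).1 (h2 k)
    have h3 : (∏ k, p k) ∣ n.natAbs := by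
      apply Finset.prod_dvd_of_isRelPrime
      · intro i _ j _ hij
        exact Nat.coprime_iff_isRelPrime.1
          ((Nat.coprime_primes (hp i) (hp j)).2 (fun e => hij (hinj e)))
      · intro k _
        exact Int.natCast_dvd.1 (h2' k)
    have h4 : a ∣ n.natAbs := Int.natCast_dvd.1 h1'
    have h5 : Nat.Coprime a (∏ k, p k) := Nat.Coprime.prod_right fun k _ => ha k
    exact Int.natCast_dvd.2 (Nat.Coprime.mul_dvd_of_dvd_of_dvd h5 h4 h3)
  · intro h
    have h1 : (a : ℤ) ∣ n := dvd_trans (by exact_mod_cast dvd_mul_right a _) h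
    have h2 : ∀ k, ((p k : ℕ) : ℤ) ∣ n := fun k =>
      dvd_trans (by exact_mod_cast dvd_mul_of_dvd_right (Finset.dvd_prod_of_mem p
        (Finset.mem_univ k)) a) h
    ext k
    · exact (ZMod.intCast_zmod_eq_zero_iff_dvd n a).2 h1
    · exact (ZMod.intCast_zmod_eq_zero_iff_dvd n (p k)).2 (h2 k)

theorem can_surjective [NeZero a] [DecidableEq K] [∀ k, NeZero (p k)]
    (hinj : Function.Injective p) (hp : ∀ k, (p k).Prime)
    (ha : ∀ k, Nat.Coprime a (p k)) : Function.Surjective (can a p) := by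
  set N : ℕ := a * ∏ k, p k with hN
  have hN0 : N ≠ 0 := by
    rw [hN]
    exact mul_ne_zero (NeZero.ne a) (Finset.prod_ne_zero_iff.2 fun k _ => NeZero.ne (p k))
  have : NeZero N := ⟨hN0⟩
  let f : ZMod N → ZMod a × (∀ k, ZMod (p k)) := fun x => can a p (x.val : ℤ)
  have hf : Function.Injective f := by
    intro x y h
    have h' : can a p ((x.val : ℤ) - (y.val : ℤ)) = 0 := by
      rw [map_sub, sub_eq_zero]; exact h
    rw [can_eq_zero a p hinj hp ha] at h'
    have h3 : (((x.val : ℤ) - (y.val : ℤ) : ℤ) : ZMod N) = 0 :=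
      (ZMod.intCast_zmod_eq_zero_iff_dvd _ N).2 h'
    push_cast at h3
    rw [ZMod.natCast_zmod_val, ZMod.natCast_zmod_val] at h3
    exact sub_eq_zero.1 h3
  have hb : Function.Bijective f := by
    rw [Fintype.bijective_iff_injective_and_card]
    refine ⟨hf, ?_⟩
    rw [Fintype.card_prod, Fintype.card_pi]
    simp only [ZMod.card]
    exact hN
  intro y
  obtain ⟨x, hx⟩ := hb.2 y
  exact ⟨_, hx⟩

end T19

theorem crt_TT {K : Type} [Fintype K] [DecidableEq K] (p : K → ℕ) [∀ k, Fact (p k).Prime]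
    (hodd : ∀ k, p k ≠ 2) (hinj : Function.Injective p) :
    ∃ θ : ℤ →+ TT p, Function.Surjective θ ∧ θ ((2 * ∏ k, p k : ℕ) : ℤ) = (2, 0) ∧
      ∀ n : ℤ, θ n = 0 ↔ ((2 * (2 * ∏ k, p k) : ℕ) : ℤ) ∣ n := by
  have hp : ∀ k, (p k).Prime := fun k => Fact.out
  have hop : ∀ k, Odd (p k) := fun k => (hp k).odd_of_ne_two (hodd k)
  have ha : ∀ k, Nat.Coprime 4 (p k) := fun k => by
    have : Nat.Coprime (2 ^ 2) (p k) := Nat.Coprime.pow_left 2 ((hop k).coprime_two_left)
    simpa using this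
  refine ⟨T19.can 4 p, T19.can_surjective 4 p hinj hp ha, ?_, ?_⟩
  · rw [T19.can_apply]
    ext k
    · have hprod : Odd (∏ k, p k) := Finset.prod_induction p Odd (fun _ _ h1 h2 => h1.mul h2)
        odd_one (fun k _ => hop k)
      obtain ⟨m, hm⟩ := hprod
      show (((2 * ∏ k, p k : ℕ) : ℤ) : ZMod 4) = 2
      rw [hm]
      push_cast
      have h4 : (4 : ZMod 4) = 0 := by decide
      linear_combination (m : ZMod 4) * h4
    · show (((2 * ∏ k, p k : ℕ) : ℤ) : ZMod (p k)) = 0
      rw [Int.cast_natCast, ZMod.natCast_eq_zero_iff]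
      exact dvd_mul_of_dvd_right (Finset.dvd_prod_of_mem p (Finset.mem_univ k)) 2
  · intro n
    rw [T19.can_eq_zero 4 p hinj hp ha]
    have : 2 * (2 * ∏ k, p k) = 4 * ∏ k, p k := by ring
    rw [this]

theorem crt_FF {K : Type} [Fintype K] [DecidableEq K] (p : K → ℕ) [∀ k, Fact (p k).Prime]
    (hodd : ∀ k, p k ≠ 2) (hinj : Function.Injective p) :
    ∃ φ : ℤ →+ FF p, Function.Surjective φ ∧
      ∀ n : ℤ, φ n = 0 ↔ ((2 * ∏ k, p k : ℕ) : ℤ) ∣ n := by
  have hp : ∀ k, (p k).Prime := fun k => Fact.out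
  have ha : ∀ k, Nat.Coprime 2 (p k) := fun k =>
    ((hp k).odd_of_ne_two (hodd k)).coprime_two_left
  exact ⟨T19.can 2 p, T19.can_surjective 2 p hinj hp ha, fun n =>
    T19.can_eq_zero 2 p hinj hp ha n⟩

theorem exists_cycle (K : Type) [Fintype K] [Nonempty K] :
    ∃ nx : K → K, ∀ j k, ∃ n : ℕ, nx^[n] j = k := by
  obtain ⟨m, hm⟩ : ∃ m, Fintype.card K = m + 1 :=
    ⟨Fintype.card K - 1, by have := Fintype.card_pos (α := K); omega⟩
  obtain ⟨e⟩ : Nonempty (K ≃ ZMod (m + 1)) :=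
    Fintype.card_eq.1 (by rw [hm, ZMod.card])
  refine ⟨fun j => e.symm (e j + 1), fun j k => ?_⟩
  have key : ∀ (n : ℕ) (j : K), (fun j => e.symm (e j + 1))^[n] j =
      e.symm (e j + (n : ZMod (m + 1))) := by
    intro n
    induction n with
    | zero => intro j; simp
    | succ n ih =>
      intro j
      rw [Function.iterate_succ_apply, ih]
      simp only [Equiv.apply_symm_apply]
      congr 1
      push_cast
      ring
  refine ⟨(e k - e j).val, ?_⟩
  rw [key, Equiv.symm_apply_eq, ZMod.natCast_zmod_val]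
  ring

theorem exists_primes (K : Type) [Fintype K] :
    ∃ p : K → ℕ, (∀ k, (p k).Prime) ∧ (∀ k, p k ≠ 2) ∧ Function.Injective p := by
  have hinf : (Set.ofPred Nat.Prime).Infinite := Nat.infinite_setOfPred_prime
  have hnth : Function.Injective (Nat.nth Nat.Prime) := Nat.nth_injective hinf
  refine ⟨fun k => Nat.nth Nat.Prime ((Fintype.equivFin K k : ℕ) + 1), fun k =>
    Nat.prime_nth_prime _, fun k h => ?_, fun j k h => ?_⟩
  · have h0 : Nat.nth Nat.Prime 0 = 2 := Nat.nth_prime_zero_eq_two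
    have := hnth (h.trans h0.symm)
    omega
  · have h1 := hnth h
    have h2 : (Fintype.equivFin K j) = (Fintype.equivFin K k) := Fin.ext (by omega)
    exact (Fintype.equivFin K).injective h2

end Vale.Agent.P043.Z4
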