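import Vale.Agent.P043.Z4.T05
import Vale.Agent.P043.Z4.T11a
import Vale.Agent.P043.Z4.T11b
import Vale.Agent.P043.Z4.T12
import Vale.Agent.P043.Z4.T18
import Vale.Agent.P043.Z4.T19

/-!
P043, final assembly: for every `d ≥ 4` there is a finite tile of `ℤ^d` that admits no
periodic tiling.
-/

namespace Vale.Agent.P043.Z4

namespace T20

/-! ### families and finite sets -/

theorem ft_injective {G : Type*} [AddCommGroup G] {ι : Type*} {A : Set G} {e : ι → G}
    (h : FT A e) : Function.Injective e := by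
  obtain ⟨i0, hi0, _⟩ := h 0
  intro i j hij
  have h1 := h ((0 - e i0) + e i)
  refine h1.unique ?_ ?_
  · simpa using hi0
  · rw [← hij]; simpa using hi0

theorem isTiling_map_iff {G : Type*} [AddCommGroup G] {ι : Type*} [Fintype ι]
    {e : ι → G} (he : Function.Injective e) (A : Set G) :
    IsTiling A (Finset.univ.map ⟨e, he⟩) ↔ FT A e := by
  constructor
  · intro h x
    obtain ⟨⟨a, f⟩, ⟨ha, hf, hx⟩, hu⟩ := h x
    simp only [Finset.mem_map, Finset.mem_univ, true_and, Function.Embedding.coeFn_mk] at ha hf hx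
    obtain ⟨i, rfl⟩ := hf
    refine ⟨i, ?_, ?_⟩
    · have : x - e i = a := by rw [← hx]; abel
      show x - e i ∈ A
      rw [this]; exact ha
    · intro j hj
      have := hu (x - e j, e j) ⟨hj, by simp, sub_add_cancel x (e j)⟩
      exact he (congrArg Prod.snd this)
  · intro h x
    obtain ⟨i, hi, hu⟩ := h x
    refine ⟨(x - e i, e i), ⟨hi, by simp, sub_add_cancel x (e i)⟩, ?_⟩
    rintro ⟨a, f⟩ ⟨ha, hf, hx⟩
    simp only [Finset.mem_map, Finset.mem_univ, true_and, Function.Embedding.coeFn_mk] at ha hf hx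
    obtain ⟨j, rfl⟩ := hf
    have hxa : x - e j = a := by rw [← hx]; abel
    have : j = i := hu j (by show x - e j ∈ A; rw [hxa]; exact ha)
    subst this
    rw [hxa]

theorem per_of_isPeriodic {G : Type*} [AddCommGroup G] {A : Set G} (h : IsPeriodic A) :
    Per A := by
  obtain ⟨H, hH, hA⟩ := h
  refine ⟨H, hH, fun h hh a ha => ?_⟩
  rw [← hA h hh]
  exact ⟨a, ha, rfl⟩

/-- the passage from `G` to a group `H` containing it as a direct summand -/
theorem transfer {G H : Type*} [AddCommGroup G] [AddCommGroup H] {ι : Type*} {e : ι → G}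
    (i : G →+ H) (p : H →+ G) (hpi : ∀ g, p (i g) = g)
    (hex : ∃ A, FT A e) (hno : ¬ ∃ A, FT A e ∧ Per A) :
    (∃ A, FT A (fun j => i (e j))) ∧ ¬ ∃ A, FT A (fun j => i (e j)) ∧ Per A := by
  constructor
  · obtain ⟨A, hA⟩ := hex
    refine ⟨p ⁻¹' A, fun x => ?_⟩
    obtain ⟨j, hj, hu⟩ := hA (p x)
    refine ⟨j, ?_, ?_⟩
    · simpa [hpi] using hj
    · intro k hk
      exact hu k (by simpa [hpi] using hk)
  · rintro ⟨A, hA, H0, hH0, hper⟩
    refine hno ⟨i ⁻¹' A, fun x => ?_, H0.comap i, ?_, ?_⟩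
    · obtain ⟨j, hj, hu⟩ := hA (i x)
      refine ⟨j, ?_, ?_⟩
      · simpa using hj
      · intro k hk
        exact hu k (by simpa using hk)
    · rw [AddSubgroup.finiteIndex_iff]
      have h1 : H0.relIndex ⊤ ≠ 0 := by
        rw [AddSubgroup.relIndex_top_right]
        exact hH0.index_ne_zero
      have h2 := AddSubgroup.relIndex_comap_ne_zero i h1
      rwa [AddSubgroup.comap_top, AddSubgroup.relIndex_top_right] at h2
    · intro h hh a ha
      have := hper (i h) hh (i a) ha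
      simpa using this

/-- the embedding `ℤ^4 → ℤ^d` -/
def emb (d : ℕ) : ((ℤ × ℤ × ℤ) × ℤ) →+ (Fin d → ℤ) where
  toFun g j := if j.1 = 0 then g.1.1 else if j.1 = 1 then g.1.2.1 else
    if j.1 = 2 then g.1.2.2 else if j.1 = 3 then g.2 else 0
  map_zero' := by
    funext j; simp
  map_add' a b := by
    funext j
    simp only [Pi.add_apply, Prod.fst_add, Prod.snd_add]
    split_ifs <;> simp

/-- the projection `ℤ^d → ℤ^4` -/
def prj (d : ℕ) (hd : 4 ≤ d) : (Fin d → ℤ) →+ ((ℤ × ℤ × ℤ) × ℤ) where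
  toFun f := ((f ⟨0, by omega⟩, f ⟨1, by omega⟩, f ⟨2, by omega⟩), f ⟨3, by omega⟩)
  map_zero' := by simp
  map_add' a b := by simp

theorem prj_emb (d : ℕ) (hd : 4 ≤ d) (g : (ℤ × ℤ × ℤ) × ℤ) : prj d hd (emb d g) = g := by
  rcases g with ⟨⟨a, b, c⟩, u⟩
  simp [prj, emb]

/-- a family in `ℤ^4` that tiles, but not periodically -/
theorem exists_family : ∃ (ι : Type) (_ : Fintype ι) (e : ι → (ℤ × ℤ × ℤ) × ℤ),
    (∃ A, FT A e) ∧ ¬ ∃ A, FT A e ∧ Per A := by
  obtain ⟨K, _, _, _, S, hfin, ⟨β, hβ⟩, hno⟩ := layer1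
  obtain ⟨nx, hnx⟩ := exists_cycle K
  obtain ⟨p, hp, hp2, hpinj⟩ := exists_primes K
  have : ∀ k, Fact (p k).Prime := fun k => ⟨hp k⟩
  obtain ⟨θ, hθ, hθ2, kθ⟩ := crt_TT p hp2 hpinj
  obtain ⟨φ, hφ, kφ⟩ := crt_FF p hp2 hpinj
  have hpos : 0 < 2 * ∏ k, p k :=
    Nat.mul_pos (by norm_num) (Finset.prod_pos fun k _ => (hp k).pos)
  have hE : (fun i : Bool × FF p => ((((0 : ℤ × ℤ),
      if i.1 then θ ((2 * ∏ k, p k : ℕ) : ℤ) else 0), i.2) : ((ℤ × ℤ) × TT p) × FF p)) = E0 p := by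
    funext ⟨b, u⟩
    cases b
    · simp [E0, eps]
    · simp only [E0, eps, tau, if_true]
      rw [hθ2]
      rfl
  refine lift (T := TT p) (F := FF p) θ φ hθ hφ (2 * ∏ k, p k) (2 * ∏ k, p k) hpos hpos kθ kφ
    (sys p S nx) (sys_finite p S hfin nx) ?_ ?_
  · rw [hE]
    exact sys_bwd p S nx hnx hβ
  · rw [hE]
    intro A hA hsys hper
    obtain ⟨β', hβ', hpp⟩ := sys_fwd p S nx hnx hA hsys
    exact hno β' hβ' (hpp hper)

end T20

/-- **The periodic tiling conjecture fails in `ℤ^d` for every `d ≥ 4`.** -/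
theorem periodicTiling_fails : ∀ d : ℕ, 4 ≤ d → ∃ F : Finset (Fin d → ℤ),
    (∃ A : Set (Fin d → ℤ), IsTiling A F) ∧
      ¬ ∃ A : Set (Fin d → ℤ), IsTiling A F ∧ IsPeriodic A := by
  intro d hd
  obtain ⟨ι, _, e, hex, hno⟩ := T20.exists_family
  obtain ⟨⟨A, hA⟩, hno'⟩ := T20.transfer (T20.emb d) (T20.prj d hd) (T20.prj_emb d hd) hex hno
  have hinj := T20.ft_injective hA
  refine ⟨Finset.univ.map ⟨fun j => T20.emb d (e j), hinj⟩,
    ⟨A, (T20.isTiling_map_iff hinj A).2 hA⟩, ?_⟩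
  rintro ⟨A', hA', hper⟩
  exact hno' ⟨A', (T20.isTiling_map_iff hinj A').1 hA', T20.per_of_isPeriodic hper⟩

end Vale.Agent.P043.Z4
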